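import Vale.Agent.P154.Near.Final
import Vale.Agent.P154.MonoNeg
import Vale.Agent.P154.KS

/-!
# P154: three colours, at most four children, antiferromagnetic range
-/

namespace Vale.Agent.P154

open Filter Topology

theorem nonreconstruction_four {lam : ℝ} (h0 : -1 / 2 ≤ lam) (h1 : lam ≤ 0) {d : ℕ}
    (hd : d ≤ 4) : Nonreconstruction (aRegular 3 lam d) := by
  have hq : 0 < 3 := by norm_num
  have ha : Admissible 3 lam := admissible_three h0 (by linarith)
  exact squeeze_zero (fun n => quenched_nonneg hq ha _ n)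
    (fun n => quenched_mono_neg h0 h1 (N := fun _ => d) (N' := fun _ => 4) (fun _ => hd) n)
    nonreconstruction_ghost

/-- the threshold for three colours and at most four children, antiferromagnetic range -/
theorem threshold_four {lam : ℝ} (h0 : -1 / 2 ≤ lam) (h1 : lam ≤ 0) {d : ℕ} (hd : d ≤ 4) :
    (Reconstruction (aRegular 3 lam d) ↔ 1 < (d : ℝ) * lam ^ 2) ∧
    (Nonreconstruction (aRegular 3 lam d) ↔ (d : ℝ) * lam ^ 2 ≤ 1) := by
  have hn := nonreconstruction_four h0 h1 hd
  have hd' : (d : ℝ) ≤ 4 := by exact_mod_cast hd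
  have hl : lam ^ 2 ≤ 1 / 4 := by nlinarith
  have hle : (d : ℝ) * lam ^ 2 ≤ 1 := by
    have : (d : ℝ) * lam ^ 2 ≤ 4 * (1 / 4) :=
      mul_le_mul hd' hl (sq_nonneg _) (by norm_num)
    linarith
  exact ⟨⟨fun hr => absurd hn (fun h => not_both hr h), fun h => absurd hle (not_le.2 h)⟩,
    ⟨fun _ => hle, fun _ => hn⟩⟩

end Vale.Agent.P154
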