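import Vale.Agent.P154.Near.Data

/-!
# P154: kernel checks, level one, second part
-/

namespace Vale.Agent.P154

open PExp

set_option maxRecDepth 100000

theorem c_i1_3 : chkT 145 12 (eI K1 115 (-208) 358) Ti1_3
    ⟨1, 1, 1⟩ ⟨1, 1, 0⟩ ⟨2, 1, 1⟩ ⟨1, 1, 1⟩ ⟨1, 0, 1⟩ ⟨1, 1, 2⟩ = true := by decide +kernel

theorem c_i1_4 : chkT 145 12 (eI K1 115 (-208) 358) Ti1_4
    ⟨1, 1, 1⟩ ⟨1, 1, 0⟩ ⟨2, 1, 1⟩ ⟨1, 1, 1⟩ ⟨0, 1, 1⟩ ⟨1, 2, 1⟩ = true := by decide +kernel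

theorem c_i1_5 : chkT 148 12 (eI K1 115 (-208) 358) Ti1_5
    ⟨1, 1, 1⟩ ⟨1, 1, 0⟩ ⟨2, 1, 1⟩ ⟨1, 1, 1⟩ ⟨0, 1, 1⟩ ⟨1, 1, 2⟩ = true := by decide +kernel

end Vale.Agent.P154
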