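import Vale.Agent.P154.Near.Data

/-!
# P154: kernel checks, level two, second part
-/

namespace Vale.Agent.P154

open PExp

set_option maxRecDepth 100000

theorem c_i2_3 : chkT 107 12 (eI K2 57 (101) 67) Ti2_3
    ⟨1, 1, 1⟩ ⟨1, 1, 0⟩ ⟨1, 0, 0⟩ ⟨1, 1, 1⟩ ⟨1, 0, 1⟩ ⟨0, 0, 1⟩ = true := by decide +kernel

theorem c_i2_4 : chkT 107 12 (eI K2 57 (101) 67) Ti2_4
    ⟨1, 1, 1⟩ ⟨1, 1, 0⟩ ⟨1, 0, 0⟩ ⟨1, 1, 1⟩ ⟨0, 1, 1⟩ ⟨0, 1, 0⟩ = true := by decide +kernel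

theorem c_i2_5 : chkT 107 12 (eI K2 57 (101) 67) Ti2_5
    ⟨1, 1, 1⟩ ⟨1, 1, 0⟩ ⟨1, 0, 0⟩ ⟨1, 1, 1⟩ ⟨0, 1, 1⟩ ⟨0, 0, 1⟩ = true := by decide +kernel

end Vale.Agent.P154
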