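import Vale.Agent.P154.Near.Data

/-!
# P154: kernel checks, averages and unary inequalities
-/

namespace Vale.Agent.P154

open PExp

set_option maxRecDepth 100000

theorem c_ii1 : chkT 102 7 (eJ K1 228 (-808) 1072 70 (-1414) 8322 525 10000) Tii1
    ⟨1, 1, 1⟩ ⟨1, 1, 0⟩ ⟨2, 1, 1⟩ ⟨1, 1, 1⟩ ⟨1, 1, 0⟩ ⟨2, 1, 1⟩ = true := by decide +kernel

theorem c_ii2 : chkT 96 7 (eJ K2 115 (-208) 358 421 (-2925) 2790 1050 10000) Tii2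
    ⟨1, 1, 1⟩ ⟨1, 1, 0⟩ ⟨1, 0, 0⟩ ⟨1, 1, 1⟩ ⟨1, 1, 0⟩ ⟨1, 0, 0⟩ = true := by decide +kernel

theorem c_N0 : chkT 60 5 (eN 57 (101) (67) Au Bu (.v 8)) .l
    ⟨1, 1, 1⟩ ⟨1, 1, 0⟩ ⟨1, 0, 0⟩ ⟨1, 1, 1⟩ ⟨1, 1, 0⟩ ⟨1, 0, 0⟩ = true := by decide +kernel

theorem c_N2 : chkT 60 5 (eN 115 (-208) (358) Au Bu (.v 8)) .l
    ⟨1, 1, 1⟩ ⟨1, 1, 0⟩ ⟨1, 0, 0⟩ ⟨1, 1, 1⟩ ⟨1, 1, 0⟩ ⟨1, 0, 0⟩ = true := by decide +kernel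

theorem c_M0 : chkT 60 5 (eN 243 (-101) (-67) Au Bu (.v 8)) .l
    ⟨1, 1, 1⟩ ⟨1, 1, 0⟩ ⟨1, 0, 0⟩ ⟨1, 1, 1⟩ ⟨1, 1, 0⟩ ⟨1, 0, 0⟩ = true := by decide +kernel

theorem c_C1 : chkT 60 5 (eN 70 (-1414) (8322) Au Bu (.v 8)) TC1
    ⟨1, 1, 1⟩ ⟨1, 1, 0⟩ ⟨2, 1, 1⟩ ⟨1, 1, 1⟩ ⟨1, 1, 0⟩ ⟨2, 1, 1⟩ = true := by decide +kernel

theorem c_C2 : chkT 60 5 (eN 421 (-2925) (2790) Au Bu (.v 8)) TC2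
    ⟨1, 1, 1⟩ ⟨1, 1, 0⟩ ⟨1, 0, 0⟩ ⟨1, 1, 1⟩ ⟨1, 1, 0⟩ ⟨1, 0, 0⟩ = true := by decide +kernel

end Vale.Agent.P154
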