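import Vale.Agent.P154.Near.EvoData

/-!
# P154: kernel evolution, generations 0 to 34
-/

namespace Vale.Agent.P154

namespace Evo

set_option maxRecDepth 100000

theorem g34 : beqL (gens 16 16777216 66 153 34 m0) m34 = true := by decide +kernel

end Evo

end Vale.Agent.P154
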