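import Vale.Agent.P154.Near.MeshInst
import Vale.Agent.P154.Near.Ga
import Vale.Agent.P154.Near.Gb
import Vale.Agent.P154.Near.Gc
import Vale.Agent.P154.Near.Gd
import Vale.Agent.P154.Near.Ge

/-!
# P154: 170 generations
-/

namespace Vale.Agent.P154

namespace Evo

theorem inv170 : Inv 170 m170 := by
  have h0 : Inv 0 m0 := inv_zero m0 (by decide +kernel)
  have h1 : Inv 34 m34 := Inv.run (j := 34) h0 g34
  have h2 : Inv 68 m68 := Inv.run (j := 34) h1 g68
  have h3 : Inv 102 m102 := Inv.run (j := 34) h2 g102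
  have h4 : Inv 136 m136 := Inv.run (j := 34) h3 g136
  exact Inv.run (j := 34) h4 g170

/-- integer weight of a vertex -/
def wt (v : V3) : ℕ :=
  100 * (3 * (v.a * v.a + v.b * v.b + v.c * v.c) - 9216) * 9216 +
    30 * ((3 * (v.a * v.a + v.b * v.b + v.c * v.c) - 9216) *
      (3 * (v.a * v.a + v.b * v.b + v.c * v.c) - 9216))

/-- integer weighted sum -/
def lsN (φ : V3 → ℕ) : List V3 → List ℕ → ℕ
  | v :: L, a :: m => a * φ v + lsN φ L m
  | _, _ => 0

set_option maxRecDepth 100000 in
theorem final_check : Nat.ble (lsN wt (mesh 16) m170) (21 * 16777216 * (9216 * 9216)) = true := by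
  decide +kernel

theorem lsN_cast (φ : V3 → ℕ) : ∀ (L : List V3) (m : List ℕ),
    (lsN φ L m : ℝ) = ls (fun v => (φ v : ℝ)) L m
  | [], _ => by simp [ls, lsN]
  | _ :: _, [] => by simp [ls, lsN]
  | v :: L, a :: m => by
    have h1 := lsN_cast φ L m
    have h2 : lsN φ (v :: L) (a :: m) = a * φ v + lsN φ L m := rfl
    rw [h2]
    push_cast
    rw [h1]
    rfl

end Evo

end Vale.Agent.P154
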