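import Vale.Agent.P154.Near.Sym
import Vale.Agent.P154.TreeBound

/-!
# P154: the end game for three colours, four children and eigenvalue -1/2
-/

namespace Vale.Agent.P154

open PExp Finset Filter Topology

theorem card_perm3 : ((Finset.univ : Finset (Equiv.Perm (Fin 3))).card : ℝ) = 6 := by
  have h : (Finset.univ : Finset (Equiv.Perm (Fin 3))).card = 6 := by decide
  rw [h]; norm_num

/-- from a pair inequality to channels -/
theorem tot_pair {H0 H1 C1 : (Fin 3 → ℝ) → ℝ} {tau mu : ℝ} {X Y : Type} [Fintype X] [Fintype Y]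
    {f : X → Fin 3 → ℝ} {g : Y → Fin 3 → ℝ} (hf : IsChan f) (hg : IsChan g)
    (h : ∀ x y, ∑ r : Equiv.Perm (Fin 3), H0 (fun i => f x i * g y (r i)) ≤
      6 * (H1 (f x) * Z (g y) + H1 (g y) * Z (f x) + C1 (f x) * (W (g y) - tau * Z (g y)) +
        C1 (g y) * (W (f x) - tau * Z (f x)) - mu * (W (f x) * W (g y)))) :
    tot H0 (prod2 f g) ≤ tot H1 f + tot H1 g + tot C1 f * (tot W g - tau) +
      tot C1 g * (tot W f - tau) - mu * (tot W f * tot W g) := by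
  have h1 := tot_prod2_avg H0 (f := f) hg Finset.univ
  rw [card_perm3] at h1
  have h2 : ∑ x, ∑ y, ∑ r : Equiv.Perm (Fin 3), H0 (fun i => f x i * g y (r i)) ≤
      ∑ x, ∑ y, 6 * (H1 (f x) * Z (g y) + H1 (g y) * Z (f x) +
        C1 (f x) * (W (g y) - tau * Z (g y)) +
        C1 (g y) * (W (f x) - tau * Z (f x)) - mu * (W (f x) * W (g y))) :=
    Finset.sum_le_sum fun x _ => Finset.sum_le_sum fun y _ => h x y
  have h3 : ∑ x, ∑ y, 6 * (H1 (f x) * Z (g y) + H1 (g y) * Z (f x) +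
        C1 (f x) * (W (g y) - tau * Z (g y)) +
        C1 (g y) * (W (f x) - tau * Z (f x)) - mu * (W (f x) * W (g y))) =
      6 * (tot H1 f * tot Z g + tot H1 g * tot Z f + tot C1 f * (tot W g - tau * tot Z g) +
        tot C1 g * (tot W f - tau * tot Z f) - mu * (tot W f * tot W g)) := by
    unfold tot
    simp_rw [← Finset.mul_sum, Finset.sum_sub_distrib, Finset.sum_add_distrib]
    congr 1
    simp_rw [← Finset.mul_sum, ← Finset.sum_mul]
    simp_rw [← Finset.mul_sum, Finset.sum_sub_distrib, ← Finset.mul_sum]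
  have h4 : tot Z g = 1 := hg.sum_Z (by norm_num)
  have h5 : tot Z f = 1 := hf.sum_Z (by norm_num)
  rw [h3, ← h1, h4, h5] at h2
  linarith

theorem W_le_Hf (x y z : ℤ) (hN : ∀ w : Fin 3 → ℝ, (∀ i, 0 ≤ w i) →
      0 ≤ x * (AA w * SS w ^ 2) + (y * (BB w * SS w) + z * AA w ^ 2))
    (w : Fin 3 → ℝ) (hw : ∀ i, 0 ≤ w i) : W w ≤ Hf x y z w := by
  rw [W_eq3]
  unfold Hf
  have h1 := hN w hw
  have h2 := AA_nonneg w
  have hS := SS_nonneg hw
  rcases hS.eq_or_lt with h0 | h0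
  · rw [← h0]; simp
  · rw [div_le_div_iff₀ (by positivity) (by positivity)]
    have h3 : 0 ≤ AA w * (x * (AA w * SS w ^ 2) + (y * (BB w * SS w) + z * AA w ^ 2)) *
        (3 * SS w) := by positivity
    linarith [h3]

theorem Cf_nonneg (x y z : ℤ) (w : Fin 3 → ℝ) (hw : ∀ i, 0 ≤ w i)
    (hN : 0 ≤ x * (AA w * SS w ^ 2) + (y * (BB w * SS w) + z * AA w ^ 2)) :
    0 ≤ Cf x y z w := by
  unfold Cf
  have h2 := AA_nonneg w
  have hS := SS_nonneg hw
  refine div_nonneg ?_ (by positivity)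
  have h3 : 0 ≤ AA w * (x * (AA w * SS w ^ 2) + (y * (BB w * SS w) + z * AA w ^ 2)) := by
    positivity
  linarith [h3]

theorem SS_edge (x : Fin 3 → ℝ) (lam : ℝ) : SS (edge lam x) = SS x := by
  have h := Z_edge (by norm_num : 0 < 3) lam x
  rw [Z_eq3, Z_eq3] at h
  linarith

theorem AA_edge (x : Fin 3 → ℝ) (lam : ℝ) : AA (edge lam x) = lam ^ 2 * AA x := by
  unfold AA QQ SS
  simp only [edge_eq, Z_eq3, SS]
  ring

theorem BB_edge (x : Fin 3 → ℝ) (lam : ℝ) : BB (edge lam x) = lam ^ 3 * BB x := by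
  unfold BB CC QQ SS
  simp only [edge_eq, Z_eq3, SS]
  ring

/-- the edge identity -/
theorem Hf_edge (x : Fin 3 → ℝ) :
    Hf 228 (-808) 1072 (edge (-1 / 2) x) = 1 / 4 * Hf 57 101 67 x := by
  unfold Hf
  rw [SS_edge, AA_edge, BB_edge]
  rw [mul_div_assoc']
  congr 1
  push_cast
  ring


/-- the edge cone -/
theorem edge_cone (x : Fin 3 → ℝ) (hx : ∀ i, 0 ≤ x i) (i : Fin 3) :
    2 * edge (-1 / 2) x i ≤ SS (edge (-1 / 2) x) := by
  rw [SS_edge, edge_eq, Z_eq3]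
  have := hx i
  unfold SS
  linarith

theorem edge_nonneg' (x : Fin 3 → ℝ) (hx : ∀ i, 0 ≤ x i) (i : Fin 3) :
    0 ≤ edge (-1 / 2) x i := by
  rw [edge_eq, Z_eq3]
  have h0 := hx 0
  have h1 := hx 1
  have h2 := hx 2
  unfold SS
  fin_cases i
  · show 0 ≤ -1 / 2 * x 0 + (1 - -1 / 2) * ((x 0 + x 1 + x 2) / 3); linarith
  · show 0 ≤ -1 / 2 * x 1 + (1 - -1 / 2) * ((x 0 + x 1 + x 2) / 3); linarith
  · show 0 ≤ -1 / 2 * x 2 + (1 - -1 / 2) * ((x 0 + x 1 + x 2) / 3); linarith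

theorem adm_half : Admissible 3 (-1 / 2) := by
  intro i j
  unfold potts
  split_ifs <;> norm_num

theorem N0 (w : Fin 3 → ℝ) (hw : ∀ i, 0 ≤ w i) :
    0 ≤ ((57 : ℤ) : ℝ) * (AA w * SS w ^ 2) + (((101 : ℤ) : ℝ) * (BB w * SS w) +
      ((67 : ℤ) : ℝ) * AA w ^ 2) :=
  N_all 57 101 67 _ _ _ (chkT_pos 60 5 _ (by norm_num) (by decide +kernel) (by decide +kernel)
      (by decide +kernel) (by decide +kernel) _ _ _ _ _ _ _ c_N0) w hw

theorem N2 (w : Fin 3 → ℝ) (hw : ∀ i, 0 ≤ w i) :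
    0 ≤ ((115 : ℤ) : ℝ) * (AA w * SS w ^ 2) + (((-208 : ℤ) : ℝ) * (BB w * SS w) +
      ((358 : ℤ) : ℝ) * AA w ^ 2) :=
  N_all 115 (-208) 358 _ _ _ (chkT_pos 60 5 _ (by norm_num) (by decide +kernel) (by decide +kernel)
      (by decide +kernel) (by decide +kernel) _ _ _ _ _ _ _ c_N2) w hw

theorem M0 (w : Fin 3 → ℝ) (hw : ∀ i, 0 ≤ w i) :
    0 ≤ ((243 : ℤ) : ℝ) * (AA w * SS w ^ 2) + (((-101 : ℤ) : ℝ) * (BB w * SS w) +
      ((-67 : ℤ) : ℝ) * AA w ^ 2) :=
  N_all 243 (-101) (-67) _ _ _ (chkT_pos 60 5 _ (by norm_num) (by decide +kernel) (by decide +kernel)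
      (by decide +kernel) (by decide +kernel) _ _ _ _ _ _ _ c_M0) w hw

theorem C2p (w : Fin 3 → ℝ) (hw : ∀ i, 0 ≤ w i) :
    0 ≤ ((421 : ℤ) : ℝ) * (AA w * SS w ^ 2) + (((-2925 : ℤ) : ℝ) * (BB w * SS w) +
      ((2790 : ℤ) : ℝ) * AA w ^ 2) :=
  N_all 421 (-2925) 2790 _ _ _ (chkT_pos 60 5 _ (by norm_num) (by decide +kernel)
      (by decide +kernel) (by decide +kernel) (by decide +kernel) _ _ _ _ _ _ _ c_C2) w hw

theorem C1p (w : Fin 3 → ℝ) (hw : ∀ i, 0 ≤ w i) (hw2 : ∀ i, 2 * w i ≤ SS w) :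
    0 ≤ ((70 : ℤ) : ℝ) * (AA w * SS w ^ 2) + (((-1414 : ℤ) : ℝ) * (BB w * SS w) +
      ((8322 : ℤ) : ℝ) * AA w ^ 2) :=
  N_edge 70 (-1414) 8322 _ _ _ (chkT_pos 60 5 _ (by norm_num) (by decide +kernel)
      (by decide +kernel) (by decide +kernel) (by decide +kernel) _ _ _ _ _ _ _ c_C1) w hw hw2

/-- one generation -/
theorem end_step {X : Type} [Fintype X] {f : X → Fin 3 → ℝ} (hf : IsChan f)
    (hT : tot (Hf 57 101 67) f ≤ 21 / 100) :
    tot (Hf 57 101 67) (prod2 (prod2 (fun x => edge (-1 / 2) (f x)) (fun x => edge (-1 / 2) (f x)))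
      (prod2 (fun x => edge (-1 / 2) (f x)) (fun x => edge (-1 / 2) (f x)))) +
      1 / 8000 * (tot W f) ^ 2 ≤ tot (Hf 57 101 67) f := by
  set g : X → Fin 3 → ℝ := fun x => edge (-1 / 2) (f x) with hg
  have hgc : IsChan g := hf.edge (by norm_num) adm_half
  have hWf : 0 ≤ tot W f := hf.tot_W_nonneg (by norm_num)
  have hx : tot W f ≤ tot (Hf 57 101 67) f :=
    Finset.sum_le_sum fun x _ => W_le_Hf 57 101 67 N0 _ (hf.nonneg x)
  have hWg : tot W g = 1 / 4 * tot W f := by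
    rw [hg, tot_W_edge (by norm_num)]; norm_num
  have hHg : tot (Hf 228 (-808) 1072) g = 1 / 4 * tot (Hf 57 101 67) f := by
    unfold tot
    rw [Finset.mul_sum]
    exact Finset.sum_congr rfl fun x _ => Hf_edge _
  have hC1 : 0 ≤ tot (Cf 70 (-1414) 8322) g :=
    Finset.sum_nonneg fun x _ => Cf_nonneg _ _ _ _ (hgc.nonneg x)
      (C1p _ (hgc.nonneg x) (edge_cone _ (hf.nonneg x)))
  have h1 := tot_pair (H0 := Hf 115 (-208) 358) (H1 := Hf 228 (-808) 1072)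
    (C1 := Cf 70 (-1414) 8322) (tau := 525 / 10000) (mu := 1 / 1000) hgc hgc
    (fun x y => pair1 (g x) (g y) (hgc.nonneg x) (hgc.nonneg y)
      (edge_cone _ (hf.nonneg x)) (edge_cone _ (hf.nonneg y)))
  set P := prod2 g g with hP
  have hPc : IsChan P := hgc.prod2 hgc
  have hWP : 0 ≤ tot W P := hPc.tot_W_nonneg (by norm_num)
  have hxP : tot W P ≤ tot (Hf 115 (-208) 358) P :=
    Finset.sum_le_sum fun x _ => W_le_Hf 115 (-208) 358 N2 _ (hPc.nonneg x)
  have hC2 : 0 ≤ tot (Cf 421 (-2925) 2790) P :=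
    Finset.sum_nonneg fun x _ => Cf_nonneg _ _ _ _ (hPc.nonneg x) (C2p _ (hPc.nonneg x))
  have h2 := tot_pair (H0 := Hf 57 101 67) (H1 := Hf 115 (-208) 358)
    (C1 := Cf 421 (-2925) 2790) (tau := 1050 / 10000) (mu := 1 / 1000) hPc hPc
    (fun x y => pair2 (P x) (P y) (hPc.nonneg x) (hPc.nonneg y))
  have h3 : tot (Cf 70 (-1414) 8322) g * (tot W g - 525 / 10000) ≤ 0 :=
    mul_nonpos_of_nonneg_of_nonpos hC1 (by rw [hWg]; linarith)
  rw [hHg, hWg] at h1
  rw [hWg] at h3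
  have h4 : 0 ≤ (tot W f) ^ 2 := sq_nonneg _
  have h5 : tot (Hf 115 (-208) 358) P ≤
      1 / 2 * tot (Hf 57 101 67) f - 1 / 16000 * (tot W f) ^ 2 := by
    linarith
  have h6 : tot (Cf 421 (-2925) 2790) P * (tot W P - 1050 / 10000) ≤ 0 :=
    mul_nonpos_of_nonneg_of_nonpos hC2 (by linarith)
  have h7 : 0 ≤ (tot W P) ^ 2 := sq_nonneg _
  linarith

/-- four-fold products -/
theorem tot_prod4 {q : ℕ} (H : (Fin q → ℝ) → ℝ) {X : Type} [Fintype X] (g : X → Fin q → ℝ) :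
    tot H (prodN (fun _ : Fin 4 => g)) = tot H (prod2 (prod2 g g) (prod2 g g)) := by
  let e : ((X × X) × (X × X)) ≃ (Fin 4 → X) :=
    { toFun := fun p => ![p.1.1, p.1.2, p.2.1, p.2.2]
      invFun := fun t => ((t 0, t 1), (t 2, t 3))
      left_inv := fun p => rfl
      right_inv := fun t => by
        funext i
        fin_cases i <;> rfl }
  rw [← tot_comp_equiv H (prodN (fun _ : Fin 4 => g)) e]
  unfold tot
  refine Finset.sum_congr rfl fun p _ => ?_
  congr 1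
  funext i
  simp only [prodN, prod2]
  rw [Fin.prod_univ_four]
  show g p.1.1 i * g p.1.2 i * g p.2.1 i * g p.2.2 i = _
  ring

theorem lik_four (H : (Fin 3 → ℝ) → ℝ) (lam : ℝ) (n : ℕ) :
    tot H (lik 3 lam (fun _ => 4) (n + 1)) =
      tot H (prod2 (prod2 (fun x => edge lam (lik 3 lam (fun _ => 4) n x))
        (fun x => edge lam (lik 3 lam (fun _ => 4) n x)))
      (prod2 (fun x => edge lam (lik 3 lam (fun _ => 4) n x))
        (fun x => edge lam (lik 3 lam (fun _ => 4) n x)))) := by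
  rw [← tot_prod4, ← tot_comp_equiv H _ (glueG 3 (fun _ => 4) n)]
  exact congrArg (tot H) (lik_succ' (q := 3) lam (fun _ => 4) n)

/-- the end game -/
theorem end_game (G : ℕ) (hG : tot (Hf 57 101 67) (lik 3 (-1 / 2) (fun _ => 4) G) ≤ 21 / 100) :
    Nonreconstruction (aRegular 3 (-1 / 2) 4) := by
  set T : ℕ → ℝ := fun n => tot (Hf 57 101 67) (lik 3 (-1 / 2) (fun _ => 4) (n + G)) with hTdef
  have hq : 0 < 3 := by norm_num
  have hch : ∀ n, IsChan (lik 3 (-1 / 2) (fun _ => 4) n) := fun n => isChan_lik hq adm_half n _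
  have hx : ∀ n, chi 3 (-1 / 2) (fun _ => 4) n ≤
      tot (Hf 57 101 67) (lik 3 (-1 / 2) (fun _ => 4) n) := fun n =>
    Finset.sum_le_sum fun x _ => W_le_Hf 57 101 67 N0 _ ((hch n).nonneg x)
  have hc0 : ∀ n, 0 ≤ chi 3 (-1 / 2) (fun _ => 4) n := fun n => chi_nonneg hq adm_half _ n
  have hstep : ∀ n, T n ≤ 21 / 100 ∧ T (n + 1) + 1 / 8000 *
      (chi 3 (-1 / 2) (fun _ => 4) (n + G)) ^ 2 ≤ T n := by
    have h2 : ∀ n, T n ≤ 21 / 100 → T (n + 1) + 1 / 8000 *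
      (chi 3 (-1 / 2) (fun _ => 4) (n + G)) ^ 2 ≤ T n := by
      intro n hn
      have h3 := end_step (hch (n + G)) hn
      rw [← lik_four] at h3
      have e : n + G + 1 = n + 1 + G := by ring
      rw [e] at h3
      exact h3
    intro n
    induction n with
    | zero =>
      have h1 : T 0 ≤ 21 / 100 := by
        show tot (Hf 57 101 67) (lik 3 (-1 / 2) (fun _ => 4) (0 + G)) ≤ 21 / 100
        rw [Nat.zero_add]
        exact hG
      exact ⟨h1, h2 0 h1⟩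
    | succ n ih =>
      have h1 : T (n + 1) ≤ 21 / 100 := by
        have := sq_nonneg (chi 3 (-1 / 2) (fun _ => 4) (n + G))
        linarith [ih.1, ih.2]
      exact ⟨h1, h2 _ h1⟩
  have hanti : Antitone T := antitone_nat_of_succ_le fun n => by
    have := sq_nonneg (chi 3 (-1 / 2) (fun _ => 4) (n + G))
    linarith [(hstep n).2]
  have hb : BddBelow (Set.range T) := ⟨0, by
    rintro _ ⟨n, rfl⟩
    exact (hc0 _).trans (hx _)⟩
  have hl := tendsto_atTop_ciInf hanti hb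
  have hl1 := hl.comp (tendsto_add_atTop_nat 1)
  have hd : Tendsto (fun n => 8000 * (T n - T (n + 1))) atTop (𝓝 0) := by
    have := (hl.sub hl1).const_mul 8000
    simpa using this
  have hsq : Tendsto (fun n => (chi 3 (-1 / 2) (fun _ => 4) (n + G)) ^ 2) atTop (𝓝 0) :=
    squeeze_zero (fun n => sq_nonneg _) (fun n => by linarith [(hstep n).2]) hd
  have hxs : Tendsto (fun n => chi 3 (-1 / 2) (fun _ => 4) (n + G)) atTop (𝓝 0) := by
    have h1 := (Real.continuous_sqrt.tendsto 0).comp hsq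
    rw [Real.sqrt_zero] at h1
    refine h1.congr fun n => ?_
    exact Real.sqrt_sq (hc0 _)
  have hxt : Tendsto (fun n => chi 3 (-1 / 2) (fun _ => 4) n) atTop (𝓝 0) :=
    (tendsto_add_atTop_iff_nat G).1 hxs
  have hs : Tendsto (fun n => 1 / 2 * Real.sqrt (chi 3 (-1 / 2) (fun _ => 4) n)) atTop (𝓝 0) := by
    have := ((Real.continuous_sqrt.tendsto 0).comp hxt).const_mul (1 / 2)
    simpa using this
  exact squeeze_zero (fun n => quenched_nonneg hq adm_half _ n)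
    (fun n => quenched_le hq adm_half _ n) hs

end Vale.Agent.P154
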