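/-!
# P154: kernel-friendly evolution of mass lists on a triangular mesh (definitions)

A channel is dominated, in the degradation order, by a list of masses placed on the vertices of a
mesh of the simplex.  One generation is computed with packed natural numbers.
-/

namespace Vale.Agent.P154

/-- integer vectors -/
structure V3 where
  a : Nat
  b : Nat
  c : Nat

namespace Evo

/-- lower triangle -/
def caseA (B s t f g : Nat) : Nat :=
  Nat.add (Nat.add (Nat.shiftLeft f s) (Nat.shiftLeft g B)) (Nat.sub (Nat.sub t f) g)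

/-- upper triangle -/
def caseB (B s t f g : Nat) : Nat :=
  Nat.shiftLeft (Nat.add (Nat.add (Nat.shiftLeft (Nat.sub (Nat.add f g) t) s)
    (Nat.shiftLeft (Nat.sub t g) (Nat.sub s B))) (Nat.sub t f)) B

noncomputable def spl3 (n B t i f j g : Nat) : Nat :=
  Nat.shiftLeft (@Bool.rec (fun _ => Nat) (caseB B (Nat.mul B (Nat.sub (Nat.add n 1) i)) t f g)
      (caseA B (Nat.mul B (Nat.sub (Nat.add n 1) i)) t f g) (Nat.ble (Nat.add f g) t))
    (Nat.mul B (Nat.add (Nat.div (Nat.mul i (Nat.sub (Nat.add (Nat.mul 2 n) 3) i)) 2) j))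

noncomputable def spl2 (n B t x y : Nat) : Nat :=
  spl3 n B t (Nat.div x t) (Nat.mod x t) (Nat.div y t) (Nat.mod y t)

/-- packed decomposition of the sorted vector `(a, b, c)` over the mesh -/
noncomputable def spl (n B a b c : Nat) : Nat :=
  spl2 n B (Nat.add (Nat.add a b) c) (Nat.mul (Nat.mul 3 n) c) (Nat.mul (Nat.mul 2 n) (Nat.sub b c))

noncomputable def srt2 (n B x y z : Nat) : Nat :=
  @Bool.rec (fun _ => Nat) (@Bool.rec (fun _ => Nat) (spl n B z x y) (spl n B x z y) (Nat.ble z x))
    (spl n B x y z) (Nat.ble z y)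

/-- packed decomposition of an arbitrary vector -/
noncomputable def srt (n B x y z : Nat) : Nat :=
  @Bool.rec (fun _ => Nat) (srt2 n B y x z) (srt2 n B x y z) (Nat.ble y x)

noncomputable def ent9 (n B a b c d e f g h i : Nat) : Nat :=
  Nat.add (Nat.add (Nat.add (srt n B a e i) (srt n B a f h))
    (Nat.add (srt n B b d i) (srt n B b f g))) (Nat.add (srt n B c d h) (srt n B c e g))

/-- packed decomposition of the symmetrised product of two vectors -/
noncomputable def ent (n B : Nat) (u v : V3) : Nat :=
  @V3.rec (fun _ => Nat) (fun a b c => @V3.rec (fun _ => Nat) (fun x y z =>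
    ent9 n B (Nat.mul a x) (Nat.mul a y) (Nat.mul a z) (Nat.mul b x) (Nat.mul b y) (Nat.mul b z)
      (Nat.mul c x) (Nat.mul c y) (Nat.mul c z)) v) u

noncomputable def mapV (f : V3 → Nat) (l : List V3) : List Nat :=
  @List.rec V3 (fun _ => List Nat) [] (fun a _ ih => f a :: ih) l

/-- table of a symmetric quadratic form -/
noncomputable def mkTab (E : V3 → V3 → Nat) (l : List V3) : List (List Nat) :=
  @List.rec V3 (fun _ => List (List Nat)) []
    (fun v L ih => (E v v :: mapV (fun w => Nat.mul 2 (E v w)) L) :: ih) l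

noncomputable def dot (row : List Nat) : List Nat → Nat :=
  @List.rec Nat (fun _ => List Nat → Nat) (fun _ => 0)
    (fun c _ ih m => @List.rec Nat (fun _ => Nat) 0 (fun a m' _ => Nat.add (Nat.mul a c) (ih m')) m) row

/-- value of the quadratic form -/
noncomputable def quad (tab : List (List Nat)) : List Nat → Nat :=
  @List.rec (List Nat) (fun _ => List Nat → Nat) (fun _ => 0)
    (fun row _ ih m => @List.rec Nat (fun _ => Nat) 0
      (fun a m' _ => Nat.add (Nat.mul a (dot row (a :: m'))) (ih m')) m) tab

/-- digits -/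
noncomputable def dig (B : Nat) (M : Nat) : Nat → List Nat :=
  @Nat.rec (fun _ => Nat → List Nat) (fun _ => [])
    (fun _ ih R => Nat.mod R (Nat.pow 2 B) :: ih (Nat.shiftRight R B)) M

noncomputable def divL (D : Nat) (l : List Nat) : List Nat :=
  @List.rec Nat (fun _ => List Nat) [] (fun a _ ih => Nat.div a D :: ih) l

noncomputable def sumL (l : List Nat) : Nat :=
  @List.rec Nat (fun _ => Nat) 0 (fun a _ ih => Nat.add a ih) l

noncomputable def addHd (c : Nat) (l : List Nat) : List Nat :=
  @List.rec Nat (fun _ => List Nat) [] (fun a l _ => Nat.add a c :: l) l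

/-- unpack, rescale, and put the lost mass in the first vertex -/
noncomputable def fin (N D B M : Nat) (R : Nat) : List Nat :=
  (fun l => addHd (Nat.sub N (sumL l)) l) (divL D (dig B M R))

/-- one generation (four children) -/
noncomputable def gen (n N B M : Nat) (t1 t2 : List (List Nat)) (m : List Nat) : List Nat :=
  fin N (Nat.mul (Nat.mul 72 (Nat.mul n n)) N) B M (quad t2
    (fin N (Nat.mul (Nat.mul 288 (Nat.mul n n)) N) B M (quad t1 m)))

noncomputable def iter (f : List Nat → List Nat) (k : Nat) : List Nat → List Nat :=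
  @Nat.rec (fun _ => List Nat → List Nat) (fun m => m) (fun _ ih m => ih (f m)) k

noncomputable def rowV (n i : Nat) (k : Nat) : List V3 → List V3 :=
  @Nat.rec (fun _ => List V3 → List V3) (fun L => L)
    (fun j ih L => ih (⟨Nat.sub (Nat.mul 6 n) (Nat.add (Nat.mul 4 i) (Nat.mul 3 j)),
      Nat.add (Nat.mul 2 i) (Nat.mul 3 j), Nat.mul 2 i⟩ :: L)) k

noncomputable def meshV (n : Nat) (k : Nat) : List V3 → List V3 :=
  @Nat.rec (fun _ => List V3 → List V3) (fun L => L)
    (fun i ih L => ih (rowV n i (Nat.sub (Nat.add n 1) i) L)) k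

/-- vertices of the images under the edge operator, scaled -/
noncomputable def edgeV (n : Nat) (l : List V3) : List V3 :=
  @List.rec V3 (fun _ => List V3) [] (fun v _ ih =>
    ⟨Nat.sub (Nat.mul 6 n) v.c, Nat.sub (Nat.mul 6 n) v.b, Nat.sub (Nat.mul 6 n) v.a⟩ :: ih) l

noncomputable def mesh (n : Nat) : List V3 := meshV n (Nat.add n 1) []

noncomputable def zeros (k : Nat) : List Nat := @Nat.rec (fun _ => List Nat) [] (fun _ ih => 0 :: ih) k

noncomputable def beqL (l : List Nat) : List Nat → Bool :=
  @List.rec Nat (fun _ => List Nat → Bool)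
    (fun m => @List.rec Nat (fun _ => Bool) true (fun _ _ _ => false) m)
    (fun a _ ih m => @List.rec Nat (fun _ => Bool) false (fun b m' _ =>
      @Bool.rec (fun _ => Bool) false (ih m') (Nat.beq a b)) m) l

/-- `k` generations -/
noncomputable def gens (n N B M k : Nat) (m : List Nat) : List Nat :=
  (fun t1 t2 => iter (gen n N B M t1 t2) k m)
    (mkTab (ent n B) (edgeV n (mesh n))) (mkTab (ent n B) (mesh n))

end Evo

end Vale.Agent.P154
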