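import Vale.Agent.P154.TreeBound
import Vale.Agent.P154.Near.EvoDef

/-!
# P154: soundness of the kernel evolution
-/

namespace Vale.Agent.P154

open Finset

namespace Evo

/-- sublinear functionals on nonnegative vectors -/
structure Sub (Φ : (Fin 3 → ℝ) → ℝ) : Prop where
  smul : ∀ c : ℝ, 0 ≤ c → ∀ u : Fin 3 → ℝ, (∀ i, 0 ≤ u i) → Φ (fun i => c * u i) = c * Φ u
  add : ∀ u v : Fin 3 → ℝ, (∀ i, 0 ≤ u i) → (∀ i, 0 ≤ v i) →
    Φ (fun i => u i + v i) ≤ Φ u + Φ v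

theorem Sub.sum {ι : Type*} (s : Finset ι) (Φ : ι → (Fin 3 → ℝ) → ℝ) (h : ∀ k, Sub (Φ k)) :
    Sub (fun u => ∑ k ∈ s, Φ k u) where
  smul c hc u hu := by
    rw [Finset.mul_sum]
    exact Finset.sum_congr rfl fun k _ => (h k).smul c hc u hu
  add u v hu hv := by
    rw [← Finset.sum_add_distrib]
    exact Finset.sum_le_sum fun k _ => (h k).add u v hu hv

theorem Sub.mul {Φ : (Fin 3 → ℝ) → ℝ} (h : Sub Φ) (v : Fin 3 → ℝ) (hv : ∀ i, 0 ≤ v i) :
    Sub (fun u => Φ (fun i => v i * u i)) where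
  smul c hc u hu := by
    have := h.smul c hc (fun i => v i * u i) (fun i => mul_nonneg (hv i) (hu i))
    rw [← this]
    congr 1
    funext i
    ring
  add u w hu hw := by
    have := h.add (fun i => v i * u i) (fun i => v i * w i) (fun i => mul_nonneg (hv i) (hu i))
      (fun i => mul_nonneg (hv i) (hw i))
    refine le_trans (le_of_eq ?_) this
    congr 1
    funext i
    ring

theorem Sub.mul' {Φ : (Fin 3 → ℝ) → ℝ} (h : Sub Φ) (v : Fin 3 → ℝ) (hv : ∀ i, 0 ≤ v i) :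
    Sub (fun u => Φ (fun i => u i * v i)) := by
  have h1 := h.mul v hv
  have e : (fun u : Fin 3 → ℝ => Φ (fun i => u i * v i)) = fun u => Φ (fun i => v i * u i) := by
    funext u
    congr 1
    funext i
    ring
  rw [e]
  exact h1

theorem Sub.perm {Φ : (Fin 3 → ℝ) → ℝ} (h : Sub Φ) (p : Equiv.Perm (Fin 3)) :
    Sub (fun u => Φ (fun i => u (p i))) where
  smul c hc u hu := h.smul c hc (fun i => u (p i)) (fun i => hu _)
  add u v hu hv := h.add (fun i => u (p i)) (fun i => v (p i)) (fun i => hu _) (fun i => hv _)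

/-- symmetrisation -/
noncomputable def sy (Φ : (Fin 3 → ℝ) → ℝ) (u : Fin 3 → ℝ) : ℝ :=
  ∑ p : Equiv.Perm (Fin 3), Φ (fun i => u (p i))

theorem Sub.sy {Φ : (Fin 3 → ℝ) → ℝ} (h : Sub Φ) : Sub (Evo.sy Φ) :=
  Sub.sum _ _ fun p => h.perm p

theorem sy_perm (Φ : (Fin 3 → ℝ) → ℝ) (u : Fin 3 → ℝ) (p : Equiv.Perm (Fin 3)) :
    sy Φ (fun i => u (p i)) = sy Φ u := by
  unfold sy
  exact Equiv.sum_comp (Equiv.mulLeft p) fun r => Φ (fun i => u (r i))

theorem Sub.zero {Φ : (Fin 3 → ℝ) → ℝ} (h : Sub Φ) : Φ (fun _ => 0) = 0 := by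
  have := h.smul 0 le_rfl (fun _ => 0) (fun _ => le_rfl)
  simpa using this

theorem Sub.add3 {Φ : (Fin 3 → ℝ) → ℝ} (h : Sub Φ) (u v w : Fin 3 → ℝ) (hu : ∀ i, 0 ≤ u i)
    (hv : ∀ i, 0 ≤ v i) (hw : ∀ i, 0 ≤ w i) :
    Φ (fun i => u i + v i + w i) ≤ Φ u + Φ v + Φ w := by
  have h1 := h.add (fun i => u i + v i) w (fun i => add_nonneg (hu i) (hv i)) hw
  have h2 := h.add u v hu hv
  linarith

/-- real vector of an integer vector -/
noncomputable def vc (v : V3) : Fin 3 → ℝ := ![(v.a : ℝ), (v.b : ℝ), (v.c : ℝ)]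

/-- weighted sum over a list of vertices -/
def ls (φ : V3 → ℝ) : List V3 → List ℕ → ℝ
  | v :: L, a :: m => a * φ v + ls φ L m
  | _, _ => 0

theorem ls_mono {φ φ' : V3 → ℝ} (h : ∀ v, φ v ≤ φ' v) : ∀ (L : List V3) (m : List ℕ),
    ls φ L m ≤ ls φ' L m
  | [], _ => by simp [ls]
  | _ :: _, [] => by simp [ls]
  | v :: L, a :: m => by
    have h1 := ls_mono h L m
    have h2 := mul_le_mul_of_nonneg_left (h v) (Nat.cast_nonneg (α := ℝ) a)
    show (a : ℝ) * φ v + ls φ L m ≤ a * φ' v + ls φ' L m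
    linarith

theorem ls_smul (c : ℝ) (φ : V3 → ℝ) : ∀ (L : List V3) (m : List ℕ),
    ls (fun v => c * φ v) L m = c * ls φ L m
  | [], _ => by simp [ls]
  | _ :: _, [] => by simp [ls]
  | v :: L, a :: m => by
    have h1 := ls_smul c φ L m
    show (a : ℝ) * (c * φ v) + ls (fun v => c * φ v) L m = c * (a * φ v + ls φ L m)
    rw [h1]; ring

theorem ls_add (φ φ' : V3 → ℝ) : ∀ (L : List V3) (m : List ℕ),
    ls (fun v => φ v + φ' v) L m = ls φ L m + ls φ' L m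
  | [], _ => by simp [ls]
  | _ :: _, [] => by simp [ls]
  | v :: L, a :: m => by
    have h1 := ls_add φ φ' L m
    show (a : ℝ) * (φ v + φ' v) + ls (fun v => φ v + φ' v) L m =
      (a * φ v + ls φ L m) + (a * φ' v + ls φ' L m)
    rw [h1]; ring

/-- symmetrised product functional -/
noncomputable def e2 (Φ : (Fin 3 → ℝ) → ℝ) (u v : V3) : ℝ :=
  ∑ r : Equiv.Perm (Fin 3), sy Φ (fun i => vc u i * vc v (r i))

theorem e2_eq (Φ : (Fin 3 → ℝ) → ℝ) (u v : V3) :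
    e2 Φ u v = ∑ p : Equiv.Perm (Fin 3), ∑ t : Equiv.Perm (Fin 3),
      Φ (fun i => vc u (p i) * vc v (t i)) := by
  unfold e2 sy
  rw [Finset.sum_comm]
  refine Finset.sum_congr rfl fun p _ => ?_
  exact Equiv.sum_comp (Equiv.mulRight p) fun t => Φ (fun i => vc u (p i) * vc v (t i))

theorem e2_comm (Φ : (Fin 3 → ℝ) → ℝ) (u v : V3) : e2 Φ u v = e2 Φ v u := by
  rw [e2_eq, e2_eq, Finset.sum_comm]
  refine Finset.sum_congr rfl fun p _ => Finset.sum_congr rfl fun t _ => ?_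
  congr 1
  funext i
  ring

theorem vec_nonneg (v : V3) (i : Fin 3) : 0 ≤ vc v i := by
  fin_cases i <;> simp [vc]

/-- domination in the degradation order by a symmetric mass distribution -/
def Maj {X : Type} [Fintype X] (f : X → Fin 3 → ℝ) (c : ℝ) (L : List V3) (m : List ℕ) : Prop :=
  ∀ Φ : (Fin 3 → ℝ) → ℝ, Sub Φ → tot Φ f ≤ c * ls (fun v => sy Φ (vc v)) L m

theorem Maj.prod {X Y : Type} [Fintype X] [Fintype Y] {f : X → Fin 3 → ℝ} {g : Y → Fin 3 → ℝ}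
    (hf0 : ∀ x i, 0 ≤ f x i) (hg0 : ∀ y i, 0 ≤ g y i) {c c' : ℝ} (hc : 0 ≤ c) {L L' : List V3}
    {m m' : List ℕ} (hf : Maj f c L m) (hg : Maj g c' L' m') (Φ : (Fin 3 → ℝ) → ℝ) (h : Sub Φ) :
    tot Φ (prod2 f g) ≤ c * (c' * ls (fun u => ls (fun v => e2 Φ u v) L' m') L m) := by
  have h1 : Sub (fun u => ∑ y, Φ (fun i => u i * g y i)) :=
    Sub.sum _ _ fun y => h.mul' (g y) (hg0 y)
  have h2 := hf _ h1
  have h3 : tot (fun u => ∑ y, Φ (fun i => u i * g y i)) f = tot Φ (prod2 f g) := by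
    unfold tot
    rw [Fintype.sum_prod_type]
    rfl
  rw [h3] at h2
  refine h2.trans (mul_le_mul_of_nonneg_left ?_ hc)
  rw [← ls_smul]
  refine ls_mono (fun v => ?_) L m
  have h4 : Sub (fun w => ∑ p : Equiv.Perm (Fin 3), Φ (fun i => vc v (p i) * w i)) :=
    Sub.sum _ _ fun p => h.mul (fun i => vc v (p i)) (fun i => vec_nonneg v _)
  have h5 := hg _ h4
  have h6 : tot (fun w => ∑ p : Equiv.Perm (Fin 3), Φ (fun i => vc v (p i) * w i)) g =
      sy (fun u => ∑ y, Φ (fun i => u i * g y i)) (vc v) := by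
    unfold tot sy
    rw [Finset.sum_comm]
  rw [h6] at h5
  refine h5.trans (le_of_eq ?_)
  congr 1
  congr 1
  funext w
  rw [e2_eq]
  unfold sy
  rw [Finset.sum_comm]

/-- packed representation -/
def Rep (B M : ℕ) (ψ : ((Fin 3 → ℝ) → ℝ) → ℕ → ℝ) (R : ℕ) (x : ((Fin 3 → ℝ) → ℝ) → ℝ) : Prop :=
  ∃ F : ℕ → ℕ, R = ∑ l ∈ range M, F l * 2 ^ (B * l) ∧
    ∀ Φ, Sub Φ → x Φ ≤ ∑ l ∈ range M, (F l : ℝ) * ψ Φ l

section rep

variable {B M : ℕ} {ψ : ((Fin 3 → ℝ) → ℝ) → ℕ → ℝ}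

theorem Rep.zero : Rep B M ψ 0 (fun _ => 0) :=
  ⟨fun _ => 0, by simp, fun _ _ => by simp⟩

theorem Rep.add {R R' : ℕ} {x x' : ((Fin 3 → ℝ) → ℝ) → ℝ} (h : Rep B M ψ R x)
    (h' : Rep B M ψ R' x') : Rep B M ψ (R + R') (fun Φ => x Φ + x' Φ) := by
  obtain ⟨F, h1, h2⟩ := h
  obtain ⟨F', h1', h2'⟩ := h'
  refine ⟨fun l => F l + F' l, ?_, fun Φ hΦ => ?_⟩
  · rw [h1, h1', ← Finset.sum_add_distrib]
    exact Finset.sum_congr rfl fun l _ => by ring
  · refine (add_le_add (h2 Φ hΦ) (h2' Φ hΦ)).trans (le_of_eq ?_)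
    rw [← Finset.sum_add_distrib]
    exact Finset.sum_congr rfl fun l _ => by push_cast; ring

theorem Rep.smul {R : ℕ} {x : ((Fin 3 → ℝ) → ℝ) → ℝ} (h : Rep B M ψ R x) (a : ℕ) :
    Rep B M ψ (a * R) (fun Φ => a * x Φ) := by
  obtain ⟨F, h1, h2⟩ := h
  refine ⟨fun l => a * F l, ?_, fun Φ hΦ => ?_⟩
  · rw [h1, Finset.mul_sum]
    exact Finset.sum_congr rfl fun l _ => by ring
  · refine (mul_le_mul_of_nonneg_left (h2 Φ hΦ) (Nat.cast_nonneg a)).trans (le_of_eq ?_)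
    rw [Finset.mul_sum]
    exact Finset.sum_congr rfl fun l _ => by push_cast; ring

theorem Rep.mono {R : ℕ} {x x' : ((Fin 3 → ℝ) → ℝ) → ℝ} (h : Rep B M ψ R x)
    (hx : ∀ Φ, Sub Φ → x' Φ ≤ x Φ) : Rep B M ψ R x' := by
  obtain ⟨F, h1, h2⟩ := h
  exact ⟨F, h1, fun Φ hΦ => (hx Φ hΦ).trans (h2 Φ hΦ)⟩

theorem Rep.single (a l : ℕ) (h : a = 0 ∨ l < M) :
    Rep B M ψ (a * 2 ^ (B * l)) (fun Φ => a * ψ Φ l) := by
  rcases h with h | h
  · subst h
    have := Rep.zero (B := B) (M := M) (ψ := ψ)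
    simpa using this
  · refine ⟨fun k => if k = l then a else 0, ?_, fun Φ _ => ?_⟩
    · have : ∀ k, (if k = l then a else 0) * 2 ^ (B * k) = if k = l then a * 2 ^ (B * k) else 0 := by
        intro k; split_ifs <;> simp
      simp_rw [this]
      rw [Finset.sum_ite_eq' (range M) l, if_pos (Finset.mem_range.2 h)]
    · have : ∀ k, (((if k = l then a else 0 : ℕ)) : ℝ) * ψ Φ k =
          if k = l then (a : ℝ) * ψ Φ k else 0 := by
        intro k; split_ifs <;> simp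
      simp_rw [this]
      rw [Finset.sum_ite_eq' (range M) l, if_pos (Finset.mem_range.2 h)]

/-- the quadratic form on lists -/
def qs (e : V3 → V3 → ℝ) : List V3 → List ℕ → ℝ
  | v :: L, a :: m => a * (a * e v v + 2 * ls (e v) L m) + qs e L m
  | _, _ => 0

theorem qs_eq (e : V3 → V3 → ℝ) (he : ∀ u v, e u v = e v u) : ∀ (L : List V3) (m : List ℕ),
    ls (fun u => ls (e u) L m) L m = qs e L m
  | [], _ => by simp [ls, qs]
  | _ :: _, [] => by simp [ls, qs]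
  | w :: L, a :: m => by
    have h1 := qs_eq e he L m
    have h2 : (fun u => ls (e u) (w :: L) (a :: m)) =
        fun u => (a : ℝ) * e w u + ls (e u) L m := by
      funext u
      show (a : ℝ) * e u w + ls (e u) L m = _
      rw [he u w]
    show (a : ℝ) * (a * e w w + ls (e w) L m) + ls (fun u => ls (e u) (w :: L) (a :: m)) L m =
      a * (a * e w w + 2 * ls (e w) L m) + qs e L m
    rw [h2, ls_add, ls_smul (a : ℝ) (e w), h1]
    ring

theorem dot_rep (E : V3 → ℕ) (e : ((Fin 3 → ℝ) → ℝ) → V3 → ℝ)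
    (hE : ∀ v, Rep B M ψ (E v) (fun Φ => e Φ v)) : ∀ (L : List V3) (m : List ℕ),
    Rep B M ψ (dot (mapV (fun w => Nat.mul 2 (E w)) L) m) (fun Φ => 2 * ls (e Φ) L m)
  | [], m => by
    have h : dot (mapV (fun w => Nat.mul 2 (E w)) []) m = 0 := rfl
    rw [h]
    simpa [ls] using Rep.zero (B := B) (M := M) (ψ := ψ)
  | v :: L, [] => by
    have h : dot (mapV (fun w => Nat.mul 2 (E w)) (v :: L)) [] = 0 := rfl
    rw [h]
    simpa [ls] using Rep.zero (B := B) (M := M) (ψ := ψ)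
  | v :: L, a :: m => by
    have h1 := dot_rep E e hE L m
    have h2 := ((hE v).smul 2).smul a
    have h3 : dot (mapV (fun w => Nat.mul 2 (E w)) (v :: L)) (a :: m) =
      a * (2 * E v) + dot (mapV (fun w => Nat.mul 2 (E w)) L) m := rfl
    rw [h3]
    refine (h2.add h1).mono fun Φ _ => le_of_eq ?_
    show 2 * ((a : ℝ) * e Φ v + ls (e Φ) L m) = _
    push_cast
    ring

theorem quad_rep (E : V3 → V3 → ℕ) (e : ((Fin 3 → ℝ) → ℝ) → V3 → V3 → ℝ)
    (hE : ∀ u v, Rep B M ψ (E u v) (fun Φ => e Φ u v)) : ∀ (L : List V3) (m : List ℕ),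
    Rep B M ψ (quad (mkTab E L) m) (fun Φ => qs (e Φ) L m)
  | [], m => by
    have h : quad (mkTab E []) m = 0 := rfl
    rw [h]
    simpa [qs] using Rep.zero (B := B) (M := M) (ψ := ψ)
  | v :: L, [] => by
    have h : quad (mkTab E (v :: L)) [] = 0 := rfl
    rw [h]
    simpa [qs] using Rep.zero (B := B) (M := M) (ψ := ψ)
  | v :: L, a :: m => by
    have h1 := quad_rep E e hE L m
    have h2 := dot_rep (E v) (fun Φ => e Φ v) (hE v) L m
    have h3 : quad (mkTab E (v :: L)) (a :: m) =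
      a * (a * E v v + dot (mapV (fun w => Nat.mul 2 (E v w)) L) m) + quad (mkTab E L) m := rfl
    rw [h3]
    refine (((((hE v v).smul a).add h2).smul a).add h1).mono fun Φ _ => le_of_eq ?_
    rfl

end rep

end Evo

end Vale.Agent.P154
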