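import Vale.Agent.P154.Near.Evo

/-!
# P154: soundness of the kernel evolution, mesh decompositions
-/

namespace Vale.Agent.P154

open Finset

namespace Evo

/-- position of the vertex `(i, j)` in the list -/
def pos (n i j : ℕ) : ℕ := i * (2 * n + 3 - i) / 2 + j

theorem pos_succ_left (n i j : ℕ) (h : i ≤ n) : pos n (i + 1) j = pos n i j + (n + 1 - i) := by
  unfold pos
  have e : (i + 1) * (2 * n + 3 - (i + 1)) = i * (2 * n + 3 - i) + 2 * (n + 1 - i) := by
    obtain ⟨k, rfl⟩ := Nat.exists_eq_add_of_le h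
    have e1 : 2 * (i + k) + 3 - (i + 1) = i + 2 * k + 2 := by omega
    have e2 : 2 * (i + k) + 3 - i = i + 2 * k + 3 := by omega
    have e3 : i + k + 1 - i = k + 1 := by omega
    rw [e1, e2, e3]; ring
  rw [e, Nat.add_mul_div_left _ _ (by norm_num)]
  omega

theorem pos_succ_right (n i j : ℕ) : pos n i (j + 1) = pos n i j + 1 := rfl

theorem shl (a b : ℕ) : Nat.shiftLeft a b = a * 2 ^ b := Nat.shiftLeft_eq a b

theorem spl3_A (n B t i f j g : ℕ) (h : f + g ≤ t) (hi : i ≤ n) :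
    spl3 n B t i f j g = f * 2 ^ (B * pos n (i + 1) j) + g * 2 ^ (B * pos n i (j + 1)) +
      (t - f - g) * 2 ^ (B * pos n i j) := by
  have hb : Nat.ble (Nat.add f g) t = true := Nat.ble_eq_true_of_le h
  have e : spl3 n B t i f j g = Nat.shiftLeft (Nat.shiftLeft f (B * (n + 1 - i)) +
      Nat.shiftLeft g B + (t - f - g)) (B * (pos n i j)) := by
    unfold spl3
    rw [hb]
    rfl
  rw [e, pos_succ_left n i j hi, shl, shl, shl, pos_succ_right, mul_add, mul_add, pow_add,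
    pow_add, mul_one]
  ring

theorem spl3_B (n B t i f j g : ℕ) (h : t < f + g) (hi : i ≤ n) :
    spl3 n B t i f j g = (f + g - t) * 2 ^ (B * pos n (i + 1) (j + 1)) +
      (t - g) * 2 ^ (B * pos n (i + 1) j) + (t - f) * 2 ^ (B * pos n i (j + 1)) := by
  have hb : Nat.ble (Nat.add f g) t = false := by
    rw [← Bool.not_eq_true, Nat.ble_eq]
    exact not_le.2 h
  have e : spl3 n B t i f j g = Nat.shiftLeft (Nat.shiftLeft (Nat.shiftLeft (f + g - t)
      (B * (n + 1 - i)) + Nat.shiftLeft (t - g) (B * (n + 1 - i) - B) + (t - f)) B)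
      (B * (pos n i j)) := by
    unfold spl3
    rw [hb]
    rfl
  have e1 : B * (n + 1 - i) - B = B * (n - i) := by
    have : n + 1 - i = (n - i) + 1 := by omega
    rw [this, mul_add, mul_one, Nat.add_sub_cancel]
  have e2 : n + 1 - i = (n - i) + 1 := by omega
  rw [e, pos_succ_right n (i + 1) j, pos_succ_left n i j hi, shl, shl, shl, shl, pos_succ_right, e1,
    e2]
  simp only [mul_add, pow_add, mul_one]
  ring

/-- real mesh vertices -/
noncomputable def Vr (n i j : ℕ) : Fin 3 → ℝ :=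
  ![6 * (n : ℝ) - 4 * i - 3 * j, 2 * (i : ℝ) + 3 * j, 2 * (i : ℝ)]

/-- a mesh -/
structure Mesh (n M : ℕ) (L0 : List V3) : Prop where
  len : L0.length = M
  posM : 0 < M
  vert : ∀ i j, i + j ≤ n → pos n i j < M ∧ vc (L0.getD (pos n i j) ⟨0, 0, 0⟩) = Vr n i j
  total : ∀ v ∈ L0, v.a + v.b + v.c = 6 * n

/-- symmetrised value at a vertex -/
noncomputable def psi (L0 : List V3) (Φ : (Fin 3 → ℝ) → ℝ) (l : ℕ) : ℝ :=
  sy Φ (vc (L0.getD l ⟨0, 0, 0⟩))

section mesh

variable {n B M : ℕ} {L0 : List V3}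

theorem Mesh.term (hM : Mesh n M L0) {Φ : (Fin 3 → ℝ) → ℝ} (h : Sub Φ) (a i j : ℕ)
    (hv : a = 0 ∨ i + j ≤ n) : (a : ℝ) * psi L0 Φ (pos n i j) = sy Φ (fun k => a * Vr n i j k) ∧
      ∀ k, 0 ≤ (a : ℝ) * Vr n i j k := by
  rcases hv with hv | hv
  · subst hv
    simp only [Nat.cast_zero, zero_mul, le_refl, implies_true, and_true]
    exact h.sy.zero.symm
  · have h1 := (hM.vert i j hv).2
    have h2 : ∀ k, 0 ≤ Vr n i j k := fun k => by rw [← h1]; exact vec_nonneg _ _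
    refine ⟨?_, fun k => mul_nonneg (Nat.cast_nonneg a) (h2 k)⟩
    unfold psi
    rw [h1, h.sy.smul a (Nat.cast_nonneg a) _ h2]

theorem Mesh.posOr (hM : Mesh n M L0) (a i j : ℕ) (hv : a = 0 ∨ i + j ≤ n) :
    a = 0 ∨ pos n i j < M := hv.imp_right fun h => (hM.vert i j h).1

theorem spl_rep (hM : Mesh n M L0) (a b c : ℕ) (hab : b ≤ a) (hbc : c ≤ b) :
    Rep B M (psi L0) (spl n B a b c) (fun Φ => 6 * n * sy Φ ![(a : ℝ), b, c]) := by
  obtain ⟨t, ht⟩ : ∃ t, t = a + b + c := ⟨_, rfl⟩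
  obtain ⟨x, hx⟩ : ∃ x, x = 3 * n * c := ⟨_, rfl⟩
  obtain ⟨y, hy⟩ : ∃ y, y = 2 * n * (b - c) := ⟨_, rfl⟩
  obtain ⟨i, hi⟩ : ∃ i, i = x / t := ⟨_, rfl⟩
  obtain ⟨f, hf⟩ : ∃ f, f = x % t := ⟨_, rfl⟩
  obtain ⟨j, hj⟩ : ∃ j, j = y / t := ⟨_, rfl⟩
  obtain ⟨g, hg⟩ : ∃ g, g = y % t := ⟨_, rfl⟩
  have hs : spl n B a b c = spl3 n B t i f j g := by
    rw [hi, hf, hj, hg, hx, hy, ht]
    rfl
  have hxe : t * i + f = x := by rw [hi, hf]; exact Nat.div_add_mod x t
  have hye : t * j + g = y := by rw [hj, hg]; exact Nat.div_add_mod y t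
  have hle : x + y ≤ n * t := by
    obtain ⟨k, rfl⟩ := Nat.exists_eq_add_of_le hbc
    obtain ⟨k', rfl⟩ := Nat.exists_eq_add_of_le hab
    have e : c + k - c = k := by omega
    rw [hx, hy, ht, e]
    have : n * (c + k + k' + (c + k) + c) = 3 * n * c + 2 * n * k + n * k' := by ring
    omega
  have hle2 : (i + j) * t + (f + g) ≤ n * t := by
    have : (i + j) * t + (f + g) = (t * i + f) + (t * j + g) := by ring
    rw [this, hxe, hye]
    exact hle
  -- real identities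
  have hxr : (t : ℝ) * i + f = 3 * n * c := by
    have := congrArg (Nat.cast (R := ℝ)) hxe
    rw [hx] at this
    push_cast at this
    exact this
  have hyr : (t : ℝ) * j + g = 2 * n * (b - c) := by
    have := congrArg (Nat.cast (R := ℝ)) hye
    rw [hy] at this
    push_cast [Nat.cast_sub hbc] at this
    exact this
  have htr : (t : ℝ) = a + b + c := by rw [ht]; push_cast; ring
  have hsc : ∀ Φ, Sub Φ → 6 * (n : ℝ) * sy Φ ![(a : ℝ), b, c] =
      sy Φ (fun k => 6 * n * (![(a : ℝ), b, c] : Fin 3 → ℝ) k) := by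
    intro Φ hΦ
    rw [hΦ.sy.smul (6 * n) (by positivity)]
    intro k
    fin_cases k <;> simp
  -- ranges
  have hzero : t = 0 → f = 0 ∧ g = 0 ∧ i = 0 := by
    intro h0
    have hc : c = 0 := by omega
    have hb : b = 0 := by omega
    have hx0 : x = 0 := by rw [hx, hc]; ring
    have hy0 : y = 0 := by rw [hy, hb]; simp
    refine ⟨?_, ?_, ?_⟩
    · rw [hf, hx0]; simp
    · rw [hg, hy0]; simp
    · rw [hi, hx0]; simp
  have hi_le : i ≤ n := by
    rcases Nat.eq_zero_or_pos t with h0 | h0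
    · rw [(hzero h0).2.2]; exact Nat.zero_le _
    · have : i * t ≤ n * t := by nlinarith
      exact Nat.le_of_mul_le_mul_right this h0
  have r0 : t = 0 ∨ i + j ≤ n := by
    rcases Nat.eq_zero_or_pos t with h0 | h0
    · exact Or.inl h0
    · right
      have : (i + j) * t ≤ n * t := by omega
      exact Nat.le_of_mul_le_mul_right this h0
  have r1 : f + g = 0 ∨ i + j + 1 ≤ n := by
    rcases Nat.eq_zero_or_pos t with h0 | h0
    · left; have := hzero h0; omega
    · rcases Nat.eq_zero_or_pos (f + g) with h1 | h1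
      · exact Or.inl h1
      · right
        have : (i + j) * t < n * t := by omega
        exact Nat.lt_of_mul_lt_mul_right this
  have r2 : f + g ≤ t ∨ i + j + 2 ≤ n := by
    rcases Nat.lt_or_ge t (f + g) with h1 | h1
    · right
      have : (i + j + 1) * t < n * t := by
        have : (i + j + 1) * t = (i + j) * t + t := by ring
        omega
      exact Nat.lt_of_mul_lt_mul_right this
    · exact Or.inl h1
  rw [hs]
  rcases Nat.lt_or_ge t (f + g) with hB | hA
  · have r2' : i + j + 2 ≤ n := by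
      rcases r2 with h | h
      · omega
      · exact h
    rw [spl3_B n B t i f j g hB hi_le]
    have v1 : f + g - t = 0 ∨ (i + 1) + (j + 1) ≤ n := Or.inr (by omega)
    have v2 : t - g = 0 ∨ (i + 1) + j ≤ n := Or.inr (by omega)
    have v3 : t - f = 0 ∨ i + (j + 1) ≤ n := Or.inr (by omega)
    refine (((Rep.single _ _ (hM.posOr _ _ _ v1)).add (Rep.single _ _ (hM.posOr _ _ _ v2))).add
      (Rep.single _ _ (hM.posOr _ _ _ v3))).mono fun Φ hΦ => ?_
    obtain ⟨w1, w1'⟩ := hM.term hΦ _ _ _ v1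
    obtain ⟨w2, w2'⟩ := hM.term hΦ _ _ _ v2
    obtain ⟨w3, w3'⟩ := hM.term hΦ _ _ _ v3
    rw [w1, w2, w3, hsc Φ hΦ]
    refine le_trans (le_of_eq ?_) (hΦ.sy.add3 _ _ _ w1' w2' w3')
    congr 1
    have hft : f ≤ t := by
      rcases Nat.eq_zero_or_pos t with h0 | h0
      · have := hzero h0; omega
      · rw [hf]; exact (Nat.mod_lt _ h0).le
    have hgt : g ≤ t := by
      rcases Nat.eq_zero_or_pos t with h0 | h0
      · have := hzero h0; omega
      · rw [hg]; exact (Nat.mod_lt _ h0).le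
    have q1 : ((f + g - t : ℕ) : ℝ) = f + g - t := by
      rw [Nat.cast_sub hB.le]; push_cast; ring
    have q2 : ((t - g : ℕ) : ℝ) = t - g := Nat.cast_sub hgt
    have q3 : ((t - f : ℕ) : ℝ) = t - f := Nat.cast_sub hft
    rw [q1, q2, q3]
    funext k
    fin_cases k
    · simp [Vr]
      linear_combination (4 : ℝ) * hxr + 3 * hyr + (-6 * (n : ℝ)) * htr
    · simp [Vr]
      linear_combination (-2 : ℝ) * hxr - 3 * hyr
    · simp [Vr]
      linear_combination (-2 : ℝ) * hxr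
  · rw [spl3_A n B t i f j g hA hi_le]
    have v1 : f = 0 ∨ (i + 1) + j ≤ n := by
      rcases r1 with h | h
      · left; omega
      · right; omega
    have v2 : g = 0 ∨ i + (j + 1) ≤ n := by
      rcases r1 with h | h
      · left; omega
      · right; omega
    have v3 : t - f - g = 0 ∨ i + j ≤ n := by
      rcases r0 with h | h
      · left; omega
      · exact Or.inr h
    refine (((Rep.single _ _ (hM.posOr _ _ _ v1)).add (Rep.single _ _ (hM.posOr _ _ _ v2))).add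
      (Rep.single _ _ (hM.posOr _ _ _ v3))).mono fun Φ hΦ => ?_
    obtain ⟨w1, w1'⟩ := hM.term hΦ _ _ _ v1
    obtain ⟨w2, w2'⟩ := hM.term hΦ _ _ _ v2
    obtain ⟨w3, w3'⟩ := hM.term hΦ _ _ _ v3
    rw [w1, w2, w3, hsc Φ hΦ]
    refine le_trans (le_of_eq ?_) (hΦ.sy.add3 _ _ _ w1' w2' w3')
    congr 1
    have q3 : ((t - f - g : ℕ) : ℝ) = t - f - g := by
      rw [Nat.cast_sub (by omega), Nat.cast_sub (by omega)]
    rw [q3]
    funext k
    fin_cases k
    · simp [Vr]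
      linear_combination (4 : ℝ) * hxr + 3 * hyr + (-6 * (n : ℝ)) * htr
    · simp [Vr]
      linear_combination (-2 : ℝ) * hxr - 3 * hyr
    · simp [Vr]
      linear_combination (-2 : ℝ) * hxr

theorem sy_swap12 (Φ : (Fin 3 → ℝ) → ℝ) (x y z : ℝ) : sy Φ ![x, z, y] = sy Φ ![x, y, z] := by
  rw [← sy_perm Φ ![x, y, z] (Equiv.swap 1 2)]
  congr 1
  funext i
  fin_cases i <;> rfl

theorem sy_swap01 (Φ : (Fin 3 → ℝ) → ℝ) (x y z : ℝ) : sy Φ ![y, x, z] = sy Φ ![x, y, z] := by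
  rw [← sy_perm Φ ![x, y, z] (Equiv.swap 0 1)]
  congr 1
  funext i
  fin_cases i <;> rfl

theorem srt2_rep (hM : Mesh n M L0) (x y z : ℕ) (h : y ≤ x) :
    Rep B M (psi L0) (srt2 n B x y z) (fun Φ => 6 * n * sy Φ ![(x : ℝ), y, z]) := by
  unfold srt2
  rcases Nat.lt_or_ge y z with h1 | h1
  · have hb : Nat.ble z y = false := by
      rw [← Bool.not_eq_true, Nat.ble_eq]
      exact not_le.2 h1
    rw [hb]
    rcases Nat.lt_or_ge x z with h2 | h2
    · have hb : Nat.ble z x = false := by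
        rw [← Bool.not_eq_true, Nat.ble_eq]
        exact not_le.2 h2
      rw [hb]
      refine (spl_rep (B := B) hM z x y h2.le h).mono fun Φ _ => le_of_eq ?_
      rw [sy_swap01 Φ x z y, sy_swap12]
    · have hb : Nat.ble z x = true := Nat.ble_eq_true_of_le h2
      rw [hb]
      refine (spl_rep (B := B) hM x z y h2 h1.le).mono fun Φ _ => le_of_eq ?_
      rw [sy_swap12]
  · have hb : Nat.ble z y = true := Nat.ble_eq_true_of_le h1
    rw [hb]
    exact spl_rep hM x y z h h1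

theorem srt_rep (hM : Mesh n M L0) (x y z : ℕ) :
    Rep B M (psi L0) (srt n B x y z) (fun Φ => 6 * n * sy Φ ![(x : ℝ), y, z]) := by
  unfold srt
  rcases Nat.lt_or_ge x y with h1 | h1
  · have hb : Nat.ble y x = false := by
      rw [← Bool.not_eq_true, Nat.ble_eq]
      exact not_le.2 h1
    rw [hb]
    refine (srt2_rep (B := B) hM y x z h1.le).mono fun Φ _ => le_of_eq ?_
    rw [sy_swap01]
  · have hb : Nat.ble y x = true := Nat.ble_eq_true_of_le h1
    rw [hb]
    exact srt2_rep hM x y z h1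

theorem perm_sum' (F : (Fin 3 → Fin 3) → ℝ) :
    ∑ p : Equiv.Perm (Fin 3), F (fun i => p i) = F ![0, 1, 2] + F ![0, 2, 1] +
      (F ![1, 0, 2] + F ![1, 2, 0]) + (F ![2, 0, 1] + F ![2, 1, 0]) := by
  have h : (Finset.univ : Finset (Equiv.Perm (Fin 3))) =
      {Equiv.refl _, Equiv.swap 1 2, Equiv.swap 0 1, (Equiv.swap 0 1) * (Equiv.swap 1 2),
        (Equiv.swap 1 2) * (Equiv.swap 0 1), Equiv.swap 0 2} := by decide
  rw [h, Finset.sum_insert (by decide), Finset.sum_insert (by decide),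
    Finset.sum_insert (by decide), Finset.sum_insert (by decide), Finset.sum_insert (by decide),
    Finset.sum_singleton]
  have e0 : (fun i : Fin 3 => (Equiv.refl (Fin 3)) i) = ![0, 1, 2] := by decide
  have e1 : (fun i : Fin 3 => (Equiv.swap (1 : Fin 3) 2) i) = ![0, 2, 1] := by decide
  have e2 : (fun i : Fin 3 => (Equiv.swap (0 : Fin 3) 1) i) = ![1, 0, 2] := by decide
  have e3 : (fun i : Fin 3 => (Equiv.swap (0 : Fin 3) 1 * Equiv.swap 1 2 : Equiv.Perm (Fin 3)) i) =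
      ![1, 2, 0] := by decide
  have e4 : (fun i : Fin 3 => (Equiv.swap (1 : Fin 3) 2 * Equiv.swap 0 1 : Equiv.Perm (Fin 3)) i) =
      ![2, 0, 1] := by decide
  have e5 : (fun i : Fin 3 => (Equiv.swap (0 : Fin 3) 2) i) = ![2, 1, 0] := by decide
  rw [e0, e1, e2, e3, e4, e5]
  ring

theorem ent_rep (hM : Mesh n M L0) (u v : V3) :
    Rep B M (psi L0) (ent n B u v) (fun Φ => 6 * n * e2 Φ u v) := by
  obtain ⟨a, b, c⟩ := u
  obtain ⟨x, y, z⟩ := v
  have h : ent n B ⟨a, b, c⟩ ⟨x, y, z⟩ =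
      srt n B (a * x) (b * y) (c * z) + srt n B (a * x) (b * z) (c * y) +
      (srt n B (a * y) (b * x) (c * z) + srt n B (a * y) (b * z) (c * x)) +
      (srt n B (a * z) (b * x) (c * y) + srt n B (a * z) (b * y) (c * x)) := rfl
  rw [h]
  refine (((((srt_rep hM _ _ _).add (srt_rep hM _ _ _)).add
    ((srt_rep hM _ _ _).add (srt_rep hM _ _ _))).add
    ((srt_rep hM _ _ _).add (srt_rep hM _ _ _)))).mono fun Φ _ => le_of_eq ?_
  unfold e2
  rw [perm_sum' (fun s => sy Φ (fun i => vc ⟨a, b, c⟩ i * vc ⟨x, y, z⟩ (s i)))]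
  have e : ∀ (s : Fin 3 → Fin 3), (fun i => vc ⟨a, b, c⟩ i * vc ⟨x, y, z⟩ (s i)) =
      ![(a : ℝ) * vc ⟨x, y, z⟩ (s 0), b * vc ⟨x, y, z⟩ (s 1), c * vc ⟨x, y, z⟩ (s 2)] := by
    intro s
    funext i
    fin_cases i <;> rfl
  simp only [e]
  simp only [Nat.cast_mul]
  have v0 : vc ⟨x, y, z⟩ 0 = (x : ℝ) := rfl
  have v1 : vc ⟨x, y, z⟩ 1 = (y : ℝ) := rfl
  have v2 : vc ⟨x, y, z⟩ 2 = (z : ℝ) := rfl
  simp only [Matrix.cons_val_zero, Matrix.cons_val_one, Matrix.cons_val, v0, v1, v2]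
  ring

end mesh

end Evo

end Vale.Agent.P154
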