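import Vale.Agent.P154.Near.Evo2

/-!
# P154: soundness of the kernel evolution, one generation
-/

namespace Vale.Agent.P154

open Finset

namespace Evo

theorem dig_eq (B : ℕ) : ∀ (M : ℕ) (F : ℕ → ℕ), (∀ l < M, F l < 2 ^ B) →
    dig B M (∑ l ∈ range M, F l * 2 ^ (B * l)) = (List.range M).map F
  | 0, _, _ => rfl
  | M + 1, F, h => by
    have e : ∑ l ∈ range (M + 1), F l * 2 ^ (B * l) =
        F 0 + 2 ^ B * ∑ l ∈ range M, F (l + 1) * 2 ^ (B * l) := by
      rw [Finset.sum_range_succ', Finset.mul_sum]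
      simp only [mul_zero, pow_zero, mul_one]
      rw [add_comm]
      congr 1
      refine Finset.sum_congr rfl fun l _ => ?_
      rw [mul_add, pow_add, mul_one]
      ring
    set T := ∑ l ∈ range M, F (l + 1) * 2 ^ (B * l) with hT
    have h0 : F 0 < 2 ^ B := h 0 (Nat.succ_pos M)
    have h1 := dig_eq B M (fun l => F (l + 1)) (fun l hl => h (l + 1) (by omega))
    rw [← hT] at h1
    have h2 : dig B (M + 1) (F 0 + 2 ^ B * T) =
        (F 0 + 2 ^ B * T) % 2 ^ B :: dig B M (Nat.shiftRight (F 0 + 2 ^ B * T) B) := rfl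
    have h3 : Nat.shiftRight (F 0 + 2 ^ B * T) B = T := by
      have : Nat.shiftRight (F 0 + 2 ^ B * T) B = (F 0 + 2 ^ B * T) / 2 ^ B :=
        Nat.shiftRight_eq_div_pow _ _
      rw [this, Nat.add_mul_div_left _ _ (by positivity), Nat.div_eq_of_lt h0, zero_add]
    rw [e, h2, h3, Nat.add_mul_mod_self_left, Nat.mod_eq_of_lt h0, h1,
      List.range_succ_eq_map, List.map_cons, List.map_map]
    rfl

theorem divL_eq (D : ℕ) : ∀ l : List ℕ, divL D l = l.map fun a => a / D
  | [] => rfl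
  | a :: l => by
    have h : divL D (a :: l) = a / D :: divL D l := rfl
    rw [h, divL_eq D l]
    rfl

theorem sumL_eq : ∀ l : List ℕ, sumL l = l.sum
  | [] => rfl
  | a :: l => by
    have h : sumL (a :: l) = a + sumL l := rfl
    rw [h, sumL_eq l, List.sum_cons]

theorem addHd_range (c : ℕ) (M : ℕ) (F : ℕ → ℕ) : addHd c ((List.range M).map F) =
    (List.range M).map fun l => F l + if l = 0 then c else 0 := by
  cases M with
  | zero => rfl
  | succ M =>
    rw [List.range_succ_eq_map, List.map_cons, List.map_map, List.map_cons, List.map_map]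
    have h : ∀ (a : ℕ) (l : List ℕ), addHd c (a :: l) = (a + c) :: l := fun _ _ => rfl
    rw [h]
    congr 1

theorem sum_range_map (M : ℕ) (F : ℕ → ℕ) : ((List.range M).map F).sum = ∑ l ∈ range M, F l := by
  rw [Finset.sum_range]
  induction M with
  | zero => rfl
  | succ M ih =>
    rw [List.range_succ, List.map_append, List.sum_append, ih, Fin.sum_univ_castSucc]
    simp

theorem ls_range (φ : V3 → ℝ) : ∀ (L : List V3) (F : ℕ → ℕ),
    ls φ L ((List.range L.length).map F) =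
      ∑ l ∈ range L.length, (F l : ℝ) * φ (L.getD l ⟨0, 0, 0⟩)
  | [], F => by simp [ls]
  | v :: L, F => by
    have h1 := ls_range φ L (fun l => F (l + 1))
    have h2 : ls φ (v :: L) ((List.range (v :: L).length).map F) =
        F 0 * φ v + ls φ L ((List.range L.length).map fun l => F (l + 1)) := by
      rw [List.length_cons, List.range_succ_eq_map, List.map_cons, List.map_map]
      rfl
    rw [h2, h1, List.length_cons, Finset.sum_range_succ']
    simp [add_comm]

/-- coordinate sum -/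
def sg (u : Fin 3 → ℝ) : ℝ := u 0 + u 1 + u 2

theorem sub_sg : Sub sg where
  smul c _ u _ := by unfold sg; ring
  add u v _ _ := by unfold sg; linarith

theorem sub_neg_sg : Sub (fun u => -sg u) where
  smul c _ u _ := by unfold sg; ring
  add u v _ _ := by unfold sg; linarith

theorem sg_perm (u : Fin 3 → ℝ) (p : Equiv.Perm (Fin 3)) : sg (fun i => u (p i)) = sg u := by
  have h : ∀ w : Fin 3 → ℝ, sg w = ∑ i, w i := fun w => by
    unfold sg; rw [Fin.sum_univ_three]
  rw [h, h]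
  exact Equiv.sum_comp p u

theorem card_perm : (Finset.univ : Finset (Equiv.Perm (Fin 3))).card = 6 := by decide

theorem sy_sg (u : Fin 3 → ℝ) : sy sg u = 6 * sg u := by
  unfold sy
  simp only [sg_perm]
  rw [Finset.sum_const, card_perm]
  simp

theorem sy_neg_sg (u : Fin 3 → ℝ) : sy (fun u => -sg u) u = -(6 * sg u) := by
  unfold sy
  simp only [sg_perm]
  rw [Finset.sum_const, card_perm]
  simp

theorem sum_prod_perm (u v : V3) :
    ∑ r : Equiv.Perm (Fin 3), sg (fun i => vc u i * vc v (r i)) = 2 * (sg (vc u) * sg (vc v)) := by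
  rw [perm_sum' (fun s => sg (fun i => vc u i * vc v (s i)))]
  unfold sg
  simp only [Matrix.cons_val_zero, Matrix.cons_val_one, Matrix.cons_val]
  ring

theorem e2_sg (u v : V3) : e2 sg u v = 12 * (sg (vc u) * sg (vc v)) := by
  unfold e2
  simp only [sy_sg]
  rw [← Finset.mul_sum, sum_prod_perm]
  ring

theorem e2_neg_sg (u v : V3) : e2 (fun u => -sg u) u v = -(12 * (sg (vc u) * sg (vc v))) := by
  unfold e2
  simp only [sy_neg_sg]
  rw [Finset.sum_neg_distrib, ← Finset.mul_sum, sum_prod_perm]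
  ring

theorem ls_const (φ : V3 → ℝ) (k : ℝ) : ∀ (L : List V3) (m : List ℕ), (∀ v ∈ L, φ v = k) →
    m.length = L.length → ls φ L m = k * m.sum
  | [], m, _, h => by
    have : m = [] := List.eq_nil_of_length_eq_zero h
    subst this
    simp [ls]
  | v :: L, [], _, h => by simp at h
  | v :: L, a :: m, hv, h => by
    have h1 := ls_const φ k L m (fun w hw => hv w (List.mem_cons_of_mem _ hw))
      (by simpa using h)
    show (a : ℝ) * φ v + ls φ L m = _
    rw [h1, hv v List.mem_cons_self, List.sum_cons]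
    push_cast
    ring

theorem ls_congr {φ φ' : V3 → ℝ} : ∀ (L : List V3) (m : List ℕ), (∀ v ∈ L, φ v = φ' v) →
    ls φ L m = ls φ' L m
  | [], _, _ => by simp [ls]
  | _ :: _, [], _ => by simp [ls]
  | v :: L, a :: m, h => by
    have h1 := ls_congr L m (fun w hw => h w (List.mem_cons_of_mem _ hw))
    show (a : ℝ) * φ v + ls φ L m = a * φ' v + ls φ' L m
    rw [h1, h v List.mem_cons_self]

/-- the corner dominates -/
theorem corner {Φ : (Fin 3 → ℝ) → ℝ} (h : Sub Φ) (w : Fin 3 → ℝ) (hw : ∀ i, 0 ≤ w i) :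
    sy Φ w ≤ sg w * sy Φ ![1, 0, 0] := by
  have n0 : ∀ k, 0 ≤ (![1, 0, 0] : Fin 3 → ℝ) k := by intro k; fin_cases k <;> simp
  have n1 : ∀ k, 0 ≤ (![0, 1, 0] : Fin 3 → ℝ) k := by intro k; fin_cases k <;> simp
  have n2 : ∀ k, 0 ≤ (![0, 0, 1] : Fin 3 → ℝ) k := by intro k; fin_cases k <;> simp
  have h1 := h.sy.add3 (fun k => w 0 * (![1, 0, 0] : Fin 3 → ℝ) k)
    (fun k => w 1 * (![0, 1, 0] : Fin 3 → ℝ) k) (fun k => w 2 * (![0, 0, 1] : Fin 3 → ℝ) k)
    (fun k => mul_nonneg (hw 0) (n0 k)) (fun k => mul_nonneg (hw 1) (n1 k))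
    (fun k => mul_nonneg (hw 2) (n2 k))
  rw [h.sy.smul _ (hw 0) _ n0, h.sy.smul _ (hw 1) _ n1, h.sy.smul _ (hw 2) _ n2] at h1
  have e1 : sy Φ ![0, 1, 0] = sy Φ ![1, 0, 0] := sy_swap01 Φ 1 0 0
  have e2 : sy Φ ![0, 0, 1] = sy Φ ![1, 0, 0] := by rw [sy_swap12 Φ 0 1 0, e1]
  rw [e1, e2] at h1
  have e : (fun i => w 0 * (![1, 0, 0] : Fin 3 → ℝ) i + w 1 * (![0, 1, 0] : Fin 3 → ℝ) i +
      w 2 * (![0, 0, 1] : Fin 3 → ℝ) i) = w := by
    funext i
    fin_cases i <;> simp
  rw [e] at h1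
  unfold sg
  linarith

section step

variable {n B M : ℕ} {L0 : List V3}

theorem sg_vc (v : V3) : sg (vc v) = ((v.a + v.b + v.c : ℕ) : ℝ) := by
  unfold sg vc
  simp

theorem Mesh.sg_vert (hM : Mesh n M L0) (l : ℕ) (hl : l < M) :
    sg (vc (L0.getD l ⟨0, 0, 0⟩)) = 6 * n := by
  have h1 : l < L0.length := by rw [hM.len]; exact hl
  have h2 : L0.getD l ⟨0, 0, 0⟩ ∈ L0 := by
    rw [List.getD_eq_getElem _ _ h1]
    exact List.getElem_mem h1
  rw [sg_vc, hM.total _ h2]
  push_cast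
  ring

theorem Mesh.psi_le (hM : Mesh n M L0) {Φ : (Fin 3 → ℝ) → ℝ} (h : Sub Φ) (l : ℕ) (hl : l < M) :
    psi L0 Φ l ≤ psi L0 Φ 0 := by
  have h1 := corner h (vc (L0.getD l ⟨0, 0, 0⟩)) (fun i => vec_nonneg _ _)
  rw [hM.sg_vert l hl] at h1
  have h2 := (hM.vert 0 0 (by omega)).2
  have h3 : pos n 0 0 = 0 := by unfold pos; simp
  rw [h3] at h2
  unfold psi
  rw [h2]
  have h4 : Vr n 0 0 = fun i => (6 * (n : ℝ)) * (![1, 0, 0] : Fin 3 → ℝ) i := by
    unfold Vr
    funext i
    fin_cases i <;> simp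
  rw [h4, h.sy.smul _ (by positivity)]
  · exact h1
  · intro i
    fin_cases i <;> simp

theorem fin_rep (hM : Mesh n M L0) (hn : 0 < n) {N D : ℕ} (hD : 0 < D) (hB : D * N < 2 ^ B)
    {R : ℕ} {x : ((Fin 3 → ℝ) → ℝ) → ℝ} (h : Rep B M (psi L0) R x)
    (hp : x sg = 36 * n * (D * N)) (hm : x (fun u => -sg u) = -(36 * n * (D * N))) :
    (fin N D B M R).length = M ∧ (fin N D B M R).sum = N ∧
      ∀ Φ, Sub Φ → x Φ ≤ D * ls (fun v => sy Φ (vc v)) L0 (fin N D B M R) := by
  obtain ⟨F, hR, hF⟩ := h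
  have hn' : (0 : ℝ) < n := by exact_mod_cast hn
  have hsum : ∑ l ∈ range M, F l = D * N := by
    have h1 := hF _ sub_sg
    have h2 := hF _ sub_neg_sg
    rw [hp] at h1
    rw [hm] at h2
    have e1 : ∑ l ∈ range M, (F l : ℝ) * psi L0 sg l = 36 * n * ∑ l ∈ range M, (F l : ℝ) := by
      rw [Finset.mul_sum]
      refine Finset.sum_congr rfl fun l hl => ?_
      unfold psi
      rw [sy_sg, hM.sg_vert l (Finset.mem_range.1 hl)]
      ring
    have e2 : ∑ l ∈ range M, (F l : ℝ) * psi L0 (fun u => -sg u) l =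
        -(36 * n * ∑ l ∈ range M, (F l : ℝ)) := by
      rw [Finset.mul_sum, ← Finset.sum_neg_distrib]
      refine Finset.sum_congr rfl fun l hl => ?_
      unfold psi
      rw [sy_neg_sg, hM.sg_vert l (Finset.mem_range.1 hl)]
      ring
    rw [e1] at h1
    rw [e2] at h2
    have h3 : (36 * (n : ℝ)) * (D * N) = (36 * n) * ∑ l ∈ range M, (F l : ℝ) := by linarith
    have h4 := mul_left_cancel₀ (by positivity) h3
    have h5 : ((∑ l ∈ range M, F l : ℕ) : ℝ) = ((D * N : ℕ) : ℝ) := by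
      push_cast
      linarith
    exact_mod_cast h5
  have hlt : ∀ l < M, F l < 2 ^ B := fun l hl => by
    have := Finset.single_le_sum (f := F) (fun _ _ => Nat.zero_le _) (Finset.mem_range.2 hl)
    omega
  have hfin : fin N D B M R = (List.range M).map fun l => F l / D +
      if l = 0 then N - ∑ l ∈ range M, F l / D else 0 := by
    have e : fin N D B M R = addHd (N - sumL (divL D (dig B M R))) (divL D (dig B M R)) := rfl
    rw [e, hR, dig_eq B M F hlt, divL_eq, List.map_map, sumL_eq]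
    have e2 : (fun a => a / D) ∘ F = fun l => F l / D := rfl
    rw [e2, addHd_range, sum_range_map]
  have hQ : ∑ l ∈ range M, F l / D ≤ N := by
    have h1 : D * ∑ l ∈ range M, F l / D ≤ D * N := by
      rw [← hsum, Finset.mul_sum]
      exact Finset.sum_le_sum fun l _ => Nat.mul_div_le _ _
    exact Nat.le_of_mul_le_mul_left h1 hD
  obtain ⟨Q, hQd⟩ : ∃ Q, Q = ∑ l ∈ range M, F l / D := ⟨_, rfl⟩
  rw [← hQd] at hfin hQ
  have h0M : 0 ∈ range M := Finset.mem_range.2 hM.posM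
  refine ⟨?_, ?_, fun Φ hΦ => ?_⟩
  · rw [hfin]; simp
  · rw [hfin, sum_range_map, Finset.sum_add_distrib, Finset.sum_ite_eq' (range M) 0, if_pos h0M,
      ← hQd]
    omega
  · refine (hF Φ hΦ).trans ?_
    rw [hfin]
    have hl := ls_range (fun v => sy Φ (vc v)) L0 (fun l => F l / D + if l = 0 then N - Q else 0)
    rw [hM.len] at hl
    rw [hl]
    have e1 : ∑ l ∈ range M, ((F l / D + if l = 0 then N - Q else 0 : ℕ) : ℝ) *
        sy Φ (vc (L0.getD l ⟨0, 0, 0⟩)) =
        ∑ l ∈ range M, ((F l / D : ℕ) : ℝ) * psi L0 Φ l + ((N - Q : ℕ) : ℝ) * psi L0 Φ 0 := by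
      have : ∀ l, ((F l / D + if l = 0 then N - Q else 0 : ℕ) : ℝ) *
        sy Φ (vc (L0.getD l ⟨0, 0, 0⟩)) = ((F l / D : ℕ) : ℝ) * psi L0 Φ l +
          if l = 0 then ((N - Q : ℕ) : ℝ) * psi L0 Φ l else 0 := by
        intro l
        unfold psi
        split_ifs
        · push_cast; ring
        · push_cast; ring
      simp_rw [this]
      rw [Finset.sum_add_distrib, Finset.sum_ite_eq' (range M) 0, if_pos h0M]
    rw [e1]
    have e2 : ∀ l ∈ range M, (F l : ℝ) * psi L0 Φ l ≤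
        D * (((F l / D : ℕ) : ℝ) * psi L0 Φ l) + ((F l % D : ℕ) : ℝ) * psi L0 Φ 0 := by
      intro l hl
      have h1 : (F l : ℝ) = D * ((F l / D : ℕ) : ℝ) + ((F l % D : ℕ) : ℝ) := by
        have := Nat.div_add_mod (F l) D
        exact_mod_cast this.symm
      have h2 := mul_le_mul_of_nonneg_left (hM.psi_le hΦ l (Finset.mem_range.1 hl))
        (Nat.cast_nonneg (α := ℝ) (F l % D))
      calc (F l : ℝ) * psi L0 Φ l = D * (((F l / D : ℕ) : ℝ) * psi L0 Φ l) +
            ((F l % D : ℕ) : ℝ) * psi L0 Φ l := by rw [h1]; ring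
        _ ≤ _ := by linarith
    refine (Finset.sum_le_sum e2).trans (le_of_eq ?_)
    rw [Finset.sum_add_distrib, ← Finset.mul_sum, ← Finset.sum_mul, mul_add]
    congr 1
    have e3 : (∑ l ∈ range M, ((F l % D : ℕ) : ℝ)) = D * ((N - Q : ℕ) : ℝ) := by
      have h1 : ∑ l ∈ range M, F l % D + D * Q = D * N := by
        rw [← hsum, hQd, Finset.mul_sum, ← Finset.sum_add_distrib]
        exact Finset.sum_congr rfl fun l _ => Nat.mod_add_div _ _
      have h2 : ∑ l ∈ range M, F l % D = D * (N - Q) := by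
        rw [Nat.mul_sub]
        omega
      exact_mod_cast h2
    rw [e3]
    ring

theorem step_sq (hM : Mesh n M L0) (hn : 0 < n) {N s : ℕ} (hs : 0 < s) (hN : 0 < N)
    (hB : 2 * s ^ 2 * N * N < 2 ^ B) {X : Type} [Fintype X] {f : X → Fin 3 → ℝ}
    (hf0 : ∀ x i, 0 ≤ f x i) {c : ℝ} (hc : 0 ≤ c) {L1 : List V3} {m : List ℕ}
    (hL1 : ∀ v ∈ L1, v.a + v.b + v.c = s) (hlen : m.length = L1.length) (hsum : m.sum = N)
    (hf : Maj f c L1 m) {D : ℕ} (hD : D = 2 * s ^ 2 * N) {c' : ℝ}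
    (hc' : c' * (6 * n) = c ^ 2 * D) :
    (fin N D B M (quad (mkTab (ent n B) L1) m)).length = M ∧
      (fin N D B M (quad (mkTab (ent n B) L1) m)).sum = N ∧
      Maj (prod2 f f) c' L0 (fin N D B M (quad (mkTab (ent n B) L1) m)) := by
  have hn' : (0 : ℝ) < n := by exact_mod_cast hn
  have hq := quad_rep (B := B) (M := M) (ψ := psi L0) (ent n B)
    (fun Φ u v => 6 * n * e2 Φ u v) (fun u v => ent_rep hM u v) L1 m
  have hD0 : 0 < D := by rw [hD]; positivity
  have hx : ∀ Φ, qs (fun u v => 6 * (n : ℝ) * e2 Φ u v) L1 m =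
      6 * n * ls (fun u => ls (fun v => e2 Φ u v) L1 m) L1 m := by
    intro Φ
    rw [← qs_eq _ (fun u v => by rw [e2_comm Φ u v]), ← ls_smul]
    congr 1
    funext u
    exact ls_smul _ _ _ _
  have hsgs : ∀ v ∈ L1, sg (vc v) = s := fun v hv => by rw [sg_vc, hL1 v hv]
  have hp : 6 * (n : ℝ) * ls (fun u => ls (fun v => e2 sg u v) L1 m) L1 m =
      36 * n * (D * N) := by
    have h1 : ∀ u ∈ L1, ls (fun v => e2 sg u v) L1 m = 12 * s * s * N := by
      intro u hu
      have h2 := ls_const (fun v => e2 sg u v) (12 * s * s) L1 m (fun v hv => by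
        rw [e2_sg, hsgs u hu, hsgs v hv]; ring) hlen
      rw [h2, hsum]
    rw [ls_const _ _ L1 m h1 hlen, hsum, hD]
    push_cast
    ring
  have hm : 6 * (n : ℝ) * ls (fun u => ls (fun v => e2 (fun u => -sg u) u v) L1 m) L1 m =
      -(36 * n * (D * N)) := by
    have h1 : ∀ u ∈ L1, ls (fun v => e2 (fun u => -sg u) u v) L1 m = -(12 * s * s * N) := by
      intro u hu
      have h2 := ls_const (fun v => e2 (fun u => -sg u) u v) (-(12 * s * s)) L1 m (fun v hv => by
        rw [e2_neg_sg, hsgs u hu, hsgs v hv]; ring) hlen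
      rw [h2, hsum]
      ring
    rw [ls_const _ _ L1 m h1 hlen, hsum, hD]
    push_cast
    ring
  have hr := fin_rep (B := B) hM hn (N := N) hD0 (by rw [hD]; exact hB) (R := quad (mkTab (ent n B) L1) m)
    hq (by rw [hx, hp]) (by rw [hx, hm])
  refine ⟨hr.1, hr.2.1, fun Φ hΦ => ?_⟩
  have h1 := Maj.prod hf0 hf0 hc hf hf Φ hΦ
  have h2 := hr.2.2 Φ hΦ
  rw [hx] at h2
  refine h1.trans ?_
  have h3 : 0 < 6 * (n : ℝ) := by positivity
  have h4 : (6 * (n : ℝ)) * (c * (c * ls (fun u => ls (fun v => e2 Φ u v) L1 m) L1 m)) ≤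
      (6 * n) * (c' * ls (fun v => sy Φ (vc v)) L0 (fin N D B M (quad (mkTab (ent n B) L1) m))) := by
    calc (6 * (n : ℝ)) * (c * (c * ls (fun u => ls (fun v => e2 Φ u v) L1 m) L1 m))
        = c ^ 2 * (6 * n * ls (fun u => ls (fun v => e2 Φ u v) L1 m) L1 m) := by ring
      _ ≤ c ^ 2 * (D * ls (fun v => sy Φ (vc v)) L0
          (fin N D B M (quad (mkTab (ent n B) L1) m))) :=
          mul_le_mul_of_nonneg_left h2 (by positivity)
      _ = (c' * (6 * n)) * ls (fun v => sy Φ (vc v)) L0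
          (fin N D B M (quad (mkTab (ent n B) L1) m)) := by rw [hc']; ring
      _ = _ := by ring
  exact le_of_mul_le_mul_left h4 h3

end step

end Evo

end Vale.Agent.P154
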