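import Vale.Agent.P154.Near.Evo3

/-!
# P154: soundness of the kernel evolution, the generation step
-/

namespace Vale.Agent.P154

open Finset

namespace Evo

theorem edge_smul (lam c : ℝ) (u : Fin 3 → ℝ) :
    edge lam (fun i => c * u i) = fun i => c * edge lam u i := by
  funext i
  unfold edge
  rw [Finset.mul_sum]
  exact Finset.sum_congr rfl fun j _ => by ring

theorem edge_add (lam : ℝ) (u v : Fin 3 → ℝ) :
    edge lam (fun i => u i + v i) = fun i => edge lam u i + edge lam v i := by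
  funext i
  unfold edge
  rw [← Finset.sum_add_distrib]
  exact Finset.sum_congr rfl fun j _ => by ring

theorem edge_perm (lam : ℝ) (u : Fin 3 → ℝ) (p : Equiv.Perm (Fin 3)) :
    edge lam (fun i => u (p i)) = fun i => edge lam u (p i) := by
  funext i
  rw [edge_eq, edge_eq]
  have h : Z (fun i => u (p i)) = Z u := by
    unfold Z
    rw [Equiv.sum_comp p u]
  rw [h]

theorem Sub.edge {Φ : (Fin 3 → ℝ) → ℝ} (h : Sub Φ) {lam : ℝ} (hl : Admissible 3 lam) :
    Sub (fun u => Φ (Vale.Agent.P154.edge lam u)) where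
  smul c hc u hu := by
    rw [edge_smul, h.smul c hc _ (fun i => edge_nonneg hl hu i)]
  add u v hu hv := by
    rw [edge_add]
    exact h.add _ _ (fun i => edge_nonneg hl hu i) (fun i => edge_nonneg hl hv i)

/-- edge vertex -/
def ev1 (n : ℕ) (v : V3) : V3 := ⟨6 * n - v.c, 6 * n - v.b, 6 * n - v.a⟩

theorem ls_edgeV (n : ℕ) (φ : V3 → ℝ) : ∀ (L : List V3) (m : List ℕ),
    ls φ (edgeV n L) m = ls (fun v => φ (ev1 n v)) L m
  | [], _ => by simp [ls, edgeV]
  | v :: L, [] => by
    have h : edgeV n (v :: L) = ev1 n v :: edgeV n L := rfl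
    rw [h]
    simp [ls]
  | v :: L, a :: m => by
    have h : edgeV n (v :: L) = ev1 n v :: edgeV n L := rfl
    have h1 := ls_edgeV n φ L m
    rw [h]
    show (a : ℝ) * φ (ev1 n v) + ls φ (edgeV n L) m = _
    rw [h1]
    rfl

theorem edgeV_mem (n : ℕ) : ∀ (L : List V3), ∀ w ∈ edgeV n L, ∃ v ∈ L, w = ev1 n v
  | [], w, hw => by
    have h : edgeV n [] = [] := rfl
    rw [h] at hw
    simp at hw
  | v :: L, w, hw => by
    have h : edgeV n (v :: L) = ev1 n v :: edgeV n L := rfl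
    rw [h, List.mem_cons] at hw
    rcases hw with hw | hw
    · exact ⟨v, List.mem_cons_self, hw⟩
    · obtain ⟨v', h1, h2⟩ := edgeV_mem n L w hw
      exact ⟨v', List.mem_cons_of_mem _ h1, h2⟩

theorem edgeV_len (n : ℕ) : ∀ (L : List V3), (edgeV n L).length = L.length
  | [] => rfl
  | v :: L => by
    have h : edgeV n (v :: L) = ev1 n v :: edgeV n L := rfl
    rw [h, List.length_cons, List.length_cons, edgeV_len n L]

theorem adm_half' : Admissible 3 (-1 / 2) := by
  intro i j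
  unfold potts
  split_ifs <;> norm_num

theorem sy_edge {Φ : (Fin 3 → ℝ) → ℝ} (h : Sub Φ) {n : ℕ} (v : V3)
    (hv : v.a + v.b + v.c = 6 * n) :
    sy (fun u => Φ (edge (-1 / 2) u)) (vc v) = 1 / 2 * sy Φ (vc (ev1 n v)) := by
  have h1 : sy (fun u => Φ (edge (-1 / 2) u)) (vc v) = sy Φ (edge (-1 / 2) (vc v)) := by
    unfold sy
    simp only [edge_perm]
  rw [h1, ← sy_perm Φ (vc (ev1 n v)) (Equiv.swap 0 2), ← h.sy.smul (1 / 2) (by norm_num)]
  · congr 1
    have hv' : (v.a : ℝ) + v.b + v.c = 6 * n := by exact_mod_cast hv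
    have ha : ((6 * n - v.a : ℕ) : ℝ) = 6 * n - v.a := by
      rw [Nat.cast_sub (by omega)]; push_cast; ring
    have hb : ((6 * n - v.b : ℕ) : ℝ) = 6 * n - v.b := by
      rw [Nat.cast_sub (by omega)]; push_cast; ring
    have hc : ((6 * n - v.c : ℕ) : ℝ) = 6 * n - v.c := by
      rw [Nat.cast_sub (by omega)]; push_cast; ring
    have hz : Z (vc v) = 2 * n := by
      unfold Z
      rw [Fin.sum_univ_three]
      show ((v.a : ℝ) + v.b + v.c) / (3 : ℕ) = 2 * n
      rw [hv']
      push_cast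
      ring
    funext i
    rw [edge_eq, hz]
    fin_cases i
    · show -1 / 2 * (v.a : ℝ) + (1 - -1 / 2) * (2 * n) = 1 / 2 * ((6 * n - v.a : ℕ) : ℝ)
      rw [ha]; ring
    · show -1 / 2 * (v.b : ℝ) + (1 - -1 / 2) * (2 * n) = 1 / 2 * ((6 * n - v.b : ℕ) : ℝ)
      rw [hb]; ring
    · show -1 / 2 * (v.c : ℝ) + (1 - -1 / 2) * (2 * n) = 1 / 2 * ((6 * n - v.c : ℕ) : ℝ)
      rw [hc]; ring
  · intro i
    exact vec_nonneg _ _

theorem Maj.edge {X : Type} [Fintype X] {f : X → Fin 3 → ℝ} {n : ℕ} {c : ℝ} {L0 : List V3}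
    {m : List ℕ} (hf : Maj f c L0 m) (hL : ∀ v ∈ L0, v.a + v.b + v.c = 6 * n) :
    Maj (fun x => Vale.Agent.P154.edge (-1 / 2) (f x)) (c / 2) (edgeV n L0) m := by
  intro Φ hΦ
  have h1 := hf _ (hΦ.edge adm_half')
  refine h1.trans (le_of_eq ?_)
  rw [ls_edgeV, ls_congr (φ' := fun v => 1 / 2 * sy Φ (vc (ev1 n v))) L0 m
    (fun v hv => sy_edge hΦ v (hL v hv)), ls_smul]
  ring

/-- one generation -/
theorem gen_step {n B M : ℕ} {L0 : List V3} (hM : Mesh n M L0) (hn : 0 < n) {N : ℕ} (hN : 0 < N)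
    (hB : 288 * (n * n) * N * N < 2 ^ B) {X : Type} [Fintype X] {f : X → Fin 3 → ℝ}
    (hf0 : IsChan f) {m : List ℕ} (hlen : m.length = M) (hsum : m.sum = N)
    (hf : Maj f (1 / (12 * n * N)) L0 m) :
    (gen n N B M (mkTab (ent n B) (edgeV n L0)) (mkTab (ent n B) L0) m).length = M ∧
    (gen n N B M (mkTab (ent n B) (edgeV n L0)) (mkTab (ent n B) L0) m).sum = N ∧
    Maj (prod2 (prod2 (fun x => edge (-1 / 2) (f x)) (fun x => edge (-1 / 2) (f x)))
      (prod2 (fun x => edge (-1 / 2) (f x)) (fun x => edge (-1 / 2) (f x)))) (1 / (12 * n * N)) L0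
      (gen n N B M (mkTab (ent n B) (edgeV n L0)) (mkTab (ent n B) L0) m) := by
  have hn' : (0 : ℝ) < n := by exact_mod_cast hn
  have hN' : (0 : ℝ) < N := by exact_mod_cast hN
  have hg : IsChan (fun x => edge (-1 / 2) (f x)) := hf0.edge (by norm_num) adm_half'
  have h1 := hf.edge hM.total
  have h2 := step_sq (B := B) hM hn (s := 12 * n) (by omega) hN (by
      refine lt_of_eq_of_lt ?_ hB
      ring) hg.nonneg (by positivity) (L1 := edgeV n L0) (m := m)
    (by
      intro w hw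
      obtain ⟨v, hv, rfl⟩ := edgeV_mem n L0 w hw
      have := hM.total v hv
      show (6 * n - v.c) + (6 * n - v.b) + (6 * n - v.a) = 12 * n
      omega)
    (by rw [edgeV_len, hM.len, hlen]) hsum h1 (D := 288 * (n * n) * N) (by ring)
    (c' := 1 / (12 * n * N)) (by push_cast; field_simp; ring)
  obtain ⟨a1, a2, a3⟩ := h2
  have hP : IsChan (prod2 (fun x => edge (-1 / 2) (f x)) (fun x => edge (-1 / 2) (f x))) :=
    hg.prod2 hg
  exact step_sq (B := B) hM hn (s := 6 * n) (by omega) hN (by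
      refine lt_of_le_of_lt ?_ hB
      have : 2 * (6 * n) ^ 2 * N * N = 72 * (n * n) * N * N := by ring
      rw [this]
      gcongr
      norm_num) hP.nonneg (by positivity) (L1 := L0)
    (m := fin N (288 * (n * n) * N) B M (quad (mkTab (ent n B) (edgeV n L0)) m))
    hM.total (by rw [a1, hM.len]) a2 a3 (D := 72 * (n * n) * N) (by ring)
    (c' := 1 / (12 * n * N)) (by push_cast; field_simp; ring)

theorem beqL_eq : ∀ l m : List ℕ, beqL l m = true → l = m
  | [], [], _ => rfl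
  | [], _ :: _, h => by
    have h' : false = true := h
    simp at h'
  | _ :: _, [], h => by
    have h' : false = true := h
    simp at h'
  | a :: l, b :: m, h => by
    by_cases hb : Nat.beq a b = true
    · have h' : @Bool.rec (fun _ => Bool) false (beqL l m) (Nat.beq a b) = true := h
      rw [hb] at h'
      rw [Nat.eq_of_beq_eq_true hb, beqL_eq l m h']
    · have h' : @Bool.rec (fun _ => Bool) false (beqL l m) (Nat.beq a b) = true := h
      rw [Bool.not_eq_true] at hb
      rw [hb] at h'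
      have h'' : false = true := h'
      simp at h''

theorem ls_zeros (φ : V3 → ℝ) : ∀ (L : List V3) (k : ℕ), ls φ L (List.replicate k 0) = 0
  | [], _ => by simp [ls]
  | _ :: _, 0 => by simp [ls]
  | v :: L, k + 1 => by
    have h1 := ls_zeros φ L k
    rw [List.replicate_succ]
    show ((0 : ℕ) : ℝ) * φ v + ls φ L (List.replicate k 0) = 0
    rw [h1]
    simp

theorem sy_corner (Φ : (Fin 3 → ℝ) → ℝ) :
    sy Φ ![1, 0, 0] = 2 * ∑ j : Fin 3, Φ (fun i => if j = i then 1 else 0) := by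
  unfold sy
  rw [perm_sum' (fun s => Φ (fun i => (![1, 0, 0] : Fin 3 → ℝ) (s i))), Fin.sum_univ_three]
  have e0 : (fun i => (![1, 0, 0] : Fin 3 → ℝ) ((![0, 1, 2] : Fin 3 → Fin 3) i)) =
      fun i => if (0 : Fin 3) = i then 1 else 0 := by funext i; fin_cases i <;> simp
  have e1 : (fun i => (![1, 0, 0] : Fin 3 → ℝ) ((![0, 2, 1] : Fin 3 → Fin 3) i)) =
      fun i => if (0 : Fin 3) = i then 1 else 0 := by funext i; fin_cases i <;> simp
  have e2 : (fun i => (![1, 0, 0] : Fin 3 → ℝ) ((![1, 0, 2] : Fin 3 → Fin 3) i)) =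
      fun i => if (1 : Fin 3) = i then 1 else 0 := by funext i; fin_cases i <;> simp
  have e3 : (fun i => (![1, 0, 0] : Fin 3 → ℝ) ((![1, 2, 0] : Fin 3 → Fin 3) i)) =
      fun i => if (2 : Fin 3) = i then 1 else 0 := by funext i; fin_cases i <;> simp
  have e4 : (fun i => (![1, 0, 0] : Fin 3 → ℝ) ((![2, 0, 1] : Fin 3 → Fin 3) i)) =
      fun i => if (1 : Fin 3) = i then 1 else 0 := by funext i; fin_cases i <;> simp
  have e5 : (fun i => (![1, 0, 0] : Fin 3 → ℝ) ((![2, 1, 0] : Fin 3 → Fin 3) i)) =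
      fun i => if (2 : Fin 3) = i then 1 else 0 := by funext i; fin_cases i <;> simp
  rw [e0, e1, e2, e3, e4, e5]
  ring

end Evo

end Vale.Agent.P154
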