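import Vale.Agent.P154.Near.Chain
import Vale.Agent.P154.Near.EndGame

/-!
# P154: nonreconstruction for three colours, four children and eigenvalue -1/2
-/

namespace Vale.Agent.P154

open PExp Finset

namespace Evo

/-- the majorant -/
noncomputable def Ph (u : Fin 3 → ℝ) : ℝ := W u + 3 / 10 * (W u ^ 2 / Z u)

theorem zero_of_SS {u : Fin 3 → ℝ} (hu : ∀ i, 0 ≤ u i) (h : SS u = 0) : ∀ i, u i = 0 := by
  intro i
  unfold SS at h
  have a0 := hu 0
  have a1 := hu 1
  have a2 := hu 2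
  fin_cases i
  · show u 0 = 0; linarith
  · show u 1 = 0; linarith
  · show u 2 = 0; linarith

theorem W_smul (c : ℝ) (u : Fin 3 → ℝ) : W (fun i => c * u i) = c * W u := by
  rw [W_eq3, W_eq3]
  have h1 : AA (fun i => c * u i) = c ^ 2 * AA u := by unfold AA QQ SS; ring
  have h2 : SS (fun i => c * u i) = c * SS u := by unfold SS; ring
  rw [h1, h2]
  by_cases hc : c = 0
  · rw [hc]; simp
  · by_cases hS : SS u = 0
    · rw [hS]; simp
    · field_simp

theorem Z_smul (c : ℝ) (u : Fin 3 → ℝ) : Z (fun i => c * u i) = c * Z u := by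
  rw [Z_eq3, Z_eq3]; unfold SS; ring

theorem Z_add (u v : Fin 3 → ℝ) : Z (fun i => u i + v i) = Z u + Z v := by
  rw [Z_eq3, Z_eq3, Z_eq3]; unfold SS; ring

theorem W_add {u v : Fin 3 → ℝ} (hu : ∀ i, 0 ≤ u i) (hv : ∀ i, 0 ≤ v i) :
    W (fun i => u i + v i) ≤ W u + W v := by
  rcases (SS_nonneg hu).eq_or_lt with h | h
  · have h0 := zero_of_SS hu h.symm
    have e : (fun i => u i + v i) = v := by funext i; rw [h0]; ring
    rw [e]
    linarith [W_nonneg (by norm_num) u hu]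
  rcases (SS_nonneg hv).eq_or_lt with h' | h'
  · have h0 := zero_of_SS hv h'.symm
    have e : (fun i => u i + v i) = u := by funext i; rw [h0]; ring
    rw [e]
    linarith [W_nonneg (by norm_num) v hv]
  have e : W u + W v - W (fun i => u i + v i) =
      ((SS v * u 0 - SS u * v 0) ^ 2 + (SS v * u 1 - SS u * v 1) ^ 2 +
        (SS v * u 2 - SS u * v 2) ^ 2) / (SS u * SS v * (SS u + SS v)) := by
    rw [W_eq3, W_eq3, W_eq3]
    have h2 : SS (fun i => u i + v i) = SS u + SS v := by unfold SS; ring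
    have h3 : AA (fun i => u i + v i) = 3 * ((u 0 + v 0) ^ 2 + (u 1 + v 1) ^ 2 +
      (u 2 + v 2) ^ 2) - (SS u + SS v) ^ 2 := by unfold AA QQ; rw [h2]
    have h4 : AA u = 3 * (u 0 ^ 2 + u 1 ^ 2 + u 2 ^ 2) - SS u ^ 2 := rfl
    have h5 : AA v = 3 * (v 0 ^ 2 + v 1 ^ 2 + v 2 ^ 2) - SS v ^ 2 := rfl
    rw [h2, h3, h4, h5]
    have : SS u + SS v ≠ 0 := by positivity
    field_simp
    ring
  have h6 : 0 ≤ ((SS v * u 0 - SS u * v 0) ^ 2 + (SS v * u 1 - SS u * v 1) ^ 2 +
        (SS v * u 2 - SS u * v 2) ^ 2) / (SS u * SS v * (SS u + SS v)) := by positivity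
  linarith

theorem Z_nonneg' {u : Fin 3 → ℝ} (hu : ∀ i, 0 ≤ u i) : 0 ≤ Z u := by
  rw [Z_eq3]; have := SS_nonneg hu; positivity

theorem sub_Ph : Sub Ph where
  smul c hc u hu := by
    unfold Ph
    rw [W_smul, Z_smul]
    by_cases h : c = 0
    · rw [h]; simp
    · by_cases hZ : Z u = 0
      · rw [hZ]; simp
      · field_simp
  add u v hu hv := by
    have hWu := W_nonneg (by norm_num) u hu
    have hWv := W_nonneg (by norm_num) v hv
    rcases (Z_nonneg' hu).eq_or_lt with h | h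
    · have h1 : SS u = 0 := by rw [Z_eq3] at h; linarith
      have h0 := zero_of_SS hu h1
      have e : (fun i => u i + v i) = v := by funext i; rw [h0]; ring
      rw [e]
      have : 0 ≤ Ph u := by
        unfold Ph
        have := Z_nonneg' hu
        positivity
      linarith
    rcases (Z_nonneg' hv).eq_or_lt with h' | h'
    · have h1 : SS v = 0 := by rw [Z_eq3] at h'; linarith
      have h0 := zero_of_SS hv h1
      have e : (fun i => u i + v i) = u := by funext i; rw [h0]; ring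
      rw [e]
      have : 0 ≤ Ph v := by
        unfold Ph
        have := Z_nonneg' hv
        positivity
      linarith
    have h1 := W_add hu hv
    have h2 : 0 ≤ W (fun i => u i + v i) :=
      W_nonneg (by norm_num) _ fun i => add_nonneg (hu i) (hv i)
    unfold Ph
    rw [Z_add]
    have h3 : W (fun i => u i + v i) ^ 2 / (Z u + Z v) ≤ (W u + W v) ^ 2 / (Z u + Z v) := by
      gcongr
    have h4 : (W u + W v) ^ 2 / (Z u + Z v) ≤ W u ^ 2 / Z u + W v ^ 2 / Z v := by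
      have e : W u ^ 2 / Z u + W v ^ 2 / Z v - (W u + W v) ^ 2 / (Z u + Z v) =
          (Z v * W u - Z u * W v) ^ 2 / (Z u * Z v * (Z u + Z v)) := by
        have : Z u + Z v ≠ 0 := by positivity
        field_simp
        ring
      have h5 : 0 ≤ (Z v * W u - Z u * W v) ^ 2 / (Z u * Z v * (Z u + Z v)) := by positivity
      linarith
    linarith

theorem Hf_le_Ph (w : Fin 3 → ℝ) (hw : ∀ i, 0 ≤ w i) : Hf 57 101 67 w ≤ Ph w := by
  unfold Ph Hf
  rw [W_eq3, Z_eq3]
  have h1 := M0 w hw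
  have h2 := AA_nonneg w
  have hS := SS_nonneg hw
  rcases hS.eq_or_lt with h0 | h0
  · rw [← h0]; simp
  · have e : AA w / (3 * SS w) + 3 / 10 * ((AA w / (3 * SS w)) ^ 2 / (SS w / 3)) -
        (1000 * (AA w * SS w ^ 4) + ((57 : ℤ) : ℝ) * (AA w ^ 2 * SS w ^ 2) +
        (((101 : ℤ) : ℝ) * (AA w * BB w * SS w) + ((67 : ℤ) : ℝ) * AA w ^ 3)) /
          (3000 * SS w ^ 5) =
        AA w * (((243 : ℤ) : ℝ) * (AA w * SS w ^ 2) + (((-101 : ℤ) : ℝ) * (BB w * SS w) +
      ((-67 : ℤ) : ℝ) * AA w ^ 2)) / (3000 * SS w ^ 5) := by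
      push_cast
      field_simp
      ring
    have h3 : 0 ≤ AA w * (((243 : ℤ) : ℝ) * (AA w * SS w ^ 2) +
        (((-101 : ℤ) : ℝ) * (BB w * SS w) + ((-67 : ℤ) : ℝ) * AA w ^ 2)) / (3000 * SS w ^ 5) := by
      positivity
    linarith

theorem sy_Ph (u : Fin 3 → ℝ) : sy Ph u = 6 * Ph u := by
  have h : ∀ p : Equiv.Perm (Fin 3), Ph (fun i => u (p i)) = Ph u := by
    intro p
    unfold Ph
    rw [W_perm, Z_perm]
  unfold sy
  simp only [h]
  rw [Finset.sum_const, card_perm]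
  simp

theorem Ph_vc (v : V3) (hv : v.a + v.b + v.c = 96) :
    sy Ph (vc v) = 2 / (100 * 96 ^ 3) * (wt v : ℝ) := by
  have hS : SS (vc v) = 96 := by
    unfold SS vc
    have : ((v.a + v.b + v.c : ℕ) : ℝ) = 96 := by rw [hv]; norm_num
    push_cast at this
    simpa using this
  have hA : AA (vc v) = ((3 * (v.a * v.a + v.b * v.b + v.c * v.c) - 9216 : ℕ) : ℝ) := by
    have h1 := AA_nonneg (vc v)
    have h2 : AA (vc v) = 3 * ((v.a : ℝ) * v.a + v.b * v.b + v.c * v.c) - 9216 := by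
      unfold AA
      rw [hS]
      unfold QQ vc
      simp
      ring
    rw [h2] at h1
    have h3 : 9216 ≤ 3 * (v.a * v.a + v.b * v.b + v.c * v.c) := by
      have : ((9216 : ℕ) : ℝ) ≤ ((3 * (v.a * v.a + v.b * v.b + v.c * v.c) : ℕ) : ℝ) := by
        push_cast
        linarith
      exact_mod_cast this
    rw [Nat.cast_sub h3, h2]
    push_cast
    ring
  rw [sy_Ph]
  unfold Ph wt
  rw [W_eq3, Z_eq3, hS]
  push_cast
  rw [← hA]
  ring

theorem tot_170 : tot (Hf 57 101 67) (lik 3 (-1 / 2) (fun _ => 4) 170) ≤ 21 / 100 := by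
  have hc : IsChan (lik 3 (-1 / 2) (fun _ => 4) 170) := isChan_lik (by norm_num) adm_half 170 _
  have h1 : tot (Hf 57 101 67) (lik 3 (-1 / 2) (fun _ => 4) 170) ≤
      tot Ph (lik 3 (-1 / 2) (fun _ => 4) 170) :=
    Finset.sum_le_sum fun x _ => Hf_le_Ph _ (hc.nonneg x)
  refine h1.trans ((inv170.2.2 Ph sub_Ph).trans ?_)
  rw [ls_congr (φ' := fun v => 2 / (100 * 96 ^ 3) * (wt v : ℝ)) (mesh 16) m170 (fun v hv => by
    exact Ph_vc v (mesh16.total v hv)), ls_smul, ← lsN_cast]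
  have h2 : lsN wt (mesh 16) m170 ≤ 21 * 16777216 * (9216 * 9216) :=
    Nat.le_of_ble_eq_true final_check
  have h3 : (lsN wt (mesh 16) m170 : ℝ) ≤ 21 * 16777216 * (9216 * 9216) := by
    exact_mod_cast h2
  calc 1 / (12 * ((16 : ℕ) : ℝ) * ((16777216 : ℕ) : ℝ)) *
        (2 / (100 * 96 ^ 3) * (lsN wt (mesh 16) m170 : ℝ))
      ≤ 1 / (12 * ((16 : ℕ) : ℝ) * ((16777216 : ℕ) : ℝ)) *
        (2 / (100 * 96 ^ 3) * (21 * 16777216 * (9216 * 9216))) := by gcongr
    _ = 21 / 100 := by norm_num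

end Evo

/-- nonreconstruction at the boundary case `λ = -1/2`, `d = 4` -/
theorem nonreconstruction_ghost : Nonreconstruction (aRegular 3 (-1 / 2) 4) :=
  end_game 170 Evo.tot_170

end Vale.Agent.P154
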