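import Vale.Agent.P154.Sep
import Vale.Agent.P154.Near.EvoDef

/-!
# P154: a packed checker for substituted polynomial expressions
-/

namespace Vale.Agent.P154

open MvPolynomial Finset

namespace PExp

/-- signed evaluation -/
noncomputable def evNS (x : ℕ → SN) (e : PExp) : SN :=
  @PExp.rec (fun _ => SN) (fun z => SN.ofInt z) (fun i => x i)
    (fun _ _ a b => SN.add a b) (fun _ _ a b => SN.add a (SN.neg b))
    (fun _ _ a b => SN.mul a b) (fun _ n a => @Nat.rec (fun _ => SN) SN.one (fun _ ih => SN.mul ih a) n) e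

theorem toInt_evNS (x : ℕ → SN) (e : PExp) :
    (evNS x e).toInt = ev (fun i => (x i).toInt) e := by
  induction e with
  | k z => simp [evNS, ev, SN.toInt_ofInt]
  | v i => rfl
  | add a b iha ihb =>
    have : evNS x (.add a b) = SN.add (evNS x a) (evNS x b) := rfl
    rw [this, SN.toInt_add, iha, ihb]; rfl
  | sub a b iha ihb =>
    have : evNS x (.sub a b) = SN.add (evNS x a) (SN.neg (evNS x b)) := rfl
    rw [this, SN.toInt_add, SN.toInt_neg, iha, ihb]
    simp only [ev]; ring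
  | mul a b iha ihb =>
    have : evNS x (.mul a b) = SN.mul (evNS x a) (evNS x b) := rfl
    rw [this, SN.toInt_mul, iha, ihb]; rfl
  | pow a n ih =>
    have h : ∀ n : ℕ, (@Nat.rec (fun _ => SN) SN.one (fun _ ih => SN.mul ih (evNS x a)) n).toInt =
        (evNS x a).toInt ^ n := by
      intro n
      induction n with
      | zero => rw [pow_zero]; exact SN.toInt_one
      | succ n ihn => rw [pow_succ, ← ihn, ← SN.toInt_mul]
    have : evNS x (.pow a n) = @Nat.rec (fun _ => SN) SN.one (fun _ ih => SN.mul ih (evNS x a)) n := rfl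
    rw [this, h, ih]; rfl

/-- evaluation of absolute values -/
noncomputable def av (x : ℕ → ℕ) (e : PExp) : ℕ :=
  @PExp.rec (fun _ => ℕ) (fun z => (SN.ofInt z).m) (fun i => x i)
    (fun _ _ a b => Nat.add a b) (fun _ _ a b => Nat.add a b)
    (fun _ _ a b => Nat.mul a b) (fun _ n a => Nat.pow a n) e

theorem av_eq (x : ℕ → ℕ) (e : PExp) : (pr x e).1 + (pr x e).2 = av x e := by
  induction e with
  | k z =>
    simp only [pr]
    show z.toNat + (-z).toNat = (SN.ofInt z).m
    rfl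
  | v i => simp [pr, av]
  | add a b iha ihb =>
    have : av x (.add a b) = av x a + av x b := rfl
    rw [this, ← iha, ← ihb]
    simp only [pr]; ring
  | sub a b iha ihb =>
    have : av x (.sub a b) = av x a + av x b := rfl
    rw [this, ← iha, ← ihb]
    simp only [pr]; ring
  | mul a b iha ihb =>
    have : av x (.mul a b) = av x a * av x b := rfl
    rw [this, ← iha, ← ihb]
    simp only [pr, pmul]; ring
  | pow a n ih =>
    have : av x (.pow a n) = av x a ^ n := rfl
    rw [this, ← ih]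
    simp only [pr]
    induction n with
    | zero => simp [ppow]
    | succ n ihn =>
      have h2 : av x (.pow a n) = av x a ^ n := rfl
      rw [ppow, pow_succ, ← ihn h2]
      simp only [pmul]; ring

/-- substitution -/
def sb (f : ℕ → PExp) : PExp → PExp
  | .k z => .k z
  | .v i => f i
  | .add a b => .add (sb f a) (sb f b)
  | .sub a b => .sub (sb f a) (sb f b)
  | .mul a b => .mul (sb f a) (sb f b)
  | .pow a n => .pow (sb f a) n

theorem av_sb (f : ℕ → PExp) (x : ℕ → ℕ) (e : PExp) :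
    av x (sb f e) = av (fun i => av x (f i)) e := by
  induction e with
  | k z => rfl
  | v i => rfl
  | add a b iha ihb =>
    have h1 : av x (sb f (.add a b)) = av x (sb f a) + av x (sb f b) := rfl
    have h2 : av (fun i => av x (f i)) (.add a b) =
      av (fun i => av x (f i)) a + av (fun i => av x (f i)) b := rfl
    rw [h1, h2, iha, ihb]
  | sub a b iha ihb =>
    have h1 : av x (sb f (.sub a b)) = av x (sb f a) + av x (sb f b) := rfl
    have h2 : av (fun i => av x (f i)) (.sub a b) =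
      av (fun i => av x (f i)) a + av (fun i => av x (f i)) b := rfl
    rw [h1, h2, iha, ihb]
  | mul a b iha ihb =>
    have h1 : av x (sb f (.mul a b)) = av x (sb f a) * av x (sb f b) := rfl
    have h2 : av (fun i => av x (f i)) (.mul a b) =
      av (fun i => av x (f i)) a * av (fun i => av x (f i)) b := rfl
    rw [h1, h2, iha, ihb]
  | pow a n ih =>
    have h1 : av x (sb f (.pow a n)) = av x (sb f a) ^ n := rfl
    have h2 : av (fun i => av x (f i)) (.pow a n) = av (fun i => av x (f i)) a ^ n := rfl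
    rw [h1, h2, ih]

theorem ev_sb {R : Type*} [CommRing R] (f : ℕ → PExp) (x : ℕ → R) (e : PExp) :
    ev x (sb f e) = ev (fun i => ev x (f i)) e := by
  induction e with
  | k z => rfl
  | v i => rfl
  | add a b iha ihb => simp only [sb, ev, iha, ihb]
  | sub a b iha ihb => simp only [sb, ev, iha, ihb]
  | mul a b iha ihb => simp only [sb, ev, iha, ihb]
  | pow a n ih => simp only [sb, ev, ih]

/-- weighted degree bound -/
def wd (g : ℕ → ℕ) : PExp → ℕ
  | .k _ => 0
  | .v i => g i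
  | .add a b => max (wd g a) (wd g b)
  | .sub a b => max (wd g a) (wd g b)
  | .mul a b => wd g a + wd g b
  | .pow a n => n * wd g a

theorem dg_sb (g : ℕ → ℕ) (f : ℕ → PExp) (i : ℕ) (hf : ∀ j, dg i (f j) ≤ g j) (e : PExp) :
    dg i (sb f e) ≤ wd g e := by
  induction e with
  | k z => simp [sb, dg]
  | v j => exact hf j
  | add a b iha ihb => simp only [sb, dg, wd]; exact max_le_max iha ihb
  | sub a b iha ihb => simp only [sb, dg, wd]; exact max_le_max iha ihb
  | mul a b iha ihb => simp only [sb, dg, wd]; exact add_le_add iha ihb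
  | pow a n ih => simp only [sb, dg, wd]; exact Nat.mul_le_mul_left _ ih

theorem vb_sb (m : ℕ) (f : ℕ → PExp) (hf : ∀ j, vb m (f j) = true) (e : PExp) :
    vb m (sb f e) = true := by
  induction e with
  | k z => rfl
  | v j => exact hf j
  | add a b iha ihb => simp only [sb, vb, iha, ihb, Bool.and_self]
  | sub a b iha ihb => simp only [sb, vb, iha, ihb, Bool.and_self]
  | mul a b iha ihb => simp only [sb, vb, iha, ihb, Bool.and_self]
  | pow a n ih => simp only [sb, vb, ih]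

/-- the packed point -/
def xk (b D : ℕ) (i : ℕ) : SN := ⟨false, Nat.pow 2 (Nat.mul b (Nat.pow D i))⟩

/-- the packed value test -/
def okV (G : ℕ) (a : SN) : Bool :=
  cond a.s (Nat.beq a.m 0) (Nat.beq (Nat.land (Nat.add a.m G) G) G)

/-- the packed test for the substituted expression -/
noncomputable def kr (b D : ℕ) (f : ℕ → PExp) (e : PExp) : Bool :=
  cond (Nat.blt (av (fun j => av (fun _ => 1) (f j)) e) (Nat.pow 2 (Nat.sub b 1)))
    (okV (Nat.mul (Nat.pow 2 (Nat.sub b 1)) (Nat.div (Nat.sub (Nat.pow 2 (Nat.mul b (Nat.pow D 4))) 1)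
      (Nat.sub (Nat.pow 2 b) 1))) (evNS (fun j => evNS (xk b D) (f j)) e)) false

theorem coeff_le_of_kr (b D : ℕ) (f : ℕ → PExp) (e : PExp) (hb : 0 < b)
    (hv : vb 4 (sb f e) = true) (hdg : ∀ i, i < 4 → dg i (sb f e) < D) (h : kr b D f e = true) :
    ∀ d, (pr (R := MP) X (sb f e)).2.coeff d ≤ (pr (R := MP) X (sb f e)).1.coeff d := by
  simp only [kr, Bool.cond_false_right, Bool.and_eq_true, Nat.blt_eq] at h
  obtain ⟨hq, hland⟩ := h
  have hq' : av (fun j => av (fun _ => 1) (f j)) e < 2 ^ (b - 1) := hq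
  rw [← av_sb, ← av_eq] at hq'
  set e' := sb f e with he'
  set P := (pr (R := MP) X e').1 with hPdef
  set Q := (pr (R := MP) X e').2 with hQdef
  have hdgall : ∀ i, dg i e' < D := by
    intro i
    by_cases hi : i < 4
    · exact hdg i hi
    · rw [dg_eq_zero 4 i (by omega) e' hv]
      exact lt_of_le_of_lt (Nat.zero_le _) (hdg 0 (by norm_num))
  have hPd : ∀ d ∈ P.support, ∀ i, d i < D := fun d hd i =>
    lt_of_le_of_lt ((monomial_le_degreeOf i hd).trans (dg_spec i e').1) (hdgall i)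
  have hQd : ∀ d ∈ Q.support, ∀ i, d i < D := fun d hd i =>
    lt_of_le_of_lt ((monomial_le_degreeOf i hd).trans (dg_spec i e').2) (hdgall i)
  have hPz : ∀ d ∈ P.support, ∀ i, 4 ≤ i → d i = 0 := fun d hd i hi => by
    have := (monomial_le_degreeOf i hd).trans (dg_spec i e').1
    rw [dg_eq_zero 4 i hi e' hv] at this
    omega
  have hQz : ∀ d ∈ Q.support, ∀ i, 4 ≤ i → d i = 0 := fun d hd i hi => by
    have := (monomial_le_degreeOf i hd).trans (dg_spec i e').2
    rw [dg_eq_zero 4 i hi e' hv] at this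
    omega
  have e2 := pr_map (MvPolynomial.eval (fun _ : ℕ => (1 : ℕ))) (X (R := ℕ)) e'
  simp only [eval_X] at e2
  rw [e2] at hq'
  simp only [← hPdef, ← hQdef] at hq'
  have hq1 : MvPolynomial.eval (fun _ : ℕ => (1 : ℕ)) P < 2 ^ (b - 1) := by omega
  have hq2 : MvPolynomial.eval (fun _ : ℕ => (1 : ℕ)) Q < 2 ^ (b - 1) := by omega
  -- the packed value
  have hval : (evNS (fun j => evNS (xk b D) (f j)) e).toInt =
      ((MvPolynomial.eval (fun i : ℕ => (2 : ℕ) ^ (b * D ^ i)) P : ℕ) : ℤ) -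
      ((MvPolynomial.eval (fun i : ℕ => (2 : ℕ) ^ (b * D ^ i)) Q : ℕ) : ℤ) := by
    rw [toInt_evNS]
    have h1 : (fun i => (evNS (xk b D) (f i)).toInt) =
        fun i => ev (fun i => (((2 : ℕ) ^ (b * D ^ i) : ℕ) : ℤ)) (f i) := by
      funext i
      rw [toInt_evNS]
      rfl
    rw [h1, ← ev_sb, ← he', ev_eq]
    have h3 := pr_map ((Nat.castRingHom ℤ).comp
      (MvPolynomial.eval (fun i : ℕ => (2 : ℕ) ^ (b * D ^ i)))) (X (R := ℕ)) e'
    simp only [RingHom.coe_comp, Function.comp_apply, eval_X, Nat.coe_castRingHom] at h3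
    rw [h3]
  rw [eval_kron b D 4 P hPd hPz, eval_kron b D 4 Q hQd hQz] at hval
  have hG : Nat.mul (Nat.pow 2 (Nat.sub b 1)) (Nat.div
      (Nat.sub (Nat.pow 2 (Nat.mul b (Nat.pow D 4))) 1) (Nat.sub (Nat.pow 2 b) 1))
      = ∑ k ∈ range (D ^ 4), 2 ^ (b - 1) * (2 ^ b) ^ k := by
    have h0 : Nat.mul (Nat.pow 2 (Nat.sub b 1)) (Nat.div
      (Nat.sub (Nat.pow 2 (Nat.mul b (Nat.pow D 4))) 1) (Nat.sub (Nat.pow 2 b) 1)) =
      2 ^ (b - 1) * ((2 ^ (b * D ^ 4) - 1) / (2 ^ b - 1)) := rfl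
    rw [h0, ← mul_sum, pow_mul, Nat.geomSum_eq]
    calc 2 = 2 ^ 1 := by norm_num
      _ ≤ 2 ^ b := Nat.pow_le_pow_right (by norm_num) hb
  obtain ⟨h1, h2⟩ := rowOK_spec _ _ hland
  obtain ⟨V, hV⟩ := Int.eq_ofNat_of_zero_le h1
  rw [hV] at h2 hval
  rw [Int.toNat_natCast] at h2
  have key := land_spec b (D ^ 4) (gc D 4 P) (gc D 4 Q)
    (fun k => lt_of_le_of_lt (gc_le D 4 P k) hq1)
    (fun k => lt_of_le_of_lt (gc_le D 4 Q k) hq2) hb _ hG (by
      have hsum : ∑ k' ∈ range (D ^ 4), gc D 4 P k' * (2 ^ b) ^ k' +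
        Nat.mul (Nat.pow 2 (Nat.sub b 1)) (Nat.div
        (Nat.sub (Nat.pow 2 (Nat.mul b (Nat.pow D 4))) 1) (Nat.sub (Nat.pow 2 b) 1)) -
        ∑ k' ∈ range (D ^ 4), gc D 4 Q k' * (2 ^ b) ^ k' = V +
        Nat.mul (Nat.pow 2 (Nat.sub b 1)) (Nat.div
        (Nat.sub (Nat.pow 2 (Nat.mul b (Nat.pow D 4))) 1) (Nat.sub (Nat.pow 2 b) 1)) := by
        omega
      rw [hsum]
      exact h2)
  intro d
  by_cases hd : d ∈ Q.support
  · have h1 : Q.coeff d ≤ gc D 4 Q (kx D 4 d) := by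
      unfold gc
      exact single_le_sum (f := fun d => Q.coeff d) (fun _ _ => Nat.zero_le _)
        (mem_filter.mpr ⟨hd, rfl⟩)
    have h2 := key (kx D 4 d) (kx_lt D 4 d (hQd d hd))
    have h3 : gc D 4 P (kx D 4 d) ≤ P.coeff d := by
      unfold gc
      calc ∑ c ∈ P.support with kx D 4 c = kx D 4 d, P.coeff c
          ≤ ∑ c ∈ ({d} : Finset (ℕ →₀ ℕ)), P.coeff c := by
            apply sum_le_sum_of_subset
            intro c hc
            rw [mem_filter] at hc
            rw [mem_singleton]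
            exact kx_inj D 4 c d (hPd c hc.1) (hQd d hd) (hPz c hc.1) (hQz d hd) hc.2
        _ = P.coeff d := by simp
    exact h1.trans (h2.trans h3)
  · rw [MvPolynomial.notMem_support_iff.mp hd]
    exact Nat.zero_le _

/-- soundness of the packed test -/
theorem ev_nonneg_kr (b D : ℕ) (f : ℕ → PExp) (e : PExp) (hb : 0 < b)
    (hv : vb 4 (sb f e) = true) (hdg : ∀ i, i < 4 → dg i (sb f e) < D) (h : kr b D f e = true)
    (x : ℕ → ℝ) (hx : ∀ i, 0 ≤ x i) : 0 ≤ ev x (sb f e) :=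
  nonneg_of_coeff_le (sb f e) (coeff_le_of_kr b D f e hb hv hdg h) x hx

/-- degree with respect to a grading -/
def hd (g : ℕ → ℕ) : PExp → ℕ
  | .k _ => 0
  | .v i => g i
  | .add a _ => hd g a
  | .sub a _ => hd g a
  | .mul a b => hd g a + hd g b
  | .pow a n => n * hd g a

/-- homogeneity with respect to a grading -/
def hom (g : ℕ → ℕ) : PExp → Bool
  | .k _ => true
  | .v _ => true
  | .add a b => hom g a && hom g b && Nat.beq (hd g a) (hd g b)
  | .sub a b => hom g a && hom g b && Nat.beq (hd g a) (hd g b)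
  | .mul a b => hom g a && hom g b
  | .pow a _ => hom g a

theorem ev_homN (g : ℕ → ℕ) (x : ℕ → ℝ) (c : ℝ) (e : PExp) (h : hom g e = true) :
    ev (fun i => c ^ g i * x i) e = c ^ hd g e * ev x e := by
  induction e with
  | k z => simp [ev, hd]
  | v i => rfl
  | add a b iha ihb =>
    simp only [hom, Bool.and_eq_true] at h
    have h3 := Nat.eq_of_beq_eq_true h.2
    simp only [ev, hd]
    rw [iha h.1.1, ihb h.1.2, ← h3]
    ring
  | sub a b iha ihb =>
    simp only [hom, Bool.and_eq_true] at h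
    have h3 := Nat.eq_of_beq_eq_true h.2
    simp only [ev, hd]
    rw [iha h.1.1, ihb h.1.2, ← h3]
    ring
  | mul a b iha ihb =>
    simp only [hom, Bool.and_eq_true] at h
    simp only [ev, hd]
    rw [iha h.1, ihb h.2, pow_add]
    ring
  | pow a n ih =>
    simp only [hom] at h
    simp only [ev, hd]
    rw [ih h, mul_pow, ← pow_mul, mul_comm (hd g a) n]

theorem continuous_ev (x : ℝ → ℕ → ℝ) (hx : ∀ i, Continuous fun t => x t i) (e : PExp) :
    Continuous fun t => ev (x t) e := by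
  induction e with
  | k z => exact continuous_const
  | v i => exact hx i
  | add a b iha ihb => exact iha.add ihb
  | sub a b iha ihb => exact iha.sub ihb
  | mul a b iha ihb => exact iha.mul ihb
  | pow a n ih => exact ih.pow n

theorem nonneg_of_pos (F : ℝ → ℝ) (hF : Continuous F) (h : ∀ t, 0 < t → 0 ≤ F t) : 0 ≤ F 0 := by
  by_contra hneg
  push Not at hneg
  have h1 : ∀ᶠ t in nhds (0 : ℝ), F t < 0 := hF.continuousAt.eventually_lt_const hneg
  obtain ⟨e, he, h2⟩ := Metric.eventually_nhds_iff.1 h1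
  have h3 := h2 (y := e / 2) (by rw [Real.dist_eq, sub_zero, abs_of_pos (by linarith)]; linarith)
  have h4 := h (e / 2) (by linarith)
  linarith

end PExp

namespace PExp

/-- the twelve real values attached to a pair of vectors -/
noncomputable def envR (u v : Fin 3 → ℝ) (i : ℕ) : ℝ :=
  if i = 0 then u 0 else if i = 1 then u 1 else if i = 2 then u 2 else
  if i = 3 then v 0 else if i = 4 then v 1 else if i = 5 then v 2 else
  if i = 6 then 2 * u 0 - u 1 - u 2 else if i = 7 then u 1 - u 2 else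
  if i = 8 then u 0 + u 1 + u 2 else
  if i = 9 then 2 * v 0 - v 1 - v 2 else if i = 10 then v 1 - v 2 else
  if i = 11 then v 0 + v 1 + v 2 else 0

/-- a linear form -/
def lf (x y z : ℤ) (i j : ℕ) : PExp := .add (.k x) (.add (.mul (.k y) (.v i)) (.mul (.k z) (.v j)))

/-- `2a - b - c` -/
def fx (g : V3) : ℤ := Int.subNatNat (Nat.mul 2 g.a) (Nat.add g.b g.c)
/-- `b - c` -/
def fy (g : V3) : ℤ := Int.subNatNat g.b g.c
/-- `a + b + c` -/
def fs (g : V3) : ℤ := Int.ofNat (Nat.add (Nat.add g.a g.b) g.c)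

/-- the substitution attached to a pair of simplicial cones -/
def envF (g0 g1 g2 h0 h1 h2 : V3) (i : ℕ) : PExp :=
  cond (Nat.blt i 6)
    (cond (Nat.blt i 3)
      (cond (Nat.beq i 0) (lf (.ofNat g0.a) (.ofNat g1.a) (.ofNat g2.a) 2 3)
        (cond (Nat.beq i 1) (lf (.ofNat g0.b) (.ofNat g1.b) (.ofNat g2.b) 2 3)
          (lf (.ofNat g0.c) (.ofNat g1.c) (.ofNat g2.c) 2 3)))
      (cond (Nat.beq i 3) (lf (.ofNat h0.a) (.ofNat h1.a) (.ofNat h2.a) 0 1)
        (cond (Nat.beq i 4) (lf (.ofNat h0.b) (.ofNat h1.b) (.ofNat h2.b) 0 1)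
          (lf (.ofNat h0.c) (.ofNat h1.c) (.ofNat h2.c) 0 1))))
    (cond (Nat.blt i 9)
      (cond (Nat.beq i 6) (lf (fx g0) (fx g1) (fx g2) 2 3)
        (cond (Nat.beq i 7) (lf (fy g0) (fy g1) (fy g2) 2 3)
          (lf (fs g0) (fs g1) (fs g2) 2 3)))
      (cond (Nat.beq i 9) (lf (fx h0) (fx h1) (fx h2) 0 1)
        (cond (Nat.beq i 10) (lf (fy h0) (fy h1) (fy h2) 0 1)
          (cond (Nat.beq i 11) (lf (fs h0) (fs h1) (fs h2) 0 1) (.k 0)))))

/-- real vector -/
noncomputable def V3.vec (g : V3) : Fin 3 → ℝ := ![(g.a : ℝ), (g.b : ℝ), (g.c : ℝ)]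

/-- point of a cone -/
noncomputable def pt (g0 g1 g2 : V3) (s0 s1 s2 : ℝ) : Fin 3 → ℝ := fun i =>
  s0 * V3.vec g0 i + s1 * V3.vec g1 i + s2 * V3.vec g2 i

/-- evaluation point -/
noncomputable def pt4 (p q r s : ℝ) (i : ℕ) : ℝ :=
  if i = 2 then p else if i = 3 then q else if i = 0 then r else if i = 1 then s else 0

theorem ev_envF (g0 g1 g2 h0 h1 h2 : V3) (p q r s : ℝ) (i : ℕ) :
    ev (pt4 p q r s) (envF g0 g1 g2 h0 h1 h2 i) =
      envR (pt g0 g1 g2 1 p q) (pt h0 h1 h2 1 r s) i := by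
  have e0 : pt4 p q r s 2 = p := rfl
  have e1 : pt4 p q r s 3 = q := rfl
  have e3 : pt4 p q r s 0 = r := rfl
  have e4 : pt4 p q r s 1 = s := rfl
  match i with
  | 0 =>
    have : envF g0 g1 g2 h0 h1 h2 0 = lf (.ofNat g0.a) (.ofNat g1.a) (.ofNat g2.a) 2 3 := rfl
    rw [this]; simp [lf, ev, envR, pt, V3.vec, e0, e1]; ring
  | 1 =>
    have : envF g0 g1 g2 h0 h1 h2 1 = lf (.ofNat g0.b) (.ofNat g1.b) (.ofNat g2.b) 2 3 := rfl
    rw [this]; simp [lf, ev, envR, pt, V3.vec, e0, e1]; ring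
  | 2 =>
    have : envF g0 g1 g2 h0 h1 h2 2 = lf (.ofNat g0.c) (.ofNat g1.c) (.ofNat g2.c) 2 3 := rfl
    rw [this]; simp [lf, ev, envR, pt, V3.vec, e0, e1]; ring
  | 3 =>
    have : envF g0 g1 g2 h0 h1 h2 3 = lf (.ofNat h0.a) (.ofNat h1.a) (.ofNat h2.a) 0 1 := rfl
    rw [this]; simp [lf, ev, envR, pt, V3.vec, e3, e4]; ring
  | 4 =>
    have : envF g0 g1 g2 h0 h1 h2 4 = lf (.ofNat h0.b) (.ofNat h1.b) (.ofNat h2.b) 0 1 := rfl
    rw [this]; simp [lf, ev, envR, pt, V3.vec, e3, e4]; ring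
  | 5 =>
    have : envF g0 g1 g2 h0 h1 h2 5 = lf (.ofNat h0.c) (.ofNat h1.c) (.ofNat h2.c) 0 1 := rfl
    rw [this]; simp [lf, ev, envR, pt, V3.vec, e3, e4]; ring
  | 6 =>
    have : envF g0 g1 g2 h0 h1 h2 6 = lf (fx g0) (fx g1) (fx g2) 2 3 := rfl
    rw [this]; simp [lf, ev, envR, pt, V3.vec, e0, e1, fx, Int.subNatNat_eq_coe]; ring
  | 7 =>
    have : envF g0 g1 g2 h0 h1 h2 7 = lf (fy g0) (fy g1) (fy g2) 2 3 := rfl
    rw [this]; simp [lf, ev, envR, pt, V3.vec, e0, e1, fy, Int.subNatNat_eq_coe]; ring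
  | 8 =>
    have : envF g0 g1 g2 h0 h1 h2 8 = lf (fs g0) (fs g1) (fs g2) 2 3 := rfl
    rw [this]; simp [lf, ev, envR, pt, V3.vec, e0, e1, fs]; ring
  | 9 =>
    have : envF g0 g1 g2 h0 h1 h2 9 = lf (fx h0) (fx h1) (fx h2) 0 1 := rfl
    rw [this]; simp [lf, ev, envR, pt, V3.vec, e3, e4, fx, Int.subNatNat_eq_coe]; ring
  | 10 =>
    have : envF g0 g1 g2 h0 h1 h2 10 = lf (fy h0) (fy h1) (fy h2) 0 1 := rfl
    rw [this]; simp [lf, ev, envR, pt, V3.vec, e3, e4, fy, Int.subNatNat_eq_coe]; ring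
  | 11 =>
    have : envF g0 g1 g2 h0 h1 h2 11 = lf (fs h0) (fs h1) (fs h2) 0 1 := rfl
    rw [this]; simp [lf, ev, envR, pt, V3.vec, e3, e4, fs]; ring
  | i + 12 =>
    have h : envF g0 g1 g2 h0 h1 h2 (i + 12) = .k 0 := by
      unfold envF
      have t1 : Nat.blt (i + 12) 6 = false := by
        rw [← Bool.not_eq_true, Nat.blt_eq]; omega
      have t2 : Nat.blt (i + 12) 9 = false := by
        rw [← Bool.not_eq_true, Nat.blt_eq]; omega
      have t3 : ∀ j, j < 12 → Nat.beq (i + 12) j = false := by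
        intro j hj
        rw [← Bool.not_eq_true, Nat.beq_eq]; omega
      rw [t1, t2, t3 9 (by norm_num), t3 10 (by norm_num), t3 11 (by norm_num)]
      rfl
    rw [h]
    simp [ev, envR]

end PExp

end Vale.Agent.P154
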