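import Vale.Agent.P154.Near.Data
import Vale.Agent.P154.Chan

/-!
# P154: from the polynomial certificates to the pair inequalities
-/

namespace Vale.Agent.P154

open PExp

noncomputable def SS (u : Fin 3 → ℝ) : ℝ := u 0 + u 1 + u 2
noncomputable def QQ (u : Fin 3 → ℝ) : ℝ := u 0 ^ 2 + u 1 ^ 2 + u 2 ^ 2
noncomputable def CC (u : Fin 3 → ℝ) : ℝ := u 0 ^ 3 + u 1 ^ 3 + u 2 ^ 3
noncomputable def AA (u : Fin 3 → ℝ) : ℝ := 3 * QQ u - SS u ^ 2
noncomputable def BB (u : Fin 3 → ℝ) : ℝ := 9 * CC u - 9 * (SS u * QQ u) + 2 * SS u ^ 3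

/-- `S/3 (a + x a² + y a b + z a³)` with integer parameters in thousandths -/
noncomputable def Hf (x y z : ℤ) (u : Fin 3 → ℝ) : ℝ :=
  (1000 * (AA u * SS u ^ 4) + x * (AA u ^ 2 * SS u ^ 2) + (y * (AA u * BB u * SS u) +
    z * AA u ^ 3)) / (3000 * SS u ^ 5)

/-- `S/3 (x a² + y a b + z a³)` with integer parameters in thousandths -/
noncomputable def Cf (x y z : ℤ) (u : Fin 3 → ℝ) : ℝ :=
  (x * (AA u ^ 2 * SS u ^ 2) + (y * (AA u * BB u * SS u) + z * AA u ^ 3)) / (3000 * SS u ^ 5)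

theorem Z_eq3 (u : Fin 3 → ℝ) : Z u = SS u / 3 := by
  unfold Z SS; rw [Fin.sum_univ_three]; norm_num

theorem W_eq3 (u : Fin 3 → ℝ) : W u = AA u / (3 * SS u) := by
  have h : W u = QQ u / SS u - SS u / 3 := by
    unfold W QQ SS; rw [Fin.sum_univ_three, Fin.sum_univ_three]; norm_num
  rw [h]
  unfold AA
  by_cases h0 : SS u = 0
  · rw [h0]; simp
  · field_simp

theorem AA_nonneg (u : Fin 3 → ℝ) : 0 ≤ AA u := by
  unfold AA QQ SS
  nlinarith [sq_nonneg (u 0 - u 1), sq_nonneg (u 1 - u 2), sq_nonneg (u 0 - u 2)]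

/-- coordinatewise product with a permuted vector -/
def pmv (u v : Fin 3 → ℝ) (s : Fin 3 → Fin 3) : Fin 3 → ℝ := fun i => u i * v (s i)

theorem ev_Au (u v : Fin 3 → ℝ) : ev (envR u v) Au = AA u := by
  have e0 : envR u v 0 = u 0 := rfl
  have e1 : envR u v 1 = u 1 := rfl
  have e2 : envR u v 2 = u 2 := rfl
  have e8 : envR u v 8 = u 0 + u 1 + u 2 := rfl
  simp only [Au, eA, q2, ev, e0, e1, e2, e8, AA, QQ, SS]
  norm_num

theorem ev_Bu (u v : Fin 3 → ℝ) : ev (envR u v) Bu = BB u := by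
  have e0 : envR u v 0 = u 0 := rfl
  have e1 : envR u v 1 = u 1 := rfl
  have e2 : envR u v 2 = u 2 := rfl
  have e8 : envR u v 8 = u 0 + u 1 + u 2 := rfl
  simp only [Bu, eB, q2, q3, ev, e0, e1, e2, e8, BB, QQ, CC, SS]
  norm_num

theorem ev_Av (u v : Fin 3 → ℝ) : ev (envR u v) Av = AA v := by
  have e0 : envR u v 3 = v 0 := rfl
  have e1 : envR u v 4 = v 1 := rfl
  have e2 : envR u v 5 = v 2 := rfl
  have e8 : envR u v 11 = v 0 + v 1 + v 2 := rfl
  simp only [Av, eA, q2, ev, e0, e1, e2, e8, AA, QQ, SS]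
  norm_num

theorem ev_Bv (u v : Fin 3 → ℝ) : ev (envR u v) Bv = BB v := by
  have e0 : envR u v 3 = v 0 := rfl
  have e1 : envR u v 4 = v 1 := rfl
  have e2 : envR u v 5 = v 2 := rfl
  have e8 : envR u v 11 = v 0 + v 1 + v 2 := rfl
  simp only [Bv, eB, q2, q3, ev, e0, e1, e2, e8, BB, QQ, CC, SS]
  norm_num

theorem ev_sw (u v : Fin 3 → ℝ) : ev (envR u v) sw = SS (fun i => u i * v i) := rfl

theorem ev_Aw (u v : Fin 3 → ℝ) : ev (envR u v) Aw = AA (fun i => u i * v i) := by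
  have e0 : envR u v 0 = u 0 := rfl
  have e1 : envR u v 1 = u 1 := rfl
  have e2 : envR u v 2 = u 2 := rfl
  have e3 : envR u v 3 = v 0 := rfl
  have e4 : envR u v 4 = v 1 := rfl
  have e5 : envR u v 5 = v 2 := rfl
  simp only [Aw, eA, q2, sw, w0, w1, w2, ev, e0, e1, e2, e3, e4, e5, AA, QQ, SS]
  norm_num

theorem ev_Bw (u v : Fin 3 → ℝ) : ev (envR u v) Bw = BB (fun i => u i * v i) := by
  have e0 : envR u v 0 = u 0 := rfl
  have e1 : envR u v 1 = u 1 := rfl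
  have e2 : envR u v 2 = u 2 := rfl
  have e3 : envR u v 3 = v 0 := rfl
  have e4 : envR u v 4 = v 1 := rfl
  have e5 : envR u v 5 = v 2 := rfl
  simp only [Bw, eB, q2, q3, sw, w0, w1, w2, ev, e0, e1, e2, e3, e4, e5, BB, QQ, CC, SS]
  norm_num

theorem ev_s8 (u v : Fin 3 → ℝ) : ev (envR u v) (.v 8) = SS u := rfl
theorem ev_s11 (u v : Fin 3 → ℝ) : ev (envR u v) (.v 11) = SS v := rfl

theorem ev_eI (K : PExp) (x y z : ℤ) (u v : Fin 3 → ℝ) :
    ev (envR u v) (eI K x y z) = SS (fun i => u i * v i) ^ 5 * ev (envR u v) K -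
      3072 * (SS u ^ 5 * SS v ^ 5 *
        (1000 * (AA (fun i => u i * v i) * SS (fun i => u i * v i) ^ 4) +
        x * (AA (fun i => u i * v i) ^ 2 * SS (fun i => u i * v i) ^ 2) +
        (y * (AA (fun i => u i * v i) * BB (fun i => u i * v i) * SS (fun i => u i * v i)) +
        z * AA (fun i => u i * v i) ^ 3))) := by
  have h : ev (envR u v) (eI K x y z) = ev (envR u v) sw ^ 5 * ev (envR u v) K -
      ((3072 : ℤ) : ℝ) * (ev (envR u v) (.v 8) ^ 5 * ev (envR u v) (.v 11) ^ 5 *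
        (((1000 : ℤ) : ℝ) * (ev (envR u v) Aw * ev (envR u v) sw ^ 4) +
        x * (ev (envR u v) Aw ^ 2 * ev (envR u v) sw ^ 2) +
        (y * (ev (envR u v) Aw * ev (envR u v) Bw * ev (envR u v) sw) +
        z * ev (envR u v) Aw ^ 3))) := rfl
  rw [h, ev_sw, ev_Aw, ev_Bw, ev_s8, ev_s11]
  norm_num

theorem ev_eN (x y z : ℤ) (u v : Fin 3 → ℝ) :
    ev (envR u v) (eN x y z Au Bu (.v 8)) =
      x * (AA u * SS u ^ 2) + (y * (BB u * SS u) + z * AA u ^ 2) := by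
  have h : ev (envR u v) (eN x y z Au Bu (.v 8)) =
      x * (ev (envR u v) Au * ev (envR u v) (.v 8) ^ 2) +
      (y * (ev (envR u v) Bu * ev (envR u v) (.v 8)) + z * ev (envR u v) Au ^ 2) := rfl
  rw [h, ev_Au, ev_Bu, ev_s8]

theorem ev_sbpf (a b c : ℕ) (s : Fin 3 → Fin 3) (u v : Fin 3 → ℝ) (K : PExp)
    (ha : envR u v a = v (s 0)) (hb : envR u v b = v (s 1)) (hc : envR u v c = v (s 2))
    (hs : v (s 0) + v (s 1) + v (s 2) = v 0 + v 1 + v 2) :
    ev (envR u v) (sb (pf a b c) K) = ev (envR u (fun i => v (s i))) K := by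
  rw [ev_sb]
  congr 1
  funext i
  by_cases h : i < 12
  · interval_cases i
    · rfl
    · rfl
    · rfl
    · exact ha
    · exact hb
    · exact hc
    · rfl
    · rfl
    · rfl
    · show (2 : ℤ) * envR u v a - envR u v b - envR u v c = 2 * v (s 0) - v (s 1) - v (s 2)
      rw [ha, hb, hc]; norm_num
    · show envR u v b - envR u v c = v (s 1) - v (s 2)
      rw [hb, hc]
    · exact hs.symm
  · have h1 : pf a b c i = .v i := by
      unfold pf
      have t3 : ∀ j, j < 12 → Nat.beq i j = false := by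
        intro j hj
        rw [← Bool.not_eq_true, Nat.beq_eq]; omega
      rw [t3 3 (by norm_num), t3 4 (by norm_num), t3 5 (by norm_num), t3 9 (by norm_num),
        t3 10 (by norm_num)]
      rfl
    rw [h1]
    show envR u v i = _
    rw [envR_big _ _ _ (by omega), envR_big _ _ _ (by omega)]

/-- sum over the six permutations -/
noncomputable def sum6 (F : (Fin 3 → Fin 3) → ℝ) : ℝ :=
  F ![0, 1, 2] + F ![0, 2, 1] + (F ![1, 0, 2] + F ![1, 2, 0]) + (F ![2, 0, 1] + F ![2, 1, 0])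

theorem ev_sumK (K : PExp) (u v : Fin 3 → ℝ) :
    ev (envR u v) (sumK K) = sum6 fun s => ev (envR u (fun i => v (s i))) K := by
  have h : ev (envR u v) (sumK K) =
      ev (envR u v) (sb (pf 3 4 5) K) + ev (envR u v) (sb (pf 3 5 4) K) +
      (ev (envR u v) (sb (pf 4 3 5) K) + ev (envR u v) (sb (pf 4 5 3) K)) +
      (ev (envR u v) (sb (pf 5 3 4) K) + ev (envR u v) (sb (pf 5 4 3) K)) := rfl
  rw [h]
  unfold sum6
  rw [ev_sbpf 3 4 5 ![0, 1, 2] u v K rfl rfl rfl rfl,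
    ev_sbpf 3 5 4 ![0, 2, 1] u v K rfl rfl rfl (by
      show v 0 + v 2 + v 1 = _; ring),
    ev_sbpf 4 3 5 ![1, 0, 2] u v K rfl rfl rfl (by
      show v 1 + v 0 + v 2 = _; ring),
    ev_sbpf 4 5 3 ![1, 2, 0] u v K rfl rfl rfl (by
      show v 1 + v 2 + v 0 = _; ring),
    ev_sbpf 5 3 4 ![2, 0, 1] u v K rfl rfl rfl (by
      show v 2 + v 0 + v 1 = _; ring),
    ev_sbpf 5 4 3 ![2, 1, 0] u v K rfl rfl rfl (by
      show v 2 + v 1 + v 0 = _; ring)]

theorem ev_eJ (K : PExp) (x1 y1 z1 x2 y2 z2 tau mm : ℤ) (u v : Fin 3 → ℝ) :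
    ev (envR u v) (eJ K x1 y1 z1 x2 y2 z2 tau mm) =
      6144 * (10000 * ((1000 * (AA u * SS u ^ 4) + x1 * (AA u ^ 2 * SS u ^ 2) +
          (y1 * (AA u * BB u * SS u) + z1 * AA u ^ 3)) * SS v ^ 6 +
        SS u ^ 6 * (1000 * (AA v * SS v ^ 4) + x1 * (AA v ^ 2 * SS v ^ 2) +
          (y1 * (AA v * BB v * SS v) + z1 * AA v ^ 3))) +
        ((x2 * (AA u ^ 2 * SS u ^ 2) + (y2 * (AA u * BB u * SS u) + z2 * AA u ^ 3)) *
          (10000 * (AA v * SS v ^ 4) - tau * SS v ^ 6) +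
        (10000 * (AA u * SS u ^ 4) - tau * SS u ^ 6) *
          (x2 * (AA v ^ 2 * SS v ^ 2) + (y2 * (AA v * BB v * SS v) + z2 * AA v ^ 3))) -
        mm * (AA u * SS u ^ 4 * (AA v * SS v ^ 4))) -
      10000 * sum6 fun s => ev (envR u (fun i => v (s i))) K := by
  rw [← ev_sumK, ← ev_Au u v, ← ev_Bu u v, ← ev_Av u v, ← ev_Bv u v, ← ev_s8 u v, ← ev_s11 u v]
  simp only [eJ, eF, eC, ev]
  norm_num

end Vale.Agent.P154
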