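import Vale.Agent.P154.Near.Lev

/-!
# P154: the pair inequality on a cone
-/

namespace Vale.Agent.P154

open PExp

theorem pt_nonneg (g0 g1 g2 : V3) {s0 s1 s2 : ℝ} (h0 : 0 ≤ s0) (h1 : 0 ≤ s1) (h2 : 0 ≤ s2)
    (i : Fin 3) : 0 ≤ pt g0 g1 g2 s0 s1 s2 i := by
  have hv : ∀ g : V3, 0 ≤ V3.vec g i := by
    intro g
    fin_cases i <;> simp [V3.vec]
  unfold pt
  have := mul_nonneg h0 (hv g0)
  have := mul_nonneg h1 (hv g1)
  have := mul_nonneg h2 (hv g2)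
  linarith

theorem SS_nonneg {w : Fin 3 → ℝ} (hw : ∀ i, 0 ≤ w i) : 0 ≤ SS w := by
  unfold SS
  linarith [hw 0, hw 1, hw 2]

/-- numerator is nonnegative -/
theorem F_nonneg {x y z : ℤ}
    (hN : ∀ w : Fin 3 → ℝ, (∀ i, 0 ≤ w i) →
      0 ≤ x * (AA w * SS w ^ 2) + (y * (BB w * SS w) + z * AA w ^ 2))
    (w : Fin 3 → ℝ) (hw : ∀ i, 0 ≤ w i) :
    0 ≤ 1000 * (AA w * SS w ^ 4) + x * (AA w ^ 2 * SS w ^ 2) +
      (y * (AA w * BB w * SS w) + z * AA w ^ 3) := by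
  have h1 := hN w hw
  have h2 := AA_nonneg w
  have h3 := mul_nonneg h2 h1
  have h4 : 0 ≤ AA w * SS w ^ 4 := by positivity
  nlinarith

theorem K_nonneg (K : PExp) (x y z : ℤ) (g1 g2 h1 h2 : V3)
    (hI : Pos (eI K x y z) ⟨1, 1, 1⟩ g1 g2 ⟨1, 1, 1⟩ h1 h2)
    (hN : ∀ w : Fin 3 → ℝ, (∀ i, 0 ≤ w i) →
      0 ≤ x * (AA w * SS w ^ 2) + (y * (BB w * SS w) + z * AA w ^ 2))
    {s0 s1 s2 t0 t1 t2 : ℝ} (hs0 : 0 ≤ s0) (hs1 : 0 ≤ s1) (hs2 : 0 ≤ s2)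
    (ht0 : 0 ≤ t0) (ht1 : 0 ≤ t1) (ht2 : 0 ≤ t2) :
    0 ≤ ev (envR (pt ⟨1, 1, 1⟩ g1 g2 s0 s1 s2) (pt ⟨1, 1, 1⟩ h1 h2 t0 t1 t2)) K := by
  have hc := nonneg_of_pos (fun t => ev (envR (pt ⟨1, 1, 1⟩ g1 g2 (s0 + t) s1 s2)
    (pt ⟨1, 1, 1⟩ h1 h2 (t0 + t) t1 t2)) K) (continuous_ev _ (continuous_envR _ _
      (fun j => by unfold pt; fun_prop) (fun j => by unfold pt; fun_prop)) K)
    (fun t ht => by
      have h := hI (s0 + t) s1 s2 (t0 + t) t1 t2 (by linarith) hs1 hs2 (by linarith) ht1 ht2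
      rw [ev_eI] at h
      set u := pt ⟨1, 1, 1⟩ g1 g2 (s0 + t) s1 s2 with hu
      set v := pt ⟨1, 1, 1⟩ h1 h2 (t0 + t) t1 t2 with hv
      have hone : ∀ i : Fin 3, V3.vec ⟨1, 1, 1⟩ i = 1 := by
        intro i; fin_cases i <;> simp [V3.vec]
      have hvv : ∀ (g : V3) (i : Fin 3), 0 ≤ V3.vec g i := by
        intro g i
        fin_cases i <;> simp [V3.vec]
      have hup : ∀ i, 0 < u i := by
        intro i
        rw [hu]
        unfold pt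
        rw [hone]
        have := mul_nonneg hs1 (hvv g1 i)
        have := mul_nonneg hs2 (hvv g2 i)
        linarith
      have hvp : ∀ i, 0 < v i := by
        intro i
        rw [hv]
        unfold pt
        rw [hone]
        have := mul_nonneg ht1 (hvv h1 i)
        have := mul_nonneg ht2 (hvv h2 i)
        linarith
      have hw : ∀ i, 0 ≤ (fun i => u i * v i) i := fun i => (mul_pos (hup i) (hvp i)).le
      have hF := F_nonneg hN _ hw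
      have hS : 0 < SS (fun i => u i * v i) := by
        unfold SS
        have := mul_pos (hup 0) (hvp 0)
        have := mul_pos (hup 1) (hvp 1)
        have := mul_pos (hup 2) (hvp 2)
        linarith
      have hSu : 0 ≤ SS u := SS_nonneg fun i => (hup i).le
      have hSv : 0 ≤ SS v := SS_nonneg fun i => (hvp i).le
      have h5 : 0 ≤ SS (fun i => u i * v i) ^ 5 * ev (envR u v) K := by
        have : 0 ≤ 3072 * (SS u ^ 5 * SS v ^ 5 *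
          (1000 * (AA (fun i => u i * v i) * SS (fun i => u i * v i) ^ 4) +
          x * (AA (fun i => u i * v i) ^ 2 * SS (fun i => u i * v i) ^ 2) +
          (y * (AA (fun i => u i * v i) * BB (fun i => u i * v i) * SS (fun i => u i * v i)) +
          z * AA (fun i => u i * v i) ^ 3))) := by
          refine mul_nonneg (by norm_num) (mul_nonneg (by positivity) hF)
        linarith
      have h6 : 0 < SS (fun i => u i * v i) ^ 5 := by positivity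
      exact nonneg_of_mul_nonneg_right h5 h6)
  simpa using hc

theorem dom (K : PExp) (x y z : ℤ) (g1 g2 h1 h2 : V3)
    (hI : Pos (eI K x y z) ⟨1, 1, 1⟩ g1 g2 ⟨1, 1, 1⟩ h1 h2)
    (hN : ∀ w : Fin 3 → ℝ, (∀ i, 0 ≤ w i) →
      0 ≤ x * (AA w * SS w ^ 2) + (y * (BB w * SS w) + z * AA w ^ 2))
    {s0 s1 s2 t0 t1 t2 : ℝ} (hs0 : 0 ≤ s0) (hs1 : 0 ≤ s1) (hs2 : 0 ≤ s2)
    (ht0 : 0 ≤ t0) (ht1 : 0 ≤ t1) (ht2 : 0 ≤ t2) (u v : Fin 3 → ℝ)
    (hu : u = pt ⟨1, 1, 1⟩ g1 g2 s0 s1 s2) (hv : v = pt ⟨1, 1, 1⟩ h1 h2 t0 t1 t2)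
    (hSu : 0 < SS u) (hSv : 0 < SS v) :
    Hf x y z (fun i => u i * v i) ≤ ev (envR u v) K / (9216000 * (SS u ^ 5 * SS v ^ 5)) := by
  have hK := K_nonneg K x y z g1 g2 h1 h2 hI hN hs0 hs1 hs2 ht0 ht1 ht2
  have h := hI s0 s1 s2 t0 t1 t2 hs0 hs1 hs2 ht0 ht1 ht2
  rw [← hu, ← hv] at hK h
  rw [ev_eI] at h
  have hup : ∀ i, 0 ≤ u i := fun i => by rw [hu]; exact pt_nonneg _ _ _ hs0 hs1 hs2 i
  have hvp : ∀ i, 0 ≤ v i := fun i => by rw [hv]; exact pt_nonneg _ _ _ ht0 ht1 ht2 i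
  have hw : ∀ i, 0 ≤ (fun i => u i * v i) i := fun i => mul_nonneg (hup i) (hvp i)
  have hS := SS_nonneg hw
  unfold Hf
  rcases hS.eq_or_lt with h0 | h0
  · rw [← h0]
    have : (3000 * (0 : ℝ) ^ 5) = 0 := by norm_num
    rw [this, div_zero]
    positivity
  · rw [div_le_div_iff₀ (by positivity) (by positivity)]
    have h9 : 0 ≤ 3000 * (SS (fun i => u i * v i) ^ 5 * ev (envR u v) K -
      3072 * (SS u ^ 5 * SS v ^ 5 *
        (1000 * (AA (fun i => u i * v i) * SS (fun i => u i * v i) ^ 4) +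
        x * (AA (fun i => u i * v i) ^ 2 * SS (fun i => u i * v i) ^ 2) +
        (y * (AA (fun i => u i * v i) * BB (fun i => u i * v i) * SS (fun i => u i * v i)) +
        z * AA (fun i => u i * v i) ^ 3)))) := mul_nonneg (by norm_num) h
    linarith [h9]

theorem sum6_le {F G : (Fin 3 → Fin 3) → ℝ} (h0 : F ![0, 1, 2] ≤ G ![0, 1, 2])
    (h1 : F ![0, 2, 1] ≤ G ![0, 2, 1]) (h2 : F ![1, 0, 2] ≤ G ![1, 0, 2])
    (h3 : F ![1, 2, 0] ≤ G ![1, 2, 0]) (h4 : F ![2, 0, 1] ≤ G ![2, 0, 1])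
    (h5 : F ![2, 1, 0] ≤ G ![2, 1, 0]) : sum6 F ≤ sum6 G := by
  unfold sum6
  linarith

theorem vec_perm (g h : V3) (s : Fin 3 → Fin 3) (e : ∀ i, V3.vec h i = V3.vec g (s i)) :
    ∀ i, V3.vec h i = V3.vec g (s i) := e

/-- the pair inequality on a cone -/
theorem level (K : PExp) (x y z x1 y1 z1 x2 y2 z2 tau mm : ℤ) (g1 g2 : V3)
    (H : (Fin 3 → Fin 3) → V3 × V3)
    (hH1 : ∀ s i, V3.vec (H s).1 i = V3.vec g1 (s i))
    (hH2 : ∀ s i, V3.vec (H s).2 i = V3.vec g2 (s i))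
    (hI : ∀ s, s = ![0, 1, 2] ∨ s = ![0, 2, 1] ∨ s = ![1, 0, 2] ∨ s = ![1, 2, 0] ∨
      s = ![2, 0, 1] ∨ s = ![2, 1, 0] →
      Pos (eI K x y z) ⟨1, 1, 1⟩ g1 g2 ⟨1, 1, 1⟩ (H s).1 (H s).2)
    (hJ : Pos (eJ K x1 y1 z1 x2 y2 z2 tau mm) ⟨1, 1, 1⟩ g1 g2 ⟨1, 1, 1⟩ g1 g2)
    (hN : ∀ w : Fin 3 → ℝ, (∀ i, 0 ≤ w i) →
      0 ≤ x * (AA w * SS w ^ 2) + (y * (BB w * SS w) + z * AA w ^ 2))
    {s0 s1 s2 t0 t1 t2 : ℝ} (hs0 : 0 ≤ s0) (hs1 : 0 ≤ s1) (hs2 : 0 ≤ s2)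
    (ht0 : 0 ≤ t0) (ht1 : 0 ≤ t1) (ht2 : 0 ≤ t2) (u v : Fin 3 → ℝ)
    (hu : u = pt ⟨1, 1, 1⟩ g1 g2 s0 s1 s2) (hv : v = pt ⟨1, 1, 1⟩ g1 g2 t0 t1 t2) :
    sum6 (fun s => Hf x y z (fun i => u i * v (s i))) ≤
      6 * (Hf x1 y1 z1 u * Z v + Hf x1 y1 z1 v * Z u +
        Cf x2 y2 z2 u * (W v - tau / 10000 * Z v) + Cf x2 y2 z2 v * (W u - tau / 10000 * Z u) -
        mm / 10000000 * (W u * W v)) := by
  have hup : ∀ i, 0 ≤ u i := fun i => by rw [hu]; exact pt_nonneg _ _ _ hs0 hs1 hs2 i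
  have hvp : ∀ i, 0 ≤ v i := fun i => by rw [hv]; exact pt_nonneg _ _ _ ht0 ht1 ht2 i
  have hHf0 : ∀ (a b c : ℤ) (w : Fin 3 → ℝ), SS w = 0 → Hf a b c w = 0 := by
    intro a b c w hw
    unfold Hf
    rw [hw]; simp
  have hCf0 : ∀ (a b c : ℤ) (w : Fin 3 → ℝ), SS w = 0 → Cf a b c w = 0 := by
    intro a b c w hw
    unfold Cf
    rw [hw]; simp
  have hzero : ∀ w : Fin 3 → ℝ, (∀ i, 0 ≤ w i) → SS w = 0 → ∀ i, w i = 0 := by
    intro w hw h0 i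
    unfold SS at h0
    have a0 := hw 0
    have a1 := hw 1
    have a2 := hw 2
    fin_cases i
    · show w 0 = 0; linarith
    · show w 1 = 0; linarith
    · show w 2 = 0; linarith
  rcases (SS_nonneg hup).eq_or_lt with hSu | hSu
  · have hu0 := hzero u hup hSu.symm
    have e1 : sum6 (fun s => Hf x y z (fun i => u i * v (s i))) = 0 := by
      have : ∀ s : Fin 3 → Fin 3, Hf x y z (fun i => u i * v (s i)) = 0 := by
        intro s
        apply hHf0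
        unfold SS
        simp [hu0]
      unfold sum6
      simp [this]
    have hW : W u = 0 := by rw [W_eq3, ← hSu]; simp
    have hZ : Z u = 0 := by rw [Z_eq3, ← hSu]; simp
    rw [e1, hHf0 _ _ _ u hSu.symm, hCf0 _ _ _ u hSu.symm, hW, hZ]
    simp
  rcases (SS_nonneg hvp).eq_or_lt with hSv | hSv
  · have hv0 := hzero v hvp hSv.symm
    have e1 : sum6 (fun s => Hf x y z (fun i => u i * v (s i))) = 0 := by
      have : ∀ s : Fin 3 → Fin 3, Hf x y z (fun i => u i * v (s i)) = 0 := by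
        intro s
        apply hHf0
        unfold SS
        simp [hv0]
      unfold sum6
      simp [this]
    have hW : W v = 0 := by rw [W_eq3, ← hSv]; simp
    have hZ : Z v = 0 := by rw [Z_eq3, ← hSv]; simp
    rw [e1, hHf0 _ _ _ v hSv.symm, hCf0 _ _ _ v hSv.symm, hW, hZ]
    simp
  -- main case
  have hsum : ∀ s : Fin 3 → Fin 3, s = ![0, 1, 2] ∨ s = ![0, 2, 1] ∨ s = ![1, 0, 2] ∨
      s = ![1, 2, 0] ∨ s = ![2, 0, 1] ∨ s = ![2, 1, 0] → SS (fun i => v (s i)) = SS v := by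
    intro s hs
    unfold SS
    rcases hs with h | h | h | h | h | h <;> subst h <;> simp <;> ring
  have hvs : ∀ s : Fin 3 → Fin 3,
      (fun i => v (s i)) = pt ⟨1, 1, 1⟩ (H s).1 (H s).2 t0 t1 t2 := by
    intro s
    funext i
    rw [hv]
    unfold pt
    rw [hH1, hH2]
    have hone : ∀ i : Fin 3, V3.vec ⟨1, 1, 1⟩ i = 1 := by
      intro i; fin_cases i <;> simp [V3.vec]
    rw [hone, hone]
  have hd : ∀ s : Fin 3 → Fin 3, s = ![0, 1, 2] ∨ s = ![0, 2, 1] ∨ s = ![1, 0, 2] ∨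
      s = ![1, 2, 0] ∨ s = ![2, 0, 1] ∨ s = ![2, 1, 0] →
      Hf x y z (fun i => u i * v (s i)) ≤
        ev (envR u (fun i => v (s i))) K / (9216000 * (SS u ^ 5 * SS v ^ 5)) := by
    intro s hs
    have := dom K x y z g1 g2 (H s).1 (H s).2 (hI s hs) hN hs0 hs1 hs2 ht0 ht1 ht2 u
      (fun i => v (s i)) hu (hvs s) hSu (by rw [hsum s hs]; exact hSv)
    rw [hsum s hs] at this
    exact this
  have h1 : sum6 (fun s => Hf x y z (fun i => u i * v (s i))) ≤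
      sum6 (fun s => ev (envR u (fun i => v (s i))) K / (9216000 * (SS u ^ 5 * SS v ^ 5))) :=
    sum6_le (hd _ (by simp)) (hd _ (by simp)) (hd _ (by simp)) (hd _ (by simp))
      (hd _ (by simp)) (hd _ (by simp))
  have h2 : sum6 (fun s => ev (envR u (fun i => v (s i))) K / (9216000 * (SS u ^ 5 * SS v ^ 5))) =
      sum6 (fun s => ev (envR u (fun i => v (s i))) K) / (9216000 * (SS u ^ 5 * SS v ^ 5)) := by
    unfold sum6
    ring
  have h3 := hJ s0 s1 s2 t0 t1 t2 hs0 hs1 hs2 ht0 ht1 ht2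
  rw [← hu, ← hv, ev_eJ] at h3
  refine h1.trans ?_
  rw [h2, div_le_iff₀ (by positivity)]
  have e : (6 * (Hf x1 y1 z1 u * Z v + Hf x1 y1 z1 v * Z u +
        Cf x2 y2 z2 u * (W v - tau / 10000 * Z v) + Cf x2 y2 z2 v * (W u - tau / 10000 * Z u) -
        mm / 10000000 * (W u * W v))) * (9216000 * (SS u ^ 5 * SS v ^ 5)) =
      6144 / 10000 * (10000 * ((1000 * (AA u * SS u ^ 4) + x1 * (AA u ^ 2 * SS u ^ 2) +
          (y1 * (AA u * BB u * SS u) + z1 * AA u ^ 3)) * SS v ^ 6 +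
        SS u ^ 6 * (1000 * (AA v * SS v ^ 4) + x1 * (AA v ^ 2 * SS v ^ 2) +
          (y1 * (AA v * BB v * SS v) + z1 * AA v ^ 3))) +
        ((x2 * (AA u ^ 2 * SS u ^ 2) + (y2 * (AA u * BB u * SS u) + z2 * AA u ^ 3)) *
          (10000 * (AA v * SS v ^ 4) - tau * SS v ^ 6) +
        (10000 * (AA u * SS u ^ 4) - tau * SS u ^ 6) *
          (x2 * (AA v ^ 2 * SS v ^ 2) + (y2 * (AA v * BB v * SS v) + z2 * AA v ^ 3))) -
        mm * (AA u * SS u ^ 4 * (AA v * SS v ^ 4))) := by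
    rw [Z_eq3, Z_eq3, W_eq3, W_eq3]
    unfold Hf Cf
    field_simp
    ring
  rw [e]
  linarith [h3]

end Vale.Agent.P154
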