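import Vale.Agent.P154.Near.Evo4

/-!
# P154: the mesh with sixteen subdivisions
-/

namespace Vale.Agent.P154

open Finset

namespace Evo

set_option maxRecDepth 100000

theorem mesh16_vert : ∀ i < 17, ∀ j < 17, i + j ≤ 16 → pos 16 i j < 153 ∧
    ((mesh 16).getD (pos 16 i j) ⟨0, 0, 0⟩).a = 96 - (4 * i + 3 * j) ∧
    ((mesh 16).getD (pos 16 i j) ⟨0, 0, 0⟩).b = 2 * i + 3 * j ∧
    ((mesh 16).getD (pos 16 i j) ⟨0, 0, 0⟩).c = 2 * i := by decide +kernel

theorem mesh16_len : (mesh 16).length = 153 := by decide +kernel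

theorem mesh16_total : (mesh 16).all (fun v => Nat.beq (v.a + v.b + v.c) 96) = true := by
  decide +kernel

theorem mesh16 : Mesh 16 153 (mesh 16) where
  len := mesh16_len
  posM := by norm_num
  vert i j h := by
    obtain ⟨h1, h2, h3, h4⟩ := mesh16_vert i (by omega) j (by omega) h
    refine ⟨h1, ?_⟩
    unfold vc Vr
    rw [h2, h3, h4]
    have e : ((96 - (4 * i + 3 * j) : ℕ) : ℝ) = 6 * ((16 : ℕ) : ℝ) - 4 * i - 3 * j := by
      rw [Nat.cast_sub (by omega)]
      push_cast
      ring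
    rw [e]
    push_cast
    rfl
  total v hv := by
    have h := List.all_eq_true.1 mesh16_total v hv
    have h2 := Nat.eq_of_beq_eq_true h
    omega

/-- generation matrix -/
noncomputable def gen16 (m : List ℕ) : List ℕ :=
  gen 16 16777216 66 153 (mkTab (ent 16 66) (edgeV 16 (mesh 16))) (mkTab (ent 16 66) (mesh 16)) m

/-- invariant -/
def Inv (k : ℕ) (m : List ℕ) : Prop :=
  m.length = 153 ∧ m.sum = 16777216 ∧
    Maj (lik 3 (-1 / 2) (fun _ => 4) k) (1 / (12 * (16 : ℕ) * (16777216 : ℕ))) (mesh 16) m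

theorem tot_prod4' (H : (Fin 3 → ℝ) → ℝ) {X : Type} [Fintype X] (g : X → Fin 3 → ℝ) :
    tot H (prodN (fun _ : Fin 4 => g)) = tot H (prod2 (prod2 g g) (prod2 g g)) := by
  let e : ((X × X) × (X × X)) ≃ (Fin 4 → X) :=
    { toFun := fun p => ![p.1.1, p.1.2, p.2.1, p.2.2]
      invFun := fun t => ((t 0, t 1), (t 2, t 3))
      left_inv := fun p => rfl
      right_inv := fun t => by
        funext i
        fin_cases i <;> rfl }
  rw [← tot_comp_equiv H (prodN (fun _ : Fin 4 => g)) e]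
  unfold tot
  refine Finset.sum_congr rfl fun p _ => ?_
  congr 1
  funext i
  simp only [prodN, prod2]
  rw [Fin.prod_univ_four]
  show g p.1.1 i * g p.1.2 i * g p.2.1 i * g p.2.2 i = _
  ring

theorem lik_four' (H : (Fin 3 → ℝ) → ℝ) (lam : ℝ) (n : ℕ) :
    tot H (lik 3 lam (fun _ => 4) (n + 1)) =
      tot H (prod2 (prod2 (fun x => edge lam (lik 3 lam (fun _ => 4) n x))
        (fun x => edge lam (lik 3 lam (fun _ => 4) n x)))
      (prod2 (fun x => edge lam (lik 3 lam (fun _ => 4) n x))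
        (fun x => edge lam (lik 3 lam (fun _ => 4) n x)))) := by
  rw [← tot_prod4', ← tot_comp_equiv H _ (glueG 3 (fun _ => 4) n)]
  exact congrArg (tot H) (lik_succ' (q := 3) lam (fun _ => 4) n)

theorem Inv.step {k : ℕ} {m : List ℕ} (h : Inv k m) : Inv (k + 1) (gen16 m) := by
  obtain ⟨h1, h2, h3⟩ := h
  have h4 := gen_step (n := 16) (B := 66) (N := 16777216) mesh16 (by norm_num) (by norm_num)
    (by norm_num) (isChan_lik (by norm_num) adm_half' k (fun _ => 4)) h1 h2 h3
  refine ⟨h4.1, h4.2.1, fun Φ hΦ => ?_⟩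
  rw [lik_four']
  exact h4.2.2 Φ hΦ

theorem Inv.iter {k : ℕ} : ∀ (j : ℕ) {m : List ℕ}, Inv k m → Inv (k + j) (iter gen16 j m)
  | 0, _, h => h
  | j + 1, m, h => by
    have h1 : Inv (k + 1 + j) (Evo.iter gen16 j (gen16 m)) := Inv.iter j h.step
    have e : k + (j + 1) = k + 1 + j := by omega
    rw [e]
    exact h1

theorem Inv.run {k j : ℕ} {m m' : List ℕ} (h : Inv k m)
    (hg : beqL (gens 16 16777216 66 153 j m) m' = true) : Inv (k + j) m' := by
  have h1 := h.iter j
  have h2 : Evo.iter gen16 j m = gens 16 16777216 66 153 j m := rfl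
  rw [h2, beqL_eq _ _ hg] at h1
  exact h1

theorem inv_zero (m : List ℕ) (hm : m = 16777216 :: List.replicate 152 0) : Inv 0 m := by
  subst hm
  refine ⟨by simp, by simp, fun Φ hΦ => ?_⟩
  rw [tot_lik_zero]
  have hv := (mesh16.vert 0 0 (by norm_num)).2
  have hp : pos 16 0 0 = 0 := by decide
  rw [hp] at hv
  cases hL : mesh 16 with
  | nil =>
    have := mesh16.len
    rw [hL] at this
    simp at this
  | cons v L =>
    rw [hL] at hv
    have hv' : vc v = Vr 16 0 0 := hv
    show _ ≤ 1 / (12 * ((16 : ℕ) : ℝ) * ((16777216 : ℕ) : ℝ)) *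
      (((16777216 : ℕ) : ℝ) * sy Φ (vc v) + ls (fun v => sy Φ (vc v)) L (List.replicate 152 0))
    rw [ls_zeros, hv']
    have h4 : Vr 16 0 0 = fun i => (96 : ℝ) * (![1, 0, 0] : Fin 3 → ℝ) i := by
      unfold Vr
      funext i
      fin_cases i <;> norm_num
    rw [h4, hΦ.sy.smul _ (by norm_num) _ (by intro i; fin_cases i <;> simp), sy_corner]
    refine le_of_eq ?_
    push_cast
    ring

end Evo

end Vale.Agent.P154
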