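import Vale.Agent.P154.Near.Lev2
import Vale.Agent.P154.Near.Ca
import Vale.Agent.P154.Near.Cb
import Vale.Agent.P154.Near.Cc
import Vale.Agent.P154.Near.Cd
import Vale.Agent.P154.Near.Ce

/-!
# P154: symmetrisation of the pair inequalities
-/

namespace Vale.Agent.P154

open PExp

theorem perm_sum (F : (Fin 3 → Fin 3) → ℝ) :
    ∑ p : Equiv.Perm (Fin 3), F (fun i => p i) = sum6 F := by
  have h : (Finset.univ : Finset (Equiv.Perm (Fin 3))) =
      {Equiv.refl _, Equiv.swap 1 2, Equiv.swap 0 1, (Equiv.swap 0 1) * (Equiv.swap 1 2),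
        (Equiv.swap 1 2) * (Equiv.swap 0 1), Equiv.swap 0 2} := by decide
  rw [h, Finset.sum_insert (by decide), Finset.sum_insert (by decide),
    Finset.sum_insert (by decide), Finset.sum_insert (by decide), Finset.sum_insert (by decide),
    Finset.sum_singleton]
  have e0 : (fun i : Fin 3 => (Equiv.refl (Fin 3)) i) = ![0, 1, 2] := by decide
  have e1 : (fun i : Fin 3 => (Equiv.swap (1 : Fin 3) 2) i) = ![0, 2, 1] := by decide
  have e2 : (fun i : Fin 3 => (Equiv.swap (0 : Fin 3) 1) i) = ![1, 0, 2] := by decide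
  have e3 : (fun i : Fin 3 => (Equiv.swap (0 : Fin 3) 1 * Equiv.swap 1 2 : Equiv.Perm (Fin 3)) i) =
      ![1, 2, 0] := by decide
  have e4 : (fun i : Fin 3 => (Equiv.swap (1 : Fin 3) 2 * Equiv.swap 0 1 : Equiv.Perm (Fin 3)) i) =
      ![2, 0, 1] := by decide
  have e5 : (fun i : Fin 3 => (Equiv.swap (0 : Fin 3) 2) i) = ![2, 1, 0] := by decide
  rw [e0, e1, e2, e3, e4, e5]
  unfold sum6
  ring

theorem SS_perm (u : Fin 3 → ℝ) (p : Equiv.Perm (Fin 3)) : SS (fun i => u (p i)) = SS u := by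
  have h : ∀ w : Fin 3 → ℝ, SS w = ∑ i, w i := fun w => by
    unfold SS; rw [Fin.sum_univ_three]
  rw [h, h]
  exact Equiv.sum_comp p u

theorem QQ_perm (u : Fin 3 → ℝ) (p : Equiv.Perm (Fin 3)) : QQ (fun i => u (p i)) = QQ u := by
  have h : ∀ w : Fin 3 → ℝ, QQ w = ∑ i, w i ^ 2 := fun w => by
    unfold QQ; rw [Fin.sum_univ_three]
  rw [h, h]
  exact Equiv.sum_comp p fun i => u i ^ 2

theorem CC_perm (u : Fin 3 → ℝ) (p : Equiv.Perm (Fin 3)) : CC (fun i => u (p i)) = CC u := by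
  have h : ∀ w : Fin 3 → ℝ, CC w = ∑ i, w i ^ 3 := fun w => by
    unfold CC; rw [Fin.sum_univ_three]
  rw [h, h]
  exact Equiv.sum_comp p fun i => u i ^ 3

theorem AA_perm (u : Fin 3 → ℝ) (p : Equiv.Perm (Fin 3)) : AA (fun i => u (p i)) = AA u := by
  unfold AA; rw [QQ_perm, SS_perm]

theorem BB_perm (u : Fin 3 → ℝ) (p : Equiv.Perm (Fin 3)) : BB (fun i => u (p i)) = BB u := by
  unfold BB; rw [QQ_perm, SS_perm, CC_perm]

theorem Hf_perm (x y z : ℤ) (u : Fin 3 → ℝ) (p : Equiv.Perm (Fin 3)) :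
    Hf x y z (fun i => u (p i)) = Hf x y z u := by
  unfold Hf; rw [AA_perm, BB_perm, SS_perm]

theorem Cf_perm (x y z : ℤ) (u : Fin 3 → ℝ) (p : Equiv.Perm (Fin 3)) :
    Cf x y z (fun i => u (p i)) = Cf x y z u := by
  unfold Cf; rw [AA_perm, BB_perm, SS_perm]

theorem W_perm (u : Fin 3 → ℝ) (p : Equiv.Perm (Fin 3)) : W (fun i => u (p i)) = W u := by
  rw [W_eq3, W_eq3, AA_perm, SS_perm]

theorem Z_perm (u : Fin 3 → ℝ) (p : Equiv.Perm (Fin 3)) : Z (fun i => u (p i)) = Z u := by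
  rw [Z_eq3, Z_eq3, SS_perm]

theorem exists_sorted (u : Fin 3 → ℝ) : ∃ p : Equiv.Perm (Fin 3),
    u (p 1) ≤ u (p 0) ∧ u (p 2) ≤ u (p 1) := by
  refine ⟨Tuple.sort (fun i => - u i), ?_, ?_⟩
  · have := Tuple.monotone_sort (fun i => - u i) (show (0 : Fin 3) ≤ 1 by decide)
    simp only [Function.comp] at this
    linarith
  · have := Tuple.monotone_sort (fun i => - u i) (show (1 : Fin 3) ≤ 2 by decide)
    simp only [Function.comp] at this
    linarith

theorem pt_full (u : Fin 3 → ℝ) :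
    u = pt ⟨1, 1, 1⟩ ⟨1, 1, 0⟩ ⟨1, 0, 0⟩ (u 2) (u 1 - u 2) (u 0 - u 1) := by
  funext i
  unfold pt
  fin_cases i <;> simp [V3.vec]

theorem pt_edge (u : Fin 3 → ℝ) :
    u = pt ⟨1, 1, 1⟩ ⟨1, 1, 0⟩ ⟨2, 1, 1⟩ (u 2 + u 1 - u 0) (u 1 - u 2) (u 0 - u 1) := by
  funext i
  unfold pt
  fin_cases i <;> simp [V3.vec] <;> ring

/-- unary inequalities -/
theorem N_all (x y z : ℤ) (h1 h2 h3 : V3)
    (h : Pos (eN x y z Au Bu (.v 8)) ⟨1, 1, 1⟩ ⟨1, 1, 0⟩ ⟨1, 0, 0⟩ h1 h2 h3)
    (w : Fin 3 → ℝ) (hw : ∀ i, 0 ≤ w i) :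
    0 ≤ x * (AA w * SS w ^ 2) + (y * (BB w * SS w) + z * AA w ^ 2) := by
  obtain ⟨p, hp1, hp2⟩ := exists_sorted w
  have h4 := h (w (p 2)) (w (p 1) - w (p 2)) (w (p 0) - w (p 1)) 0 0 0 (hw _) (by linarith)
    (by linarith) le_rfl le_rfl le_rfl
  rw [ev_eN] at h4
  have h5 := pt_full (fun i => w (p i))
  rw [← h5, AA_perm, BB_perm, SS_perm] at h4
  exact h4

theorem N_edge (x y z : ℤ) (h1 h2 h3 : V3)
    (h : Pos (eN x y z Au Bu (.v 8)) ⟨1, 1, 1⟩ ⟨1, 1, 0⟩ ⟨2, 1, 1⟩ h1 h2 h3)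
    (w : Fin 3 → ℝ) (hw : ∀ i, 0 ≤ w i) (hw2 : ∀ i, 2 * w i ≤ SS w) :
    0 ≤ x * (AA w * SS w ^ 2) + (y * (BB w * SS w) + z * AA w ^ 2) := by
  obtain ⟨p, hp1, hp2⟩ := exists_sorted w
  have hs : SS (fun i => w (p i)) = SS w := SS_perm w p
  have h3 := hw2 (p 0)
  rw [← hs] at h3
  unfold SS at h3
  have h4 := h (w (p 2) + w (p 1) - w (p 0)) (w (p 1) - w (p 2)) (w (p 0) - w (p 1)) 0 0 0
    (by linarith) (by linarith) (by linarith) le_rfl le_rfl le_rfl
  rw [ev_eN] at h4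
  have h5 := pt_edge (fun i => w (p i))
  rw [← h5, AA_perm, BB_perm, SS_perm] at h4
  exact h4

/-- symmetrisation of a pair inequality -/
theorem symm_pair (H : (Fin 3 → ℝ) → ℝ) (hH : ∀ w (p : Equiv.Perm (Fin 3)),
    H (fun i => w (p i)) = H w) (u v : Fin 3 → ℝ) (p q : Equiv.Perm (Fin 3)) :
    ∑ r : Equiv.Perm (Fin 3), H (fun i => u i * v (r i)) =
      ∑ r : Equiv.Perm (Fin 3), H (fun i => u (p i) * v (q (r i))) := by
  rw [← Equiv.sum_comp ((Equiv.mulLeft q).trans (Equiv.mulRight p⁻¹))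
    (fun r => H (fun i => u i * v (r i)))]
  refine Finset.sum_congr rfl fun r _ => ?_
  rw [← hH _ p]
  congr 1
  funext i
  simp [Equiv.Perm.mul_apply]

/-- entries -/
def vn (g : V3) : Fin 3 → ℕ := ![g.a, g.b, g.c]

/-- permuted integer vector -/
def pg (g : V3) (s : Fin 3 → Fin 3) : V3 := ⟨vn g (s 0), vn g (s 1), vn g (s 2)⟩

theorem vec_vn (g : V3) (i : Fin 3) : V3.vec g i = vn g i := by
  fin_cases i <;> rfl

theorem vec_pg (g : V3) (s : Fin 3 → Fin 3) (i : Fin 3) :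
    V3.vec (pg g s) i = V3.vec g (s i) := by
  rw [vec_vn g, vec_vn]
  fin_cases i <;> rfl

/-- level two -/
theorem pair2 (u v : Fin 3 → ℝ) (hu : ∀ i, 0 ≤ u i) (hv : ∀ i, 0 ≤ v i) :
    ∑ r : Equiv.Perm (Fin 3), Hf 57 101 67 (fun i => u i * v (r i)) ≤
      6 * (Hf 115 (-208) 358 u * Z v + Hf 115 (-208) 358 v * Z u +
        Cf 421 (-2925) 2790 u * (W v - 1050 / 10000 * Z v) +
        Cf 421 (-2925) 2790 v * (W u - 1050 / 10000 * Z u) - 1 / 1000 * (W u * W v)) := by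
  obtain ⟨p, hp1, hp2⟩ := exists_sorted u
  obtain ⟨q, hq1, hq2⟩ := exists_sorted v
  rw [symm_pair _ (Hf_perm 57 101 67) u v p q]
  rw [perm_sum (fun r => Hf 57 101 67 (fun i => u (p i) * v (q (r i))))]
  have h := level K2 57 101 67 115 (-208) 358 421 (-2925) 2790 1050 10000 ⟨1, 1, 0⟩ ⟨1, 0, 0⟩
    (fun s => (pg ⟨1, 1, 0⟩ s, pg ⟨1, 0, 0⟩ s)) (fun s i => vec_pg _ s i) (fun s i => vec_pg _ s i)
    (by
      intro s hs
      rcases hs with h | h | h | h | h | h <;> subst h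
      · exact chkT_pos 112 12 _ (by norm_num) (by decide +kernel) (by decide +kernel)
          (by decide +kernel) (by decide +kernel) _ _ _ _ _ _ _ c_i2_0
      · exact chkT_pos 104 12 _ (by norm_num) (by decide +kernel) (by decide +kernel)
          (by decide +kernel) (by decide +kernel) _ _ _ _ _ _ _ c_i2_1
      · exact chkT_pos 106 12 _ (by norm_num) (by decide +kernel) (by decide +kernel)
          (by decide +kernel) (by decide +kernel) _ _ _ _ _ _ _ c_i2_2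
      · exact chkT_pos 107 12 _ (by norm_num) (by decide +kernel) (by decide +kernel)
          (by decide +kernel) (by decide +kernel) _ _ _ _ _ _ _ c_i2_3
      · exact chkT_pos 107 12 _ (by norm_num) (by decide +kernel) (by decide +kernel)
          (by decide +kernel) (by decide +kernel) _ _ _ _ _ _ _ c_i2_4
      · exact chkT_pos 107 12 _ (by norm_num) (by decide +kernel) (by decide +kernel)
          (by decide +kernel) (by decide +kernel) _ _ _ _ _ _ _ c_i2_5)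
    (chkT_pos 96 7 _ (by norm_num) (by decide +kernel) (by decide +kernel)
      (by decide +kernel) (by decide +kernel) _ _ _ _ _ _ _ c_ii2)
    (N_all 57 101 67 _ _ _ (chkT_pos 60 5 _ (by norm_num) (by decide +kernel) (by decide +kernel)
      (by decide +kernel) (by decide +kernel) _ _ _ _ _ _ _ c_N0))
    (s0 := u (p 2)) (s1 := u (p 1) - u (p 2)) (s2 := u (p 0) - u (p 1))
    (t0 := v (q 2)) (t1 := v (q 1) - v (q 2)) (t2 := v (q 0) - v (q 1))
    (hu _) (by linarith) (by linarith) (hv _) (by linarith) (by linarith)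
    (fun i => u (p i)) (fun i => v (q i)) (pt_full _) (pt_full _)
  rw [Hf_perm, Hf_perm, Cf_perm, Cf_perm, W_perm, W_perm, Z_perm, Z_perm] at h
  refine h.trans (le_of_eq ?_)
  norm_num

/-- level one -/
theorem pair1 (u v : Fin 3 → ℝ) (hu : ∀ i, 0 ≤ u i) (hv : ∀ i, 0 ≤ v i)
    (hu2 : ∀ i, 2 * u i ≤ SS u) (hv2 : ∀ i, 2 * v i ≤ SS v) :
    ∑ r : Equiv.Perm (Fin 3), Hf 115 (-208) 358 (fun i => u i * v (r i)) ≤
      6 * (Hf 228 (-808) 1072 u * Z v + Hf 228 (-808) 1072 v * Z u +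
        Cf 70 (-1414) 8322 u * (W v - 525 / 10000 * Z v) +
        Cf 70 (-1414) 8322 v * (W u - 525 / 10000 * Z u) - 1 / 1000 * (W u * W v)) := by
  obtain ⟨p, hp1, hp2⟩ := exists_sorted u
  obtain ⟨q, hq1, hq2⟩ := exists_sorted v
  have hs : SS (fun i => u (p i)) = SS u := SS_perm u p
  have h3 := hu2 (p 0)
  rw [← hs] at h3
  unfold SS at h3
  have hs' : SS (fun i => v (q i)) = SS v := SS_perm v q
  have h3' := hv2 (q 0)
  rw [← hs'] at h3'
  unfold SS at h3'
  rw [symm_pair _ (Hf_perm 115 (-208) 358) u v p q]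
  rw [perm_sum (fun r => Hf 115 (-208) 358 (fun i => u (p i) * v (q (r i))))]
  have h := level K1 115 (-208) 358 228 (-808) 1072 70 (-1414) 8322 525 10000 ⟨1, 1, 0⟩ ⟨2, 1, 1⟩
    (fun s => (pg ⟨1, 1, 0⟩ s, pg ⟨2, 1, 1⟩ s)) (fun s i => vec_pg _ s i) (fun s i => vec_pg _ s i)
    (by
      intro s hs
      rcases hs with h | h | h | h | h | h <;> subst h
      · exact chkT_pos 131 12 _ (by norm_num) (by decide +kernel) (by decide +kernel)
          (by decide +kernel) (by decide +kernel) _ _ _ _ _ _ _ c_i1_0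
      · exact chkT_pos 129 12 _ (by norm_num) (by decide +kernel) (by decide +kernel)
          (by decide +kernel) (by decide +kernel) _ _ _ _ _ _ _ c_i1_1
      · exact chkT_pos 117 12 _ (by norm_num) (by decide +kernel) (by decide +kernel)
          (by decide +kernel) (by decide +kernel) _ _ _ _ _ _ _ c_i1_2
      · exact chkT_pos 145 12 _ (by norm_num) (by decide +kernel) (by decide +kernel)
          (by decide +kernel) (by decide +kernel) _ _ _ _ _ _ _ c_i1_3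
      · exact chkT_pos 145 12 _ (by norm_num) (by decide +kernel) (by decide +kernel)
          (by decide +kernel) (by decide +kernel) _ _ _ _ _ _ _ c_i1_4
      · exact chkT_pos 148 12 _ (by norm_num) (by decide +kernel) (by decide +kernel)
          (by decide +kernel) (by decide +kernel) _ _ _ _ _ _ _ c_i1_5)
    (chkT_pos 102 7 _ (by norm_num) (by decide +kernel) (by decide +kernel)
      (by decide +kernel) (by decide +kernel) _ _ _ _ _ _ _ c_ii1)
    (N_all 115 (-208) 358 _ _ _ (chkT_pos 60 5 _ (by norm_num) (by decide +kernel)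
      (by decide +kernel) (by decide +kernel) (by decide +kernel) _ _ _ _ _ _ _ c_N2))
    (s0 := u (p 2) + u (p 1) - u (p 0)) (s1 := u (p 1) - u (p 2)) (s2 := u (p 0) - u (p 1))
    (t0 := v (q 2) + v (q 1) - v (q 0)) (t1 := v (q 1) - v (q 2)) (t2 := v (q 0) - v (q 1))
    (by linarith) (by linarith) (by linarith) (by linarith) (by linarith) (by linarith)
    (fun i => u (p i)) (fun i => v (q i)) (pt_edge _) (pt_edge _)
  rw [Hf_perm, Hf_perm, Cf_perm, Cf_perm, W_perm, W_perm, Z_perm, Z_perm] at h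
  refine h.trans (le_of_eq ?_)
  norm_num

end Vale.Agent.P154
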