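import Vale.Agent.P154.Near.Kr2

/-!
# P154: subdivision trees
-/

namespace Vale.Agent.P154

open Finset

namespace PExp

/-- subdivision trees: `u ij a b` splits the first cone at `a g_i + b g_j` -/
inductive Tr
  | l : Tr
  | u01 : ℕ → ℕ → Tr → Tr → Tr
  | u02 : ℕ → ℕ → Tr → Tr → Tr
  | u12 : ℕ → ℕ → Tr → Tr → Tr
  | v01 : ℕ → ℕ → Tr → Tr → Tr
  | v02 : ℕ → ℕ → Tr → Tr → Tr
  | v12 : ℕ → ℕ → Tr → Tr → Tr

/-- combination of two integer vectors -/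
def cmb (a b : ℕ) (g h : V3) : V3 :=
  ⟨Nat.add (Nat.mul a g.a) (Nat.mul b h.a), Nat.add (Nat.mul a g.b) (Nat.mul b h.b),
    Nat.add (Nat.mul a g.c) (Nat.mul b h.c)⟩

/-- the test of a tree -/
noncomputable def chkT (b n : ℕ) (e : PExp) (t : Tr) : V3 → V3 → V3 → V3 → V3 → V3 → Bool :=
  @Tr.rec (fun _ => V3 → V3 → V3 → V3 → V3 → V3 → Bool)
    (fun g0 g1 g2 h0 h1 h2 => kr b n (envF g0 g1 g2 h0 h1 h2) e)
    (fun x y _ _ L R g0 g1 g2 h0 h1 h2 => cond (Nat.ble 1 x) (cond (Nat.ble 1 y)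
      (cond (L g0 (cmb x y g0 g1) g2 h0 h1 h2) (R (cmb x y g0 g1) g1 g2 h0 h1 h2) false)
        false) false)
    (fun x y _ _ L R g0 g1 g2 h0 h1 h2 => cond (Nat.ble 1 x) (cond (Nat.ble 1 y)
      (cond (L g0 g1 (cmb x y g0 g2) h0 h1 h2) (R (cmb x y g0 g2) g1 g2 h0 h1 h2) false)
        false) false)
    (fun x y _ _ L R g0 g1 g2 h0 h1 h2 => cond (Nat.ble 1 x) (cond (Nat.ble 1 y)
      (cond (L g0 g1 (cmb x y g1 g2) h0 h1 h2) (R g0 (cmb x y g1 g2) g2 h0 h1 h2) false)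
        false) false)
    (fun x y _ _ L R g0 g1 g2 h0 h1 h2 => cond (Nat.ble 1 x) (cond (Nat.ble 1 y)
      (cond (L g0 g1 g2 h0 (cmb x y h0 h1) h2) (R g0 g1 g2 (cmb x y h0 h1) h1 h2) false)
        false) false)
    (fun x y _ _ L R g0 g1 g2 h0 h1 h2 => cond (Nat.ble 1 x) (cond (Nat.ble 1 y)
      (cond (L g0 g1 g2 h0 h1 (cmb x y h0 h2)) (R g0 g1 g2 (cmb x y h0 h2) h1 h2) false)
        false) false)
    (fun x y _ _ L R g0 g1 g2 h0 h1 h2 => cond (Nat.ble 1 x) (cond (Nat.ble 1 y)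
      (cond (L g0 g1 g2 h0 h1 (cmb x y h1 h2)) (R g0 g1 g2 h0 (cmb x y h1 h2) h2) false)
        false) false) t

/-- nonnegativity on a product of cones -/
def Pos (e : PExp) (g0 g1 g2 h0 h1 h2 : V3) : Prop :=
  ∀ s0 s1 s2 t0 t1 t2 : ℝ, 0 ≤ s0 → 0 ≤ s1 → 0 ≤ s2 → 0 ≤ t0 → 0 ≤ t1 → 0 ≤ t2 →
    0 ≤ ev (envR (pt g0 g1 g2 s0 s1 s2) (pt h0 h1 h2 t0 t1 t2)) e

/-- gradings of the two groups -/
def gU (i : ℕ) : ℕ := cond (Nat.ble i 2) 1 (cond (Nat.ble i 5) 0 (cond (Nat.ble i 8) 1 0))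
/-- gradings of the two groups -/
def gV (i : ℕ) : ℕ := cond (Nat.ble i 2) 0 (cond (Nat.ble i 5) 1 (cond (Nat.ble i 8) 0 1))

theorem envR_big (u v : Fin 3 → ℝ) (i : ℕ) (h : 12 ≤ i) : envR u v i = 0 := by
  have : ∀ j, j < 12 → i ≠ j := fun j hj => by omega
  unfold envR
  rw [if_neg (this 0 (by norm_num)), if_neg (this 1 (by norm_num)),
    if_neg (this 2 (by norm_num)), if_neg (this 3 (by norm_num)), if_neg (this 4 (by norm_num)),
    if_neg (this 5 (by norm_num)), if_neg (this 6 (by norm_num)), if_neg (this 7 (by norm_num)),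
    if_neg (this 8 (by norm_num)), if_neg (this 9 (by norm_num)),
    if_neg (this 10 (by norm_num)), if_neg (this 11 (by norm_num))]

theorem envR_smul_u (c : ℝ) (u v : Fin 3 → ℝ) (i : ℕ) :
    envR (fun j => c * u j) v i = c ^ gU i * envR u v i := by
  by_cases h : i < 12
  · interval_cases i
    · show c * u 0 = c ^ 1 * (u 0)
      ring
    · show c * u 1 = c ^ 1 * (u 1)
      ring
    · show c * u 2 = c ^ 1 * (u 2)
      ring
    · show v 0 = c ^ 0 * (v 0)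
      ring
    · show v 1 = c ^ 0 * (v 1)
      ring
    · show v 2 = c ^ 0 * (v 2)
      ring
    · show 2 * (c * u 0) - c * u 1 - c * u 2 = c ^ 1 * (2 * u 0 - u 1 - u 2)
      ring
    · show c * u 1 - c * u 2 = c ^ 1 * (u 1 - u 2)
      ring
    · show c * u 0 + c * u 1 + c * u 2 = c ^ 1 * (u 0 + u 1 + u 2)
      ring
    · show 2 * v 0 - v 1 - v 2 = c ^ 0 * (2 * v 0 - v 1 - v 2)
      ring
    · show v 1 - v 2 = c ^ 0 * (v 1 - v 2)
      ring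
    · show v 0 + v 1 + v 2 = c ^ 0 * (v 0 + v 1 + v 2)
      ring
  · rw [envR_big _ _ _ (by omega), envR_big _ _ _ (by omega), mul_zero]

theorem envR_smul_v (c : ℝ) (u v : Fin 3 → ℝ) (i : ℕ) :
    envR u (fun j => c * v j) i = c ^ gV i * envR u v i := by
  by_cases h : i < 12
  · interval_cases i
    · show u 0 = c ^ 0 * (u 0)
      ring
    · show u 1 = c ^ 0 * (u 1)
      ring
    · show u 2 = c ^ 0 * (u 2)
      ring
    · show c * v 0 = c ^ 1 * (v 0)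
      ring
    · show c * v 1 = c ^ 1 * (v 1)
      ring
    · show c * v 2 = c ^ 1 * (v 2)
      ring
    · show 2 * u 0 - u 1 - u 2 = c ^ 0 * (2 * u 0 - u 1 - u 2)
      ring
    · show u 1 - u 2 = c ^ 0 * (u 1 - u 2)
      ring
    · show u 0 + u 1 + u 2 = c ^ 0 * (u 0 + u 1 + u 2)
      ring
    · show 2 * (c * v 0) - c * v 1 - c * v 2 = c ^ 1 * (2 * v 0 - v 1 - v 2)
      ring
    · show c * v 1 - c * v 2 = c ^ 1 * (v 1 - v 2)
      ring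
    · show c * v 0 + c * v 1 + c * v 2 = c ^ 1 * (v 0 + v 1 + v 2)
      ring
  · rw [envR_big _ _ _ (by omega), envR_big _ _ _ (by omega), mul_zero]

theorem ev_smul_u (e : PExp) (hu : hom gU e = true) (c : ℝ) (u v : Fin 3 → ℝ) :
    ev (envR (fun j => c * u j) v) e = c ^ hd gU e * ev (envR u v) e := by
  rw [← ev_homN gU _ c e hu]
  congr 1
  funext i
  exact envR_smul_u c u v i

theorem ev_smul_v (e : PExp) (hv : hom gV e = true) (c : ℝ) (u v : Fin 3 → ℝ) :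
    ev (envR u (fun j => c * v j)) e = c ^ hd gV e * ev (envR u v) e := by
  rw [← ev_homN gV _ c e hv]
  congr 1
  funext i
  exact envR_smul_v c u v i

theorem continuous_envR (u v : ℝ → Fin 3 → ℝ) (hu : ∀ j, Continuous fun t => u t j)
    (hv : ∀ j, Continuous fun t => v t j) (i : ℕ) : Continuous fun t => envR (u t) (v t) i := by
  have a0 := hu 0
  have a1 := hu 1
  have a2 := hu 2
  have b0 := hv 0
  have b1 := hv 1
  have b2 := hv 2
  by_cases h : i < 12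
  · interval_cases i
    · exact a0
    · exact a1
    · exact a2
    · exact b0
    · exact b1
    · exact b2
    · exact ((continuous_const.mul a0).sub a1).sub a2
    · exact a1.sub a2
    · exact (a0.add a1).add a2
    · exact ((continuous_const.mul b0).sub b1).sub b2
    · exact b1.sub b2
    · exact (b0.add b1).add b2
  · have e : (fun t => envR (u t) (v t) i) = fun _ => (0 : ℝ) := by
      funext t
      exact envR_big _ _ _ (by omega)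
    rw [e]
    exact continuous_const

theorem envF_big (g0 g1 g2 h0 h1 h2 : V3) (i : ℕ) (hi : 12 ≤ i) :
    envF g0 g1 g2 h0 h1 h2 i = .k 0 := by
  unfold envF
  have t1 : Nat.blt i 6 = false := by
    rw [← Bool.not_eq_true, Nat.blt_eq]; omega
  have t2 : Nat.blt i 9 = false := by
    rw [← Bool.not_eq_true, Nat.blt_eq]; omega
  have t3 : ∀ j, j < 12 → Nat.beq i j = false := by
    intro j hj
    rw [← Bool.not_eq_true, Nat.beq_eq]; omega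
  rw [t1, t2, t3 9 (by norm_num), t3 10 (by norm_num), t3 11 (by norm_num)]
  rfl

theorem vb_envF (g0 g1 g2 h0 h1 h2 : V3) (i : ℕ) : vb 4 (envF g0 g1 g2 h0 h1 h2 i) = true := by
  by_cases h : i < 12
  · interval_cases i <;> rfl
  · rw [envF_big _ _ _ _ _ _ _ (by omega)]; rfl

theorem dg_envF0 (g0 g1 g2 h0 h1 h2 : V3) (i : ℕ) :
    dg 0 (envF g0 g1 g2 h0 h1 h2 i) ≤ gV i := by
  by_cases h : i < 12
  · interval_cases i <;> exact Nat.le_of_ble_eq_true rfl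
  · rw [envF_big _ _ _ _ _ _ _ (by omega)]; exact Nat.zero_le _

theorem dg_envF1 (g0 g1 g2 h0 h1 h2 : V3) (i : ℕ) :
    dg 1 (envF g0 g1 g2 h0 h1 h2 i) ≤ gV i := by
  by_cases h : i < 12
  · interval_cases i <;> exact Nat.le_of_ble_eq_true rfl
  · rw [envF_big _ _ _ _ _ _ _ (by omega)]; exact Nat.zero_le _

theorem dg_envF2 (g0 g1 g2 h0 h1 h2 : V3) (i : ℕ) :
    dg 2 (envF g0 g1 g2 h0 h1 h2 i) ≤ gU i := by
  by_cases h : i < 12
  · interval_cases i <;> exact Nat.le_of_ble_eq_true rfl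
  · rw [envF_big _ _ _ _ _ _ _ (by omega)]; exact Nat.zero_le _

theorem dg_envF3 (g0 g1 g2 h0 h1 h2 : V3) (i : ℕ) :
    dg 3 (envF g0 g1 g2 h0 h1 h2 i) ≤ gU i := by
  by_cases h : i < 12
  · interval_cases i <;> exact Nat.le_of_ble_eq_true rfl
  · rw [envF_big _ _ _ _ _ _ _ (by omega)]; exact Nat.zero_le _

theorem pos_leaf (b n : ℕ) (e : PExp) (hb : 0 < b) (hwu : wd gU e < n) (hwv : wd gV e < n)
    (hu : hom gU e = true) (hv : hom gV e = true)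
    (g0 g1 g2 h0 h1 h2 : V3) (h : kr b n (envF g0 g1 g2 h0 h1 h2) e = true) :
    Pos e g0 g1 g2 h0 h1 h2 := by
  -- dehomogenised inequality
  have key : ∀ p q r s : ℝ, 0 ≤ p → 0 ≤ q → 0 ≤ r → 0 ≤ s →
      0 ≤ ev (envR (pt g0 g1 g2 1 p q) (pt h0 h1 h2 1 r s)) e := by
    intro p q r s hp hq hr hs
    have hh := ev_nonneg_kr b n (envF g0 g1 g2 h0 h1 h2) e hb (vb_sb 4 _ (vb_envF g0 g1 g2 h0 h1 h2) e)
      (fun i hi => by
        interval_cases i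
        · exact lt_of_le_of_lt (dg_sb gV _ 0 (dg_envF0 g0 g1 g2 h0 h1 h2) e) hwv
        · exact lt_of_le_of_lt (dg_sb gV _ 1 (dg_envF1 g0 g1 g2 h0 h1 h2) e) hwv
        · exact lt_of_le_of_lt (dg_sb gU _ 2 (dg_envF2 g0 g1 g2 h0 h1 h2) e) hwu
        · exact lt_of_le_of_lt (dg_sb gU _ 3 (dg_envF3 g0 g1 g2 h0 h1 h2) e) hwu) h
      (pt4 p q r s) (by
      intro i
      unfold pt4
      split_ifs <;> first | assumption | exact le_refl 0)
    rw [ev_sb] at hh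
    have e1 : (fun i => ev (pt4 p q r s) (envF g0 g1 g2 h0 h1 h2 i)) =
        envR (pt g0 g1 g2 1 p q) (pt h0 h1 h2 1 r s) := by
      funext i
      exact ev_envF g0 g1 g2 h0 h1 h2 p q r s i
    rwa [e1] at hh
  -- positive first coordinates
  have key2 : ∀ s0 s1 s2 t0 t1 t2 : ℝ, 0 < s0 → 0 ≤ s1 → 0 ≤ s2 → 0 < t0 → 0 ≤ t1 → 0 ≤ t2 →
      0 ≤ ev (envR (pt g0 g1 g2 s0 s1 s2) (pt h0 h1 h2 t0 t1 t2)) e := by
    intro s0 s1 s2 t0 t1 t2 hs0 hs1 hs2 ht0 ht1 ht2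
    have e1 : pt g0 g1 g2 s0 s1 s2 = fun j => s0 * pt g0 g1 g2 1 (s1 / s0) (s2 / s0) j := by
      funext j
      unfold pt
      field_simp
    have e2 : pt h0 h1 h2 t0 t1 t2 = fun j => t0 * pt h0 h1 h2 1 (t1 / t0) (t2 / t0) j := by
      funext j
      unfold pt
      field_simp
    rw [e1, e2, ev_smul_u e hu, ev_smul_v e hv]
    have := key (s1 / s0) (s2 / s0) (t1 / t0) (t2 / t0) (by positivity) (by positivity)
      (by positivity) (by positivity)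
    positivity
  intro s0 s1 s2 t0 t1 t2 hs0 hs1 hs2 ht0 ht1 ht2
  have hc := nonneg_of_pos (fun t => ev (envR (pt g0 g1 g2 (s0 + t) s1 s2)
    (pt h0 h1 h2 (t0 + t) t1 t2)) e) (continuous_ev _ (continuous_envR _ _
      (fun j => by unfold pt; fun_prop) (fun j => by unfold pt; fun_prop)) e)
    (fun t ht => key2 _ _ _ _ _ _ (by linarith) hs1 hs2 (by linarith) ht1 ht2)
  simpa using hc

theorem vec_cmb (x y : ℕ) (g h : V3) (i : Fin 3) :
    V3.vec (cmb x y g h) i = x * V3.vec g i + y * V3.vec h i := by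
  fin_cases i <;> simp [V3.vec, cmb]

/-- splitting the coordinates -/
theorem split_cases (s t : ℝ) (hs : 0 ≤ s) (ht : 0 ≤ t) (x y : ℕ) (hx : 1 ≤ x) (hy : 1 ≤ y) :
    (∃ s' t' : ℝ, 0 ≤ s' ∧ 0 ≤ t' ∧ s' + t' * x = s ∧ t' * y = t) ∨
    (∃ s' t' : ℝ, 0 ≤ s' ∧ 0 ≤ t' ∧ s' * x = s ∧ s' * y + t' = t) := by
  have hx' : (0 : ℝ) < x := by exact_mod_cast hx
  have hy' : (0 : ℝ) < y := by exact_mod_cast hy
  rcases le_total (t * x) (s * y) with h | h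
  · left
    refine ⟨s - t / y * x, t / y, ?_, by positivity, by ring, by field_simp⟩
    have : t / y * x = t * x / y := by ring
    rw [this, sub_nonneg, div_le_iff₀ hy']
    exact h
  · right
    refine ⟨s / x, t - s / x * y, by positivity, ?_, by field_simp, by ring⟩
    have : s / x * y = s * y / x := by ring
    rw [this, sub_nonneg, div_le_iff₀ hx']
    exact h

theorem pt_eq {g0 g1 g2 g0' g1' g2' : V3} {s0 s1 s2 s0' s1' s2' : ℝ}
    (h : ∀ i, s0 * V3.vec g0 i + s1 * V3.vec g1 i + s2 * V3.vec g2 i =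
      s0' * V3.vec g0' i + s1' * V3.vec g1' i + s2' * V3.vec g2' i) :
    pt g0 g1 g2 s0 s1 s2 = pt g0' g1' g2' s0' s1' s2' := by
  funext i
  exact h i

theorem pos_u01 {e : PExp} {g0 g1 g2 h0 h1 h2 : V3} {x y : ℕ} (hx : 1 ≤ x) (hy : 1 ≤ y)
    (hl : Pos e g0 (cmb x y g0 g1) g2 h0 h1 h2) (hr : Pos e (cmb x y g0 g1) g1 g2 h0 h1 h2) :
    Pos e g0 g1 g2 h0 h1 h2 := by
  intro s0 s1 s2 t0 t1 t2 hs0 hs1 hs2 ht0 ht1 ht2
  rcases split_cases s0 s1 hs0 hs1 x y hx hy with ⟨s', t', a, b, c, d⟩ | ⟨s', t', a, b, c, d⟩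
  · rw [pt_eq (g0' := g0) (g1' := cmb x y g0 g1) (g2' := g2) (s0' := s') (s1' := t') (s2' := s2)
      (fun i => by rw [vec_cmb, ← c, ← d]; ring)]
    exact hl _ _ _ _ _ _ a b hs2 ht0 ht1 ht2
  · rw [pt_eq (g0' := cmb x y g0 g1) (g1' := g1) (g2' := g2) (s0' := s') (s1' := t') (s2' := s2)
      (fun i => by rw [vec_cmb, ← c, ← d]; ring)]
    exact hr _ _ _ _ _ _ a b hs2 ht0 ht1 ht2

theorem pos_u02 {e : PExp} {g0 g1 g2 h0 h1 h2 : V3} {x y : ℕ} (hx : 1 ≤ x) (hy : 1 ≤ y)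
    (hl : Pos e g0 g1 (cmb x y g0 g2) h0 h1 h2) (hr : Pos e (cmb x y g0 g2) g1 g2 h0 h1 h2) :
    Pos e g0 g1 g2 h0 h1 h2 := by
  intro s0 s1 s2 t0 t1 t2 hs0 hs1 hs2 ht0 ht1 ht2
  rcases split_cases s0 s2 hs0 hs2 x y hx hy with ⟨s', t', a, b, c, d⟩ | ⟨s', t', a, b, c, d⟩
  · rw [pt_eq (g0' := g0) (g1' := g1) (g2' := cmb x y g0 g2) (s0' := s') (s1' := s1) (s2' := t')
      (fun i => by rw [vec_cmb, ← c, ← d]; ring)]
    exact hl _ _ _ _ _ _ a hs1 b ht0 ht1 ht2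
  · rw [pt_eq (g0' := cmb x y g0 g2) (g1' := g1) (g2' := g2) (s0' := s') (s1' := s1) (s2' := t')
      (fun i => by rw [vec_cmb, ← c, ← d]; ring)]
    exact hr _ _ _ _ _ _ a hs1 b ht0 ht1 ht2

theorem pos_u12 {e : PExp} {g0 g1 g2 h0 h1 h2 : V3} {x y : ℕ} (hx : 1 ≤ x) (hy : 1 ≤ y)
    (hl : Pos e g0 g1 (cmb x y g1 g2) h0 h1 h2) (hr : Pos e g0 (cmb x y g1 g2) g2 h0 h1 h2) :
    Pos e g0 g1 g2 h0 h1 h2 := by
  intro s0 s1 s2 t0 t1 t2 hs0 hs1 hs2 ht0 ht1 ht2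
  rcases split_cases s1 s2 hs1 hs2 x y hx hy with ⟨s', t', a, b, c, d⟩ | ⟨s', t', a, b, c, d⟩
  · rw [pt_eq (g0' := g0) (g1' := g1) (g2' := cmb x y g1 g2) (s0' := s0) (s1' := s') (s2' := t')
      (fun i => by rw [vec_cmb, ← c, ← d]; ring)]
    exact hl _ _ _ _ _ _ hs0 a b ht0 ht1 ht2
  · rw [pt_eq (g0' := g0) (g1' := cmb x y g1 g2) (g2' := g2) (s0' := s0) (s1' := s') (s2' := t')
      (fun i => by rw [vec_cmb, ← c, ← d]; ring)]
    exact hr _ _ _ _ _ _ hs0 a b ht0 ht1 ht2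

theorem pos_v01 {e : PExp} {g0 g1 g2 h0 h1 h2 : V3} {x y : ℕ} (hx : 1 ≤ x) (hy : 1 ≤ y)
    (hl : Pos e g0 g1 g2 h0 (cmb x y h0 h1) h2) (hr : Pos e g0 g1 g2 (cmb x y h0 h1) h1 h2) :
    Pos e g0 g1 g2 h0 h1 h2 := by
  intro s0 s1 s2 t0 t1 t2 hs0 hs1 hs2 ht0 ht1 ht2
  rcases split_cases t0 t1 ht0 ht1 x y hx hy with ⟨s', t', a, b, c, d⟩ | ⟨s', t', a, b, c, d⟩
  · rw [pt_eq (g0 := h0) (g1 := h1) (g2 := h2) (g0' := h0) (g1' := cmb x y h0 h1) (g2' := h2)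
      (s0' := s') (s1' := t') (s2' := t2) (fun i => by rw [vec_cmb, ← c, ← d]; ring)]
    exact hl _ _ _ _ _ _ hs0 hs1 hs2 a b ht2
  · rw [pt_eq (g0 := h0) (g1 := h1) (g2 := h2) (g0' := cmb x y h0 h1) (g1' := h1) (g2' := h2)
      (s0' := s') (s1' := t') (s2' := t2) (fun i => by rw [vec_cmb, ← c, ← d]; ring)]
    exact hr _ _ _ _ _ _ hs0 hs1 hs2 a b ht2

theorem pos_v02 {e : PExp} {g0 g1 g2 h0 h1 h2 : V3} {x y : ℕ} (hx : 1 ≤ x) (hy : 1 ≤ y)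
    (hl : Pos e g0 g1 g2 h0 h1 (cmb x y h0 h2)) (hr : Pos e g0 g1 g2 (cmb x y h0 h2) h1 h2) :
    Pos e g0 g1 g2 h0 h1 h2 := by
  intro s0 s1 s2 t0 t1 t2 hs0 hs1 hs2 ht0 ht1 ht2
  rcases split_cases t0 t2 ht0 ht2 x y hx hy with ⟨s', t', a, b, c, d⟩ | ⟨s', t', a, b, c, d⟩
  · rw [pt_eq (g0 := h0) (g1 := h1) (g2 := h2) (g0' := h0) (g1' := h1) (g2' := cmb x y h0 h2)
      (s0' := s') (s1' := t1) (s2' := t') (fun i => by rw [vec_cmb, ← c, ← d]; ring)]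
    exact hl _ _ _ _ _ _ hs0 hs1 hs2 a ht1 b
  · rw [pt_eq (g0 := h0) (g1 := h1) (g2 := h2) (g0' := cmb x y h0 h2) (g1' := h1) (g2' := h2)
      (s0' := s') (s1' := t1) (s2' := t') (fun i => by rw [vec_cmb, ← c, ← d]; ring)]
    exact hr _ _ _ _ _ _ hs0 hs1 hs2 a ht1 b

theorem pos_v12 {e : PExp} {g0 g1 g2 h0 h1 h2 : V3} {x y : ℕ} (hx : 1 ≤ x) (hy : 1 ≤ y)
    (hl : Pos e g0 g1 g2 h0 h1 (cmb x y h1 h2)) (hr : Pos e g0 g1 g2 h0 (cmb x y h1 h2) h2) :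
    Pos e g0 g1 g2 h0 h1 h2 := by
  intro s0 s1 s2 t0 t1 t2 hs0 hs1 hs2 ht0 ht1 ht2
  rcases split_cases t1 t2 ht1 ht2 x y hx hy with ⟨s', t', a, b, c, d⟩ | ⟨s', t', a, b, c, d⟩
  · rw [pt_eq (g0 := h0) (g1 := h1) (g2 := h2) (g0' := h0) (g1' := h1) (g2' := cmb x y h1 h2)
      (s0' := t0) (s1' := s') (s2' := t') (fun i => by rw [vec_cmb, ← c, ← d]; ring)]
    exact hl _ _ _ _ _ _ hs0 hs1 hs2 ht0 a b
  · rw [pt_eq (g0 := h0) (g1 := h1) (g2 := h2) (g0' := h0) (g1' := cmb x y h1 h2) (g2' := h2)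
      (s0' := t0) (s1' := s') (s2' := t') (fun i => by rw [vec_cmb, ← c, ← d]; ring)]
    exact hr _ _ _ _ _ _ hs0 hs1 hs2 ht0 a b

theorem chkT_pos (b n : ℕ) (e : PExp) (hb : 0 < b) (hwu : wd gU e < n) (hwv : wd gV e < n)
    (hu : hom gU e = true) (hv : hom gV e = true) (t : Tr) :
    ∀ g0 g1 g2 h0 h1 h2 : V3, chkT b n e t g0 g1 g2 h0 h1 h2 = true →
      Pos e g0 g1 g2 h0 h1 h2 := by
  induction t with
  | l =>
    intro g0 g1 g2 h0 h1 h2 h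
    exact pos_leaf b n e hb hwu hwv hu hv _ _ _ _ _ _ h
  | u01 x y L R ihL ihR =>
    intro g0 g1 g2 h0 h1 h2 h
    have h' : cond (Nat.ble 1 x) (cond (Nat.ble 1 y)
      (cond (chkT b n e L g0 (cmb x y g0 g1) g2 h0 h1 h2)
        (chkT b n e R (cmb x y g0 g1) g1 g2 h0 h1 h2) false) false) false = true := h
    simp only [Bool.cond_false_right, Bool.and_eq_true, Nat.ble_eq] at h'
    exact pos_u01 h'.1 h'.2.1 (ihL _ _ _ _ _ _ h'.2.2.1) (ihR _ _ _ _ _ _ h'.2.2.2)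
  | u02 x y L R ihL ihR =>
    intro g0 g1 g2 h0 h1 h2 h
    have h' : cond (Nat.ble 1 x) (cond (Nat.ble 1 y)
      (cond (chkT b n e L g0 g1 (cmb x y g0 g2) h0 h1 h2)
        (chkT b n e R (cmb x y g0 g2) g1 g2 h0 h1 h2) false) false) false = true := h
    simp only [Bool.cond_false_right, Bool.and_eq_true, Nat.ble_eq] at h'
    exact pos_u02 h'.1 h'.2.1 (ihL _ _ _ _ _ _ h'.2.2.1) (ihR _ _ _ _ _ _ h'.2.2.2)
  | u12 x y L R ihL ihR =>
    intro g0 g1 g2 h0 h1 h2 h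
    have h' : cond (Nat.ble 1 x) (cond (Nat.ble 1 y)
      (cond (chkT b n e L g0 g1 (cmb x y g1 g2) h0 h1 h2)
        (chkT b n e R g0 (cmb x y g1 g2) g2 h0 h1 h2) false) false) false = true := h
    simp only [Bool.cond_false_right, Bool.and_eq_true, Nat.ble_eq] at h'
    exact pos_u12 h'.1 h'.2.1 (ihL _ _ _ _ _ _ h'.2.2.1) (ihR _ _ _ _ _ _ h'.2.2.2)
  | v01 x y L R ihL ihR =>
    intro g0 g1 g2 h0 h1 h2 h
    have h' : cond (Nat.ble 1 x) (cond (Nat.ble 1 y)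
      (cond (chkT b n e L g0 g1 g2 h0 (cmb x y h0 h1) h2)
        (chkT b n e R g0 g1 g2 (cmb x y h0 h1) h1 h2) false) false) false = true := h
    simp only [Bool.cond_false_right, Bool.and_eq_true, Nat.ble_eq] at h'
    exact pos_v01 h'.1 h'.2.1 (ihL _ _ _ _ _ _ h'.2.2.1) (ihR _ _ _ _ _ _ h'.2.2.2)
  | v02 x y L R ihL ihR =>
    intro g0 g1 g2 h0 h1 h2 h
    have h' : cond (Nat.ble 1 x) (cond (Nat.ble 1 y)
      (cond (chkT b n e L g0 g1 g2 h0 h1 (cmb x y h0 h2))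
        (chkT b n e R g0 g1 g2 (cmb x y h0 h2) h1 h2) false) false) false = true := h
    simp only [Bool.cond_false_right, Bool.and_eq_true, Nat.ble_eq] at h'
    exact pos_v02 h'.1 h'.2.1 (ihL _ _ _ _ _ _ h'.2.2.1) (ihR _ _ _ _ _ _ h'.2.2.2)
  | v12 x y L R ihL ihR =>
    intro g0 g1 g2 h0 h1 h2 h
    have h' : cond (Nat.ble 1 x) (cond (Nat.ble 1 y)
      (cond (chkT b n e L g0 g1 g2 h0 h1 (cmb x y h1 h2))
        (chkT b n e R g0 g1 g2 h0 (cmb x y h1 h2) h2) false) false) false = true := h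
    simp only [Bool.cond_false_right, Bool.and_eq_true, Nat.ble_eq] at h'
    exact pos_v12 h'.1 h'.2.1 (ihL _ _ _ _ _ _ h'.2.2.1) (ihR _ _ _ _ _ _ h'.2.2.2)

end PExp

end Vale.Agent.P154
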